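import Mathlib

open MeasureTheory Complex Finset
open scoped Real ComplexConjugate

namespace Vale.Agent.P130

abbrev Tc := UnitAddCircle

noncomputable abbrev hm : Measure Tc := AddCircle.haarAddCircle

lemma hm_eq_volume : hm = (volume : Measure Tc) := by
  rw [AddCircle.volume_eq_smul_haarAddCircle]; simp

/-- `e(x) = exp (2 pi i x)`. -/
noncomputable def ex (x : ℝ) : ℂ := Complex.exp (2 * π * I * x)

lemma ex_add (x y : ℝ) : ex (x + y) = ex x * ex y := by
  unfold ex; rw [← Complex.exp_add]; congr 1; push_cast; ring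

@[simp] lemma ex_zero : ex 0 = 1 := by simp [ex]

@[simp] lemma norm_ex (x : ℝ) : ‖ex x‖ = 1 := by
  unfold ex
  have : (2 * π * I * x : ℂ) = ((2 * π * x : ℝ) : ℂ) * I := by push_cast; ring
  rw [this, Complex.norm_exp_ofReal_mul_I]

lemma ex_int (n : ℤ) : ex n = 1 := by
  unfold ex
  have : (2 * π * I * ((n : ℝ) : ℂ) : ℂ) = n * (2 * π * I) := by push_cast; ring
  rw [this, Complex.exp_int_mul_two_pi_mul_I]

lemma ex_neg (x : ℝ) : ex (-x) = conj (ex x) := by
  unfold ex
  rw [← Complex.exp_conj]; congr 1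
  simp [Complex.conj_ofReal, map_ofNat]

lemma ex_ne_zero (x : ℝ) : ex x ≠ 0 := Complex.exp_ne_zero _

lemma ex_nat_mul (n : ℕ) (x : ℝ) : ex (n * x) = ex x ^ n := by
  unfold ex; rw [← Complex.exp_nat_mul]; congr 1; push_cast; ring

lemma ex_sum {ι : Type*} (s : Finset ι) (f : ι → ℝ) : ex (∑ i ∈ s, f i) = ∏ i ∈ s, ex (f i) := by
  classical
  induction s using Finset.induction_on with
  | empty => simp
  | insert a s ha ih => rw [sum_insert ha, prod_insert ha, ex_add, ih]

lemma fourier_coe (n : ℤ) (x : ℝ) : fourier n (x : Tc) = ex (n * x) := by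
  rw [fourier_coe_apply]; unfold ex; congr 1; push_cast; ring

lemma fourier_add_pt (n : ℤ) (x y : Tc) : fourier n (x + y) = fourier n x * fourier n y := by
  simp only [fourier_apply, smul_add, AddCircle.toCircle_add, Circle.coe_mul]

lemma fourier_neg_pt (n : ℤ) (x : Tc) : fourier n (-x) = conj (fourier n x) := by
  rw [← fourier_neg, fourier_apply, fourier_apply, smul_neg, neg_smul]

lemma fourier_smul_pt (n m : ℤ) (x : Tc) : fourier n (m • x) = fourier (n * m) x := by
  rw [fourier_apply, fourier_apply, mul_smul]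

lemma norm_fourier (n : ℤ) (x : Tc) : ‖fourier n x‖ = 1 := by
  rw [fourier_apply]; exact Circle.norm_coe _

lemma fourier_nat (n : ℕ) (x : Tc) : fourier (n : ℤ) x = fourier 1 x ^ n := by
  induction n with
  | zero => simp
  | succ n ih => push_cast; rw [fourier_add, ih, pow_succ]

/-- Bounded strongly measurable functions. -/
structure Bdd {α E : Type*} [MeasurableSpace α] [NormedAddCommGroup E] (f : α → E) : Prop where
  meas : StronglyMeasurable f
  bd : ∃ C, ∀ x, ‖f x‖ ≤ C

namespace Bdd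

variable {α β E : Type*} [MeasurableSpace α] [MeasurableSpace β]

section
variable [NormedAddCommGroup E]

lemma memLp {f : α → E} (hf : Bdd f) (μ : Measure α) [IsFiniteMeasure μ] (p : ENNReal) :
    MemLp f p μ := by
  obtain ⟨C, hC⟩ := hf.bd
  exact MemLp.of_bound hf.meas.aestronglyMeasurable C (ae_of_all _ hC)

lemma integrable {f : α → E} (hf : Bdd f) (μ : Measure α) [IsFiniteMeasure μ] :
    Integrable f μ := memLp_one_iff_integrable.mp (hf.memLp μ 1)

lemma const (c : E) : Bdd (fun _ : α => c) := ⟨stronglyMeasurable_const, ‖c‖, fun _ => le_rfl⟩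

lemma add {f g : α → E} (hf : Bdd f) (hg : Bdd g) : Bdd (fun x => f x + g x) := by
  obtain ⟨C, hC⟩ := hf.bd
  obtain ⟨D, hD⟩ := hg.bd
  exact ⟨hf.meas.add hg.meas, C + D, fun x => (norm_add_le _ _).trans (add_le_add (hC x) (hD x))⟩

lemma neg {f : α → E} (hf : Bdd f) : Bdd (fun x => - f x) := by
  obtain ⟨C, hC⟩ := hf.bd
  exact ⟨hf.meas.neg, C, fun x => by simpa using hC x⟩

lemma sub {f g : α → E} (hf : Bdd f) (hg : Bdd g) : Bdd (fun x => f x - g x) := by
  simpa [sub_eq_add_neg] using hf.add hg.neg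

lemma sum {ι : Type*} (s : Finset ι) {f : ι → α → E} (hf : ∀ i ∈ s, Bdd (f i)) :
    Bdd (fun x => ∑ i ∈ s, f i x) := by
  classical
  induction s using Finset.induction_on with
  | empty => simpa using const (0 : E)
  | insert a s ha ih =>
    simp only [sum_insert ha]
    exact (hf a (mem_insert_self _ _)).add (ih fun i hi => hf i (mem_insert_of_mem hi))

lemma norm {f : α → E} (hf : Bdd f) : Bdd (fun x => ‖f x‖) := by
  obtain ⟨C, hC⟩ := hf.bd
  exact ⟨hf.meas.norm, C, fun x => by simpa using hC x⟩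

lemma comp {f : α → E} (hf : Bdd f) {g : β → α} (hg : Measurable g) : Bdd (fun x => f (g x)) := by
  obtain ⟨C, hC⟩ := hf.bd
  exact ⟨hf.meas.comp_measurable hg, C, fun x => hC _⟩

lemma indicator {f : α → E} (hf : Bdd f) {s : Set α} (hs : MeasurableSet s) :
    Bdd (s.indicator f) := by
  obtain ⟨C, hC⟩ := hf.bd
  exact ⟨hf.meas.indicator hs, C, fun x => (norm_indicator_le_norm_self _ _).trans (hC x)⟩

lemma of_continuous [TopologicalSpace α] [CompactSpace α] [OpensMeasurableSpace α]
    [SecondCountableTopology E] {f : α → E} (hf : Continuous f) : Bdd f := by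
  refine ⟨hf.stronglyMeasurable, ?_⟩
  obtain ⟨C, hC⟩ := (isCompact_univ.image hf).isBounded.exists_norm_le
  exact ⟨C, fun x => hC _ ⟨x, trivial, rfl⟩⟩

end

section
variable [NormedRing E]

lemma mul {f g : α → E} (hf : Bdd f) (hg : Bdd g) : Bdd (fun x => f x * g x) := by
  obtain ⟨C, hC⟩ := hf.bd
  obtain ⟨D, hD⟩ := hg.bd
  refine ⟨hf.meas.mul hg.meas, C * D, fun x => (norm_mul_le _ _).trans ?_⟩
  exact mul_le_mul (hC x) (hD x) (norm_nonneg _) ((norm_nonneg _).trans (hC x))

lemma pow {f : α → E} (hf : Bdd f) (n : ℕ) : Bdd (fun x => f x ^ n) := by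
  induction n with
  | zero => simpa using const (1 : E)
  | succ n ih => simpa [pow_succ] using ih.mul hf

end

lemma prod [NormedCommRing E] {ι : Type*} (s : Finset ι) {f : ι → α → E}
    (hf : ∀ i ∈ s, Bdd (f i)) : Bdd (fun x => ∏ i ∈ s, f i x) := by
  classical
  induction s using Finset.induction_on with
  | empty => simpa using const (1 : E)
  | insert a s ha ih =>
    simp only [prod_insert ha]
    exact (hf a (mem_insert_self _ _)).mul (ih fun i hi => hf i (mem_insert_of_mem hi))

lemma abs {f : α → ℝ} (hf : Bdd f) : Bdd (fun x => |f x|) := hf.norm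

lemma ofReal {f : α → ℝ} (hf : Bdd f) : Bdd (fun x => (f x : ℂ)) := by
  obtain ⟨C, hC⟩ := hf.bd
  exact ⟨Complex.continuous_ofReal.comp_stronglyMeasurable hf.meas, C,
    fun x => by simpa using hC x⟩

lemma star {f : α → ℂ} (hf : Bdd f) : Bdd (fun x => conj (f x)) := by
  obtain ⟨C, hC⟩ := hf.bd
  exact ⟨Complex.continuous_conj.comp_stronglyMeasurable hf.meas, C,
    fun x => by simpa using hC x⟩

end Bdd

lemma bdd_fourier (n : ℤ) : Bdd (fun t : Tc => fourier n t) :=
  Bdd.of_continuous (fourier n).continuous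

/-- The indicator function of a set, with real values. -/
noncomputable def ind {α : Type*} (E : Set α) : α → ℝ := E.indicator (fun _ => 1)

lemma ind_of_mem {α : Type*} {E : Set α} {x : α} (h : x ∈ E) : ind E x = 1 :=
  Set.indicator_of_mem h _

lemma ind_of_notMem {α : Type*} {E : Set α} {x : α} (h : x ∉ E) : ind E x = 0 :=
  Set.indicator_of_notMem h _

lemma ind_nonneg {α : Type*} (E : Set α) (x : α) : 0 ≤ ind E x := by
  by_cases h : x ∈ E
  · rw [ind_of_mem h]; norm_num
  · rw [ind_of_notMem h]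

lemma ind_le_one {α : Type*} (E : Set α) (x : α) : ind E x ≤ 1 := by
  by_cases h : x ∈ E
  · rw [ind_of_mem h]
  · rw [ind_of_notMem h]; norm_num

lemma ind_sq {α : Type*} (E : Set α) (x : α) : ind E x ^ 2 = ind E x := by
  by_cases h : x ∈ E
  · rw [ind_of_mem h]; norm_num
  · rw [ind_of_notMem h]; norm_num

lemma bdd_ind {α : Type*} [MeasurableSpace α] {E : Set α} (hE : MeasurableSet E) :
    Bdd (ind E) := (Bdd.const (1 : ℝ)).indicator hE

lemma integral_ind {α : Type*} [MeasurableSpace α] (μ : Measure α) {E : Set α}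
    (hE : MeasurableSet E) : ∫ x, ind E x ∂μ = μ.real E := by
  unfold ind; rw [integral_indicator hE]; simp

lemma integral_fourier (n : ℤ) : ∫ t, fourier n t ∂hm = if n = 0 then 1 else 0 := by
  have h := congrFun (fourierCoeff_fourier (T := 1) n) 0
  unfold fourierCoeff at h
  simp only [neg_zero, fourier_zero, smul_eq_mul, one_mul] at h
  rw [h, Pi.single_apply]
  by_cases hn : n = 0
  · simp [hn]
  · simp [hn, Ne.symm hn]

/-- The `L^2` norm of a trigonometric polynomial. -/
lemma integral_norm_sq_trig {ι : Type*} (s : Finset ι) (a : ι → ℂ) (n : ι → ℤ)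
    (hn : Set.InjOn n s) :
    ∫ t, ‖∑ i ∈ s, a i * fourier (n i) t‖ ^ 2 ∂hm = ∑ i ∈ s, ‖a i‖ ^ 2 := by
  classical
  have h1 : ∀ t : Tc, ((‖∑ i ∈ s, a i * fourier (n i) t‖ ^ 2 : ℝ) : ℂ) =
      ∑ i ∈ s, ∑ j ∈ s, (a i * conj (a j)) * fourier (n i - n j) t := by
    intro t
    rw [← Complex.normSq_eq_norm_sq, ← Complex.mul_conj, map_sum, sum_mul_sum]
    refine sum_congr rfl fun i _ => sum_congr rfl fun j _ => ?_
    rw [sub_eq_add_neg, fourier_add, fourier_neg, map_mul]; ring
  apply Complex.ofReal_injective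
  rw [← integral_complex_ofReal]
  simp only [h1]
  rw [integral_finsetSum]
  · push_cast
    refine sum_congr rfl fun i hi => ?_
    rw [integral_finsetSum]
    · simp only [integral_const_mul, integral_fourier]
      rw [sum_eq_single i]
      · simp [Complex.mul_conj, Complex.normSq_eq_norm_sq]
      · intro j hj hji
        rw [if_neg, mul_zero]
        intro h
        exact hji (hn hj hi (by omega))
      · intro h; exact absurd hi h
    · intro j _
      exact ((Bdd.const _).mul (bdd_fourier _)).integrable _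
  · intro i _
    exact (Bdd.sum _ fun j _ => (Bdd.const _).mul (bdd_fourier _)).integrable _

/-- Functions concentrated on disjoint sets. -/
lemma abs_norm_sum_sub_ind_le {α ι : Type*} (s : Finset ι) (f : ι → ℂ) (E : ι → Set α)
    (hE : ∀ i ∈ s, ∀ j ∈ s, i ≠ j → Disjoint (E i) (E j)) (x : α) :
    |‖∑ i ∈ s, f i‖ - ind (⋃ i ∈ s, E i) x| ≤ ∑ i ∈ s, |‖f i‖ - ind (E i) x| := by
  classical
  by_cases hx : x ∈ ⋃ i ∈ s, E i
  · rw [ind_of_mem hx]
    simp only [Set.mem_iUnion] at hx
    obtain ⟨i, hi, hxi⟩ := hx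
    rw [← add_sum_erase s _ hi, ← add_sum_erase s _ hi, ind_of_mem hxi]
    have h1 : ∑ j ∈ s.erase i, |‖f j‖ - ind (E j) x| = ∑ j ∈ s.erase i, ‖f j‖ := by
      refine sum_congr rfl fun j hj => ?_
      rw [ind_of_notMem, sub_zero, abs_norm]
      exact fun h => Set.disjoint_left.mp
        (hE i hi j (mem_of_mem_erase hj) (ne_of_mem_erase hj).symm) hxi h
    rw [h1]
    have h2 := norm_sum_le (s.erase i) f
    have h3 := abs_norm_sub_norm_le (f i + ∑ j ∈ s.erase i, f j) (f i)
    rw [add_sub_cancel_left] at h3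
    have h4 := abs_sub_le ‖f i + ∑ j ∈ s.erase i, f j‖ ‖f i‖ 1
    linarith
  · rw [ind_of_notMem hx, sub_zero, abs_norm]
    refine (norm_sum_le _ _).trans (le_of_eq (sum_congr rfl fun j hj => ?_))
    rw [ind_of_notMem, sub_zero, abs_norm]
    exact fun h => hx (Set.mem_biUnion hj h)

lemma parseval {f : Tc → ℂ} (hf : Bdd f) :
    HasSum (fun n => ‖fourierCoeff f n‖ ^ 2) (∫ t, ‖f t‖ ^ 2 ∂hm) := by
  have h := hasSum_sq_fourierCoeff ((hf.memLp hm 2).toLp f)
  rw [fourierCoeff_congr_ae (hf.memLp hm 2).coeFn_toLp] at h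
  convert h using 1
  refine integral_congr_ae ?_
  filter_upwards [(hf.memLp hm 2).coeFn_toLp] with t ht
  rw [ht]

lemma integral_le_sqrt {α : Type*} [MeasurableSpace α] (μ : Measure α) [IsProbabilityMeasure μ]
    {f : α → ℝ} (hf : Bdd f) : ∫ x, f x ∂μ ≤ Real.sqrt (∫ x, f x ^ 2 ∂μ) := by
  apply Real.le_sqrt_of_sq_le
  set c := ∫ x, f x ∂μ with hc
  have h : 0 ≤ ∫ x, (f x - c) ^ 2 ∂μ := integral_nonneg fun x => sq_nonneg _
  have e : ∀ x, (f x - c) ^ 2 = f x ^ 2 - (2 * c) * f x + c ^ 2 := fun x => by ring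
  simp only [e] at h
  rw [integral_add, integral_sub, integral_const_mul, integral_const, ← hc] at h
  · simp at h; nlinarith
  · exact (hf.pow 2).integrable _
  · exact ((Bdd.const _).mul hf).integrable _
  · exact ((hf.pow 2).sub ((Bdd.const _).mul hf)).integrable _
  · exact (Bdd.const _).integrable _

end Vale.Agent.P130
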