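import Mathlib

open Finset Function

namespace Vale.Agent.P130

section field

variable {K : Type*} [Field K] [Fintype K] [DecidableEq K]

lemma spread_sum (φ : K → ℂ) (ψ : K × K → ℂ) :
    ∑ x : K × K, φ (x.2 / x.1) * ψ x =
      ∑ c, φ c * (∑ a, ψ (a, c * a) - ψ 0) + φ 0 * ∑ b, ψ (0, b) := by
  rw [Fintype.sum_prod_type, ← add_sum_erase _ _ (mem_univ (0 : K)), add_comm]
  congr 1
  · have h1 : ∀ a ∈ univ.erase (0 : K), ∑ b, φ (b / a) * ψ (a, b) =
        ∑ c, φ c * ψ (a, c * a) := by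
      intro a ha
      have ha0 : a ≠ 0 := (mem_erase.mp ha).1
      rw [← Equiv.sum_comp (Equiv.mulRight₀ a ha0)]
      simp [mul_div_cancel_right₀ _ ha0]
    rw [sum_congr rfl h1, sum_comm]
    refine sum_congr rfl fun c _ => ?_
    rw [← mul_sum, ← add_sum_erase _ _ (mem_univ (0 : K))]
    simp [Prod.mk_zero_zero]
  · simp [mul_sum]

lemma bent_char (ψ : AddChar (K × K) ℂ) (hψ : ψ ≠ 0) :
    ∃ c0 : K, ∀ φ : K → ℂ, ∑ x : K × K, φ (x.2 / x.1) * ψ x =
      Fintype.card K * φ c0 - ∑ c, φ c := by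
  classical
  have hq : (Fintype.card K : ℂ) ≠ 0 := by exact_mod_cast Fintype.card_ne_zero
  have hA : ∀ c : K, ∑ a, ψ (a, c * a) =
      if ψ.compAddMonoidHom ((AddMonoidHom.id K).prod (AddMonoidHom.mulLeft c)) = 0 then
        (Fintype.card K : ℂ) else 0 := fun c => AddChar.sum_eq_ite
      (ψ.compAddMonoidHom ((AddMonoidHom.id K).prod (AddMonoidHom.mulLeft c)))
  have hB : ∑ b, ψ (0, b) = if ψ.compAddMonoidHom (AddMonoidHom.inr K K) = 0 then
        (Fintype.card K : ℂ) else 0 :=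
    AddChar.sum_eq_ite (ψ.compAddMonoidHom (AddMonoidHom.inr K K))
  set Z : Finset K :=
    {c | ψ.compAddMonoidHom ((AddMonoidHom.id K).prod (AddMonoidHom.mulLeft c)) = 0} with hZ
  have h1 := spread_sum (fun _ => 1) ψ
  simp only [one_mul, AddChar.sum_eq_ite, if_neg hψ, hA, hB, AddChar.map_zero_eq_one,
    sum_sub_distrib, ← sum_filter, ← hZ, sum_const, card_univ, nsmul_eq_mul, mul_one] at h1
  by_cases hinf : ψ.compAddMonoidHom (AddMonoidHom.inr K K) = 0
  · rw [if_pos hinf] at h1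
    have h2 : #Z = 0 := by
      have : (#Z : ℂ) * Fintype.card K = 0 := by linear_combination -h1
      exact_mod_cast (mul_eq_zero.mp this).resolve_right hq
    refine ⟨0, fun φ => ?_⟩
    rw [spread_sum, hB, if_pos hinf]
    have h3 : ∀ c : K, ∑ a, ψ (a, c * a) = 0 := by
      intro c
      rw [hA, if_neg]
      intro h
      have : c ∈ Z := by simp [hZ, h]
      rw [card_eq_zero.mp h2] at this
      simp at this
    simp [h3]; ring
  · rw [if_neg hinf] at h1
    have h2 : #Z = 1 := by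
      have : ((#Z : ℂ) - 1) * Fintype.card K = 0 := by linear_combination -h1
      have := (mul_eq_zero.mp this).resolve_right hq
      exact_mod_cast sub_eq_zero.mp this
    obtain ⟨c0, hc0⟩ := card_eq_one.mp h2
    refine ⟨c0, fun φ => ?_⟩
    rw [spread_sum, hB, if_neg hinf]
    have h3 : ∀ c : K, ∑ a, ψ (a, c * a) = if c = c0 then (Fintype.card K : ℂ) else 0 := by
      intro c
      rw [hA]
      refine if_congr ?_ rfl rfl
      rw [← mem_singleton (a := c0), ← hc0]; simp [hZ]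
    simp [h3, mul_sub, sum_sub_distrib, mul_comm]

end field

/-- The sign attached to a bit and a frequency. -/
def sg (j : ℤ) (x : ZMod 2) : ℂ := if j ≠ 0 ∧ x ≠ 0 then -1 else 1

lemma sg_add (j : ℤ) (x y : ZMod 2) : sg j (x + y) = sg j x * sg j y := by
  unfold sg
  by_cases hj : j = 0
  · simp [hj]
  · have h : (1 + 1 : ZMod 2) = 0 := rfl
    have h2 : ∀ z : ZMod 2, z = 0 ∨ z = 1 := by decide
    rcases h2 x with rfl | rfl <;> rcases h2 y with rfl | rfl <;> simp [hj, h]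

theorem exists_bent {r : ℕ} (hr : r ≠ 0) :
    ∃ lab : (Fin (2 * r) → ZMod 2) → ℕ, (∀ x, lab x < 2 ^ r) ∧
      (∀ n : Fin (2 * r) → ℤ, n ≠ 0 → ∃ c0 : ℕ, ∀ φ : ℕ → ℂ,
        ∑ x, φ (lab x) * ∏ d, sg (n d) (x d) = 2 ^ r * φ c0 - ∑ c ∈ range (2 ^ r), φ c) ∧
      ∃ c0 : ℕ, ∀ φ : ℕ → ℂ,
        ∑ x, φ (lab x) = (2 ^ r - 1) * ∑ c ∈ range (2 ^ r), φ c + 2 ^ r * φ c0 := by
  classical
  let K := GaloisField 2 r
  let _ : Fintype K := Fintype.ofFinite K
  have hc : Fintype.card K = 2 ^ r := by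
    rw [← Nat.card_eq_fintype_card]; exact GaloisField.card 2 r hr
  let e : (Fin (2 * r) → ZMod 2) ≃ₗ[ZMod 2] K × K := LinearEquiv.ofFinrankEq _ _ (by
    rw [Module.finrank_prod, GaloisField.finrank 2 hr, Module.finrank_fin_fun]; ring)
  let idx : K ≃ Fin (2 ^ r) := Fintype.equivFinOfCardEq hc
  have hsum : ∀ φ : ℕ → ℂ, ∑ c : K, φ (idx c) = ∑ c ∈ range (2 ^ r), φ c := by
    intro φ
    rw [Equiv.sum_comp idx (fun i => φ i), Fin.sum_univ_eq_sum_range]
  refine ⟨fun x => idx ((e x).2 / (e x).1), fun x => Fin.is_lt _, fun n hn => ?_, ?_⟩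
  · let ψ : AddChar (K × K) ℂ :=
      { toFun := fun z => ∏ d, sg (n d) (e.symm z d)
        map_zero_eq_one' := by simp [sg]
        map_add_eq_mul' := fun a b => by simp [sg_add, prod_mul_distrib] }
    have hψ : ψ ≠ 0 := by
      obtain ⟨d, hd⟩ := Function.ne_iff.mp hn
      intro h
      have h1 : ψ (e (Pi.single d 1)) = 1 := by rw [h]; rfl
      have h2 : ψ (e (Pi.single d 1)) = -1 := by
        change ∏ d', sg (n d') (e.symm (e (Pi.single d 1)) d') = -1
        rw [e.symm_apply_apply, prod_eq_single d]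
        · simp only [Pi.zero_apply] at hd
          simp [sg, hd]
        · intro d' _ hd'; simp [sg, Pi.single_eq_of_ne hd']
        · simp
      rw [h1] at h2; norm_num at h2
    obtain ⟨c0, hc0⟩ := bent_char ψ hψ
    refine ⟨idx c0, fun φ => ?_⟩
    have h3 := hc0 (fun c => φ (idx c))
    rw [hsum, hc, ← Equiv.sum_comp e.toEquiv] at h3
    push_cast at h3
    rw [← h3]
    refine sum_congr rfl fun x _ => ?_
    congr 1
    change _ = ∏ d, sg (n d) (e.symm (e x) d)
    rw [e.symm_apply_apply]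
  · refine ⟨idx 0, fun φ => ?_⟩
    have h3 := spread_sum (fun c => φ (idx c)) (fun _ => 1)
    simp only [mul_one, sum_const, card_univ, hc, nsmul_eq_mul, ← sum_mul, hsum] at h3
    rw [← Equiv.sum_comp e.toEquiv] at h3
    push_cast at h3
    refine Eq.trans ?_ (h3.trans (by ring))
    rfl

end Vale.Agent.P130
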