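import Vale.Agent.P130.Torus

open MeasureTheory Complex Finset Filter Topology Function UnitAddTorus
open scoped Real ComplexConjugate

namespace Vale.Agent.P130

/-- A half circle. -/
def half : Set Tc := Metric.ball 0 (1 / 4)

lemma measurableSet_half : MeasurableSet half := Metric.isOpen_ball.measurableSet

open Classical in
/-- The bit read from a point of the circle. -/
noncomputable def bit (y : Tc) : ZMod 2 := if y ∈ half then 0 else 1

/-- Fourier coefficients of the indicator of the half circle. -/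
noncomputable def ac (j : ℤ) : ℂ := fourierCoeff (fun t : Tc => ((ind half t : ℝ) : ℂ)) j

lemma ac_zero : ac 0 = 1 / 2 := by
  unfold ac half
  rw [ball_coeff (by norm_num) (by norm_num)]; simp; norm_num

lemma ac_one : ac 1 ≠ 0 := by
  unfold ac half
  rw [ball_coeff (by norm_num) (by norm_num), if_neg one_ne_zero]
  refine div_ne_zero ?_ (by simp)
  intro h
  have h1 := norm_ex_sub_one_ge (x := 1 / 2) (by norm_num) le_rfl
  have h2 : ex (1 / 2) = 1 := by
    have e : ex (1 / 2) = ex (((1 : ℤ) : ℝ) * (1 / 4)) * ex (((1 : ℤ) : ℝ) * (1 / 4)) := by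
      rw [← ex_add]; norm_num
    rw [e]
    nth_rewrite 2 [sub_eq_zero.mp h]
    rw [← ex_add]; simp
  rw [h2] at h1; norm_num at h1

lemma norm_ac_neg (j : ℤ) : ‖ac (-j)‖ = ‖ac j‖ := by
  unfold ac; rw [fourierCoeff_neg_real, Complex.norm_conj]

/-- Indicator of a value of the bit. -/
noncomputable def bi (x : ZMod 2) (y : Tc) : ℂ := if bit y = x then 1 else 0

lemma bi_zero (y : Tc) : bi 0 y = ((ind half y : ℝ) : ℂ) := by
  unfold bi bit
  by_cases h : y ∈ half
  · simp [h, ind_of_mem h]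
  · simp [h, ind_of_notMem h]

lemma bi_one (y : Tc) : bi 1 y = 1 - ((ind half y : ℝ) : ℂ) := by
  unfold bi bit
  by_cases h : y ∈ half
  · simp [h, ind_of_mem h]
  · simp [h, ind_of_notMem h]

lemma zmod2 : ∀ z : ZMod 2, z = 0 ∨ z = 1 := by decide

lemma bdd_bi (x : ZMod 2) : Bdd (bi x) := by
  rcases zmod2 x with rfl | rfl
  · rw [funext bi_zero]; exact (bdd_ind measurableSet_half).ofReal
  · rw [funext bi_one]; exact (Bdd.const _).sub (bdd_ind measurableSet_half).ofReal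

lemma integral_bi (x : ZMod 2) (j : ℤ) :
    ∫ y, fourier (-j) y * bi x y ∂hm = ac j * sg j x := by
  rcases zmod2 x with rfl | rfl
  · simp only [bi_zero, sg]; simp [ac, fourierCoeff]
  · simp only [bi_one, mul_sub, mul_one]
    rw [integral_sub ((bdd_fourier _).integrable _)
      (((bdd_fourier _).mul (bdd_ind measurableSet_half).ofReal).integrable _), integral_fourier]
    change _ - ac j = _
    by_cases hj : j = 0
    · subst hj; simp [sg, ac_zero]; norm_num
    · simp [sg, hj]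

variable {d : Type} [Fintype d] [DecidableEq d]

/-- A function of the bits of a point of the torus. -/
noncomputable def Fw (w : (d → ZMod 2) → ℂ) (ω : d → Tc) : ℂ := w fun i => bit (ω i)

lemma Fw_eq (w : (d → ZMod 2) → ℂ) (ω : d → Tc) :
    Fw w ω = ∑ x, w x * ∏ i, bi (x i) (ω i) := by
  unfold Fw
  rw [sum_eq_single (fun i => bit (ω i))]
  · simp [bi]
  · intro x _ hx
    obtain ⟨i, hi⟩ := Function.ne_iff.mp hx
    rw [prod_eq_zero (mem_univ i) (by unfold bi; rw [if_neg (Ne.symm hi)]), mul_zero]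
  · simp

omit [DecidableEq d] in
lemma bdd_prod_bi (x : d → ZMod 2) : Bdd (fun ω : d → Tc => ∏ i, bi (x i) (ω i)) :=
  Bdd.prod _ fun i _ => (bdd_bi (x i)).comp (measurable_pi_apply i)

lemma bdd_Fw (w : (d → ZMod 2) → ℂ) : Bdd (Fw w) := by
  rw [funext (Fw_eq w)]
  exact Bdd.sum _ fun x _ => (Bdd.const _).mul (bdd_prod_bi x)

lemma mco_Fw (w : (d → ZMod 2) → ℂ) (n : d → ℤ) :
    mco (Fw w) n = (∏ i, ac (n i)) * ∑ x, w x * ∏ i, sg (n i) (x i) := by
  rw [funext (Fw_eq w), mco_sum _ _ _ fun x _ => bdd_prod_bi x, mul_sum]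
  refine sum_congr rfl fun x _ => ?_
  have : mco (fun ω : d → Tc => ∏ i, bi (x i) (ω i)) n = ∏ i, ac (n i) * sg (n i) (x i) := by
    unfold mco
    simp only [mFourier, ContinuousMap.coe_mk, ← prod_mul_distrib]
    rw [integral_fintype_prod_eq_prod (fun i (y : Tc) => fourier ((-n) i) y * bi (x i) y)]
    exact prod_congr rfl fun i _ => integral_bi _ _
  rw [this, prod_mul_distrib]; ring

/-- The comparison function. -/
noncomputable def Fs (d : Type) [Fintype d] [DecidableEq d] (M : ℝ) : (d → Tc) → ℂ :=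
  Fw fun x => if x = 0 then (M : ℂ) else 0

lemma bdd_Fs (M : ℝ) : Bdd (Fs d M) := bdd_Fw _

lemma mco_Fs (M : ℝ) (n : d → ℤ) : mco (Fs d M) n = (∏ i, ac (n i)) * M := by
  unfold Fs
  rw [mco_Fw, sum_eq_single 0]
  · simp [sg]
  · intro x _ hx; simp [hx]
  · simp

lemma integral_Fs (r : ℕ) : ∫ ω, ‖Fs (Fin (2 * r)) (2 ^ r) ω‖ ^ 2 ∂pm _ = 1 := by
  apply Complex.ofReal_injective
  rw [← integral_complex_ofReal]
  have h1 : ∀ ω, ((‖Fs (Fin (2 * r)) (2 ^ r) ω‖ ^ 2 : ℝ) : ℂ) =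
      2 ^ r * (mFourier (-0) ω * Fs (Fin (2 * r)) (2 ^ r) ω) := by
    intro ω
    rw [neg_zero, mFourier_zero]
    simp only [Fs, Fw]
    split_ifs <;> simp [sq]
  simp only [h1]
  rw [integral_const_mul]
  change _ * mco _ 0 = _
  rw [mco_Fs]
  simp only [Pi.zero_apply, ac_zero, prod_const, card_univ, Fintype.card_fin]
  rw [two_mul, pow_add]
  push_cast
  have : (2 : ℂ) ^ r * (1 / 2) ^ r = 1 := by rw [← mul_pow]; norm_num
  linear_combination (2 ^ r * (1 / 2) ^ r + 1) * this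

/-- One dimensional weights. -/
noncomputable def mu (j : ℤ) : ℝ := 2 * ‖ac j‖ ^ 2

lemma hasSum_mu : HasSum mu 1 := by
  have h := (parseval (bdd_ind measurableSet_half).ofReal).mul_left 2
  have h2 : ∫ t, ‖((ind half t : ℝ) : ℂ)‖ ^ 2 ∂hm = 1 / 2 := by
    apply Complex.ofReal_injective
    rw [← integral_complex_ofReal]
    have := ac_zero
    unfold ac fourierCoeff at this
    push_cast
    rw [← this]
    refine integral_congr_ae (ae_of_all _ fun t => ?_)
    simp only [Complex.norm_real, Real.norm_eq_abs, neg_zero, fourier_zero, one_smul]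
    rw [← Complex.ofReal_pow, sq_abs, ind_sq]
  rw [h2, show (2 : ℝ) * (1 / 2) = 1 by norm_num] at h
  exact h

lemma norm_mco_Fs (r : ℕ) (n : Fin (2 * r) → ℤ) :
    ‖mco (Fs (Fin (2 * r)) (2 ^ r)) n‖ ^ 2 = ∏ i, mu (n i) := by
  rw [mco_Fs]
  simp only [mu, prod_mul_distrib, prod_const, card_univ, Fintype.card_fin, norm_mul, norm_prod,
    mul_pow, prod_pow, Complex.norm_real, Real.norm_eq_abs, sq_abs]
  rw [mul_comm, ← pow_mul, mul_comm r 2]

omit [DecidableEq d] in
lemma exists_generic (s : Finset (d → ℤ)) (hs : ∀ w ∈ s, w ≠ 0) :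
    ∃ γ : d → ℤ, ∀ w ∈ s, w ⬝ᵥ γ ≠ 0 := by
  classical
  induction s using Finset.induction_on with
  | empty => exact ⟨0, by simp⟩
  | insert w s hw ih =>
    obtain ⟨γ, hγ⟩ := ih fun w' hw' => hs w' (mem_insert_of_mem hw')
    by_cases h : w ⬝ᵥ γ = 0
    · refine ⟨(1 + ∑ w' ∈ s, |w' ⬝ᵥ w|) • γ + w, fun w' hw' => ?_⟩
      rw [dotProduct_add, dotProduct_smul, smul_eq_mul]
      rcases mem_insert.mp hw' with rfl | hw'
      · rw [h, mul_zero, zero_add]
        exact fun h0 => hs w' (mem_insert_self _ _) (dotProduct_self_eq_zero.mp h0)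
      · have h1 : |w' ⬝ᵥ w| ≤ ∑ w' ∈ s, |w' ⬝ᵥ w| :=
          single_le_sum (f := fun w' => |w' ⬝ᵥ w|) (fun _ _ => abs_nonneg _) hw'
        have h2 : 1 ≤ |w' ⬝ᵥ γ| := Int.one_le_abs (hγ w' hw')
        intro h0
        have h3 : |(1 + ∑ w' ∈ s, |w' ⬝ᵥ w|) * w' ⬝ᵥ γ| = |w' ⬝ᵥ w| := by
          rw [eq_neg_of_add_eq_zero_left h0, abs_neg]
        have h4 := abs_nonneg (w' ⬝ᵥ w)
        rw [abs_mul, abs_of_nonneg (by linarith)] at h3
        nlinarith
    · refine ⟨γ, fun w' hw' => ?_⟩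
      rcases mem_insert.mp hw' with rfl | hw'
      · exact h
      · exact hγ w' hw'

omit [DecidableEq d] in
lemma exists_perp (P : Finset (d → ℤ)) (α : d → ℤ) (hα : ∀ n ∈ P, 0 < n ⬝ᵥ α)
    (h1 : ∀ n ∈ P, ∃ i, |n i| = 1) :
    ∃ v : P → d → ℤ, (∀ i : P, i.1 ⬝ᵥ v i = 0) ∧ ∀ i j : P, j ≠ i → j.1 ⬝ᵥ v i ≠ 0 := by
  classical
  obtain ⟨γ, hγ⟩ := exists_generic
    (((P ×ˢ P).filter fun z => z.2 ≠ z.1).image fun z => (z.1 ⬝ᵥ z.1) • z.2 - (z.1 ⬝ᵥ z.2) • z.1)
    (by
      intro w hw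
      obtain ⟨⟨n, n'⟩, hz, rfl⟩ := mem_image.mp hw
      simp only [mem_filter, mem_product] at hz
      obtain ⟨⟨hn, hn'⟩, hne⟩ := hz
      intro h0
      obtain ⟨i, hi⟩ := h1 n hn
      obtain ⟨j, hj⟩ := h1 n' hn'
      have hn0 : n ⬝ᵥ n ≠ 0 := fun h => by
        rw [dotProduct_self_eq_zero.mp h] at hi; simp at hi
      have e : ∀ k, (n ⬝ᵥ n) * n' k = (n ⬝ᵥ n') * n k := fun k => by
        have := congrFun h0 k
        simpa [sub_eq_zero] using this
      have hii : n i * n i = 1 := by rw [← abs_mul_abs_self, hi]; rfl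
      have e2 : ∀ k, n' k = (n' i * n i) * n k := by
        intro k
        apply mul_left_cancel₀ hn0
        linear_combination e k - (n i * n k) * e i - (n ⬝ᵥ n') * n k * hii
      have e3 : n' = (n' i * n i) • n := funext e2
      have e4 : |n' i * n i| = 1 := by
        have := e2 j
        rw [this, abs_mul] at hj
        exact Int.eq_one_of_mul_eq_one_right (abs_nonneg _) hj
      generalize n' i * n i = c at e3 e4
      rcases abs_eq (zero_le_one) |>.mp e4 with rfl | rfl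
      · exact hne (by simpa using e3)
      · have h2 := hα n hn
        have h3 := hα n' hn'
        rw [e3, smul_dotProduct] at h3
        simp at h3; linarith)
  refine ⟨fun i => (i.1 ⬝ᵥ i.1) • γ - (i.1 ⬝ᵥ γ) • i.1, fun i => ?_, fun i j hij => ?_⟩
  · simp only [dotProduct_sub, dotProduct_smul, smul_eq_mul]; ring
  · have := hγ _ (mem_image.mpr ⟨(i.1, j.1), mem_filter.mpr ⟨mem_product.mpr ⟨i.2, j.2⟩,
      fun h => hij (Subtype.ext h)⟩, rfl⟩)
    simp only [dotProduct_sub, dotProduct_smul, smul_eq_mul, sub_dotProduct, smul_dotProduct]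
      at this ⊢
    rw [dotProduct_comm j.1 i.1]
    convert this using 2
    ring

theorem exists_freq {η : ℝ} (hη : 0 < η) (r0 : ℕ) :
    ∃ r, r0 ≤ r ∧ ∃ (P : Finset (Fin (2 * r) → ℤ)) (α : Fin (2 * r) → ℤ),
      (∀ n ∈ P, 0 < n ⬝ᵥ α) ∧ (∀ n ∈ P, ∃ i, |n i| = 1) ∧ (∀ n ∈ P, 0 < ∏ i, mu (n i)) ∧
      1 - η ≤ 2 * ∑ n ∈ P, ∏ i, mu (n i) := by
  have hmu : ∀ j, 0 ≤ mu j := fun j => by unfold mu; positivity
  have hmu1 : 0 < mu 1 := by have := norm_pos_iff.mpr ac_one; unfold mu; positivity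
  have hmun : ∀ j, mu (-j) = mu j := fun j => by unfold mu; rw [norm_ac_neg]
  have hJ : ∀ J : Finset ℤ, 1 ∉ J → ∑ j ∈ J, mu j ≤ 1 - mu 1 := by
    intro J hJ
    have := sum_le_hasSum (insert 1 J) (fun j _ => hmu j) hasSum_mu
    rw [sum_insert hJ] at this; linarith
  have h01 : 0 ≤ 1 - mu 1 := by simpa using hJ ∅ (by simp)
  obtain ⟨r, hr1, hr2⟩ := (((tendsto_pow_atTop_nhds_zero_of_lt_one h01
    (by linarith)).eventually_le_const (half_pos hη)).and (eventually_ge_atTop r0)).exists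
  refine ⟨r, hr2, ?_⟩
  set lam : (Fin (2 * r) → ℤ) → ℝ := fun n => ∏ i, mu (n i) with hlam
  have hl0 : ∀ n, 0 ≤ lam n := fun n => prod_nonneg fun i _ => hmu _
  have hln : ∀ n, lam (-n) = lam n := fun n => by simp [hlam, hmun]
  have hs : HasSum lam 1 := by
    have := mparseval (bdd_Fs (d := Fin (2 * r)) (2 ^ r))
    rw [integral_Fs] at this
    simpa only [norm_mco_Fs] using this
  obtain ⟨s, hs⟩ := (hs.eventually (lt_mem_nhds (by linarith : 1 - η / 2 < 1))).exists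
  set N := (s ∪ s.image Neg.neg).filter fun n => (∃ i, |n i| = 1) ∧ 0 < lam n with hN
  have hNn : ∀ n ∈ N, -n ∈ N := by
    intro n hn
    simp only [hN, mem_filter, mem_union, mem_image, hln, Pi.neg_apply, abs_neg] at hn ⊢
    refine ⟨?_, hn.2⟩
    rcases hn.1 with h | ⟨m, hm, rfl⟩
    · exact Or.inr ⟨n, h, rfl⟩
    · exact Or.inl (by simpa using hm)
  obtain ⟨α, hα⟩ := exists_generic N (fun w hw h => by
    obtain ⟨i, hi⟩ := (mem_filter.mp hw).2.1
    simp [h] at hi)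
  refine ⟨N.filter fun n => 0 < n ⬝ᵥ α, α, fun n hn => (mem_filter.mp hn).2,
    fun n hn => (mem_filter.mp (mem_filter.mp hn).1).2.1,
    fun n hn => (mem_filter.mp (mem_filter.mp hn).1).2.2, ?_⟩
  have h1 : ∑ n ∈ N, lam n = 2 * ∑ n ∈ N with 0 < n ⬝ᵥ α, lam n := by
    rw [← sum_filter_add_sum_filter_not N fun n => 0 < n ⬝ᵥ α, two_mul (∑ n ∈ N with 0 < n ⬝ᵥ α, lam n)]
    congr 1
    refine sum_nbij' Neg.neg Neg.neg (fun n hn => ?_) (fun n hn => ?_) (by simp) (by simp)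
      (fun n _ => (hln n).symm)
    · simp only [mem_filter] at hn ⊢
      have := hα n hn.1
      exact ⟨hNn n hn.1, by rw [neg_dotProduct]; omega⟩
    · simp only [mem_filter] at hn ⊢
      exact ⟨hNn n hn.1, by rw [neg_dotProduct]; omega⟩
  have h2 : ∑ n ∈ s with (∀ i, n i ≠ 1), lam n ≤ η / 2 := by
    set s' := s.filter fun n => ∀ i, n i ≠ 1 with hs'
    calc _ ≤ ∑ n ∈ Fintype.piFinset fun i => s'.image (· i), lam n :=
          sum_le_sum_of_subset_of_nonneg (fun n hn => Fintype.mem_piFinset.mpr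
            fun i => mem_image_of_mem _ hn) fun n _ _ => hl0 n
      _ = ∏ i, ∑ j ∈ s'.image (· i), mu j := (prod_univ_sum _ fun _ => mu).symm
      _ ≤ ∏ _ : Fin (2 * r), (1 - mu 1) := by
          refine prod_le_prod (fun i _ => sum_nonneg fun j _ => hmu j) fun i _ => hJ _ ?_
          intro h
          obtain ⟨n, hn, h⟩ := mem_image.mp h
          exact (mem_filter.mp hn).2 i h
      _ ≤ (1 - mu 1) ^ r := by
          rw [prod_const, card_univ, Fintype.card_fin]
          exact pow_le_pow_of_le_one h01 (by linarith) (by omega)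
      _ ≤ _ := hr1
  have h3 : ∑ n ∈ s with ¬ (∀ i, n i ≠ 1), lam n ≤ ∑ n ∈ N, lam n := by
    rw [← sum_filter_ne_zero, filter_filter]
    refine sum_le_sum_of_subset_of_nonneg (fun n hn => ?_) fun n _ _ => hl0 n
    simp only [mem_filter, not_forall, not_not] at hn
    obtain ⟨h4, ⟨i, hi⟩, h5⟩ := hn
    exact mem_filter.mpr ⟨mem_union_left _ h4, ⟨i, by simp [hi]⟩, lt_of_le_of_ne (hl0 n) h5.symm⟩
  have h4 := sum_filter_add_sum_filter_not s (fun n => ∀ i, n i ≠ 1) lam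
  change 1 - η ≤ 2 * ∑ n ∈ N with 0 < n ⬝ᵥ α, lam n
  linarith

end Vale.Agent.P130
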