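import Vale.Agent.P130.Basic

open MeasureTheory Complex Finset Filter Topology
open scoped Real ComplexConjugate

namespace Vale.Agent.P130

lemma two_pi_I_ne : (2 * π * I : ℂ) ≠ 0 := Complex.two_pi_I_ne_zero

lemma ball_coeff {r : ℝ} (hr0 : 0 ≤ r) (hr : r ≤ 1 / 2) (h : ℤ) :
    fourierCoeff (fun t : Tc => ((ind (Metric.ball (0 : Tc) r) t : ℝ) : ℂ)) h =
      if h = 0 then ((2 * r : ℝ) : ℂ) else (ex (h * r) - ex (-(h * r))) / (2 * π * I * h) := by
  rw [fourierCoeff_eq_intervalIntegral _ _ (-(1 / 2))]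
  have h1 : (-(1 / 2) : ℝ) ≤ -(1 / 2) + 1 := by norm_num
  rw [intervalIntegral.integral_of_le h1]
  have h2 : ∫ x in Set.Ioc (-(1 / 2) : ℝ) (-(1 / 2) + 1),
      fourier (-h) (x : Tc) • ((ind (Metric.ball (0 : Tc) r) (x : Tc) : ℝ) : ℂ) =
      ∫ x in Set.Ioc (-(1 / 2) : ℝ) (-(1 / 2) + 1),
        (Set.Ioo (-r) r).indicator (fun x : ℝ => Complex.exp ((-(2 * π * I * h)) * x)) x := by
    refine setIntegral_congr_fun measurableSet_Ioc fun x hx => ?_
    have hx' : ‖(x : Tc)‖ = |x| := by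
      rw [AddCircle.norm_coe_eq_abs_iff (1 : ℝ) one_ne_zero, abs_one, abs_le]
      constructor <;> linarith [hx.1, hx.2]
    by_cases hxr : x ∈ Set.Ioo (-r) r
    · have : (x : Tc) ∈ Metric.ball (0 : Tc) r := by
        rw [mem_ball_zero_iff, hx', abs_lt]; exact hxr
      simp only [ind_of_mem this, Set.indicator_of_mem hxr, fourier_coe, ex]
      simp only [ofReal_one, smul_eq_mul, mul_one]
      congr 1; push_cast; ring
    · have : (x : Tc) ∉ Metric.ball (0 : Tc) r := by
        rw [mem_ball_zero_iff, hx', abs_lt]; exact hxr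
      simp only [ind_of_notMem this, Set.indicator_of_notMem hxr]
      simp
  rw [h2, setIntegral_indicator measurableSet_Ioo]
  have h3 : Set.Ioc (-(1 / 2) : ℝ) (-(1 / 2) + 1) ∩ Set.Ioo (-r) r = Set.Ioo (-r) r := by
    apply Set.inter_eq_right.mpr
    intro x hx
    constructor <;> linarith [hx.1, hx.2]
  rw [h3, ← integral_Ioc_eq_integral_Ioo, ← intervalIntegral.integral_of_le (by linarith)]
  by_cases hh : h = 0
  · subst hh; simp; ring
  · rw [if_neg hh]
    have hne : (-(2 * π * I * h) : ℂ) ≠ 0 :=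
      neg_ne_zero.mpr (mul_ne_zero two_pi_I_ne (by exact_mod_cast hh))
    rw [integral_exp_mul_complex hne]
    have e1 : Complex.exp (-(2 * π * I * h) * (r : ℝ)) = ex (-(h * r)) := by
      unfold ex; congr 1; push_cast; ring
    have e2 : Complex.exp (-(2 * π * I * h) * ((-r : ℝ) : ℝ)) = ex (h * r) := by
      unfold ex; congr 1; push_cast; ring
    rw [e1, e2]
    have := neg_ne_zero.mp hne
    simp only [div_one, one_smul]
    field_simp
    ring

lemma norm_ex_sub_one_ge {x : ℝ} (h0 : 0 ≤ x) (h1 : x ≤ 1 / 2) : 4 * x ≤ ‖ex x - 1‖ := by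
  have : ex x = Complex.exp (I * ((2 * π * x : ℝ) : ℂ)) := by
    unfold ex; congr 1; push_cast; ring
  rw [this, Complex.norm_exp_I_mul_ofReal_sub_one]
  have h2 : 2 * π * x / 2 = π * x := by ring
  rw [h2]
  have h3 := Real.mul_le_sin (x := π * x) (by positivity) (by nlinarith [Real.pi_pos])
  have h4 : 2 / π * (π * x) = 2 * x := by field_simp
  rw [h4] at h3
  rw [Real.norm_eq_abs]
  have := le_abs_self (2 * Real.sin (π * x))
  linarith

lemma fourierCoeff_neg_real (f : Tc → ℝ) (h : ℤ) :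
    fourierCoeff (fun t => (f t : ℂ)) (-h) = conj (fourierCoeff (fun t => (f t : ℂ)) h) := by
  unfold fourierCoeff
  rw [← integral_conj]
  refine integral_congr_ae (ae_of_all _ fun t => ?_)
  simp only [smul_eq_mul, map_mul, conj_ofReal, neg_neg]
  rw [← fourier_neg, neg_neg]

/-- The discrete chirp. -/
noncomputable def chirp (l : ℝ) (N : ℕ) (t : Tc) : ℂ :=
  ((Real.sqrt N : ℝ) : ℂ)⁻¹ *
    ∑ k ∈ range N, ex (l * ((k : ℝ) ^ 2 - N * k) / (2 * N)) * fourier k t

lemma continuous_chirp (l : ℝ) (N : ℕ) : Continuous (chirp l N) := by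
  unfold chirp; fun_prop

lemma bdd_chirp (l : ℝ) (N : ℕ) : Bdd (chirp l N) := Bdd.of_continuous (continuous_chirp l N)

lemma chirp_coeff (l : ℝ) (N m : ℕ) :
    fourierCoeff (fun t : Tc => ((‖chirp l N t‖ ^ 2 : ℝ) : ℂ)) m =
      (N : ℂ)⁻¹ * ∑ j ∈ range (N - m), ex (l * m * (m - N) / (2 * N)) * ex (l * m / N) ^ j := by
  classical
  set a : ℕ → ℂ := fun k => ex (l * ((k : ℝ) ^ 2 - N * k) / (2 * N)) with ha
  have h1 : ∀ t : Tc, fourier (-(m : ℤ)) t • ((‖chirp l N t‖ ^ 2 : ℝ) : ℂ) =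
      ∑ j ∈ range N, ∑ k ∈ range N,
        ((N : ℂ)⁻¹ * (a k * conj (a j))) * fourier ((k : ℤ) - j - m) t := by
    intro t
    rw [← Complex.normSq_eq_norm_sq, ← Complex.mul_conj]
    unfold chirp
    rw [map_mul, map_sum, map_inv₀, conj_ofReal]
    have e : (((Real.sqrt N : ℝ) : ℂ))⁻¹ * ((Real.sqrt N : ℝ) : ℂ)⁻¹ = (N : ℂ)⁻¹ := by
      rw [← mul_inv, ← ofReal_mul, Real.mul_self_sqrt (Nat.cast_nonneg N)]; simp
    rw [mul_mul_mul_comm, e, sum_mul_sum, sum_comm, smul_eq_mul, mul_sum, mul_sum]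
    refine sum_congr rfl fun j _ => ?_
    rw [mul_sum, mul_sum]
    refine sum_congr rfl fun k _ => ?_
    rw [show (k : ℤ) - j - m = k + -j + -m by ring, fourier_add, fourier_add,
      fourier_neg (n := (j : ℤ)), map_mul]
    ring
  unfold fourierCoeff
  simp only [h1]
  rw [integral_finsetSum _ fun i _ =>
    (Bdd.sum _ fun j _ => (Bdd.const _).mul (bdd_fourier _)).integrable _]
  have h2 : ∀ j ∈ range N, ∫ t, ∑ k ∈ range N,
      ((N : ℂ)⁻¹ * (a k * conj (a j))) * fourier ((k : ℤ) - j - m) t ∂hm =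
      if j < N - m then (N : ℂ)⁻¹ * (a (j + m) * conj (a j)) else 0 := by
    intro j _
    rw [integral_finsetSum _ fun i _ => ((Bdd.const _).mul (bdd_fourier _)).integrable _]
    simp only [integral_const_mul, integral_fourier]
    by_cases hj : j < N - m
    · rw [if_pos hj, sum_eq_single (j + m)]
      · rw [if_pos (by push_cast; ring), mul_one]
      · intro k _ hk
        rw [if_neg (by omega), mul_zero]
      · intro h; exact absurd (mem_range.mpr (by omega)) h
    · rw [if_neg hj]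
      refine sum_eq_zero fun k hk => ?_
      rw [if_neg (by have := mem_range.mp hk; omega), mul_zero]
  rw [sum_congr rfl h2, ← sum_filter, mul_sum]
  have h3 : (range N).filter (fun j => j < N - m) = range (N - m) := by
    ext j; simp only [mem_filter, mem_range]; omega
  rw [h3]
  refine sum_congr rfl fun j hj => ?_
  congr 1
  have hN : (N : ℝ) ≠ 0 := by
    have := mem_range.mp hj
    have : N ≠ 0 := by omega
    exact_mod_cast this
  simp only [ha]
  rw [← ex_neg, ← ex_add, ← ex_nat_mul, ← ex_add]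
  congr 1
  push_cast
  field_simp
  ring

lemma tendsto_mul_ex_sub_one (y : ℝ) :
    Tendsto (fun N : ℕ => (N : ℂ) * (ex (y / N) - 1)) atTop (𝓝 (2 * π * I * y)) := by
  have hd : HasDerivAt (fun s : ℝ => ex s) (2 * π * I) 0 := by
    unfold ex
    have h1 : HasDerivAt (fun s : ℝ => (2 * π * I * (s : ℂ))) (2 * π * I) 0 := by
      simpa using (Complex.ofRealCLM.hasDerivAt (x := (0 : ℝ))).const_mul (2 * π * I : ℂ)
    simpa using h1.cexp
  have h2 := (hd.hasFDerivAt.lim_real y).comp tendsto_natCast_atTop_atTop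
  have e : (ContinuousLinearMap.toSpanSingleton ℝ (2 * π * I : ℂ)) y = 2 * π * I * y := by
    simp [mul_comm]
  rw [e] at h2
  refine h2.congr fun N => ?_
  simp [div_eq_inv_mul]

lemma continuous_ex : Continuous ex := by unfold ex; fun_prop

lemma chirp_coeff_tendsto {l : ℝ} (hl0 : 0 < l) (hl : l ≤ 1 / 2) {m : ℕ} (hm0 : m ≠ 0) :
    Tendsto (fun N : ℕ => (l : ℂ) *
      fourierCoeff (fun t : Tc => ((‖chirp l N t‖ ^ 2 : ℝ) : ℂ)) m) atTop
      (𝓝 ((ex (m * (l / 2)) - ex (-(m * (l / 2)))) / (2 * π * I * m))) := by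
  have hmpos : (0 : ℝ) < m := by exact_mod_cast Nat.pos_of_ne_zero hm0
  have hinv : Tendsto (fun N : ℕ => (m : ℝ) / N) atTop (𝓝 0) :=
    tendsto_const_div_atTop_nhds_zero_nat _
  have t1 : Tendsto (fun N : ℕ => ex (l * m * ((m : ℝ) / N - 1) / 2)) atTop
      (𝓝 (ex (l * m * (0 - 1) / 2))) :=
    (continuous_ex.tendsto _).comp (((hinv.sub_const 1).const_mul _).div_const _)
  have t2 : Tendsto (fun N : ℕ => ex (l * m * (1 - (m : ℝ) / N)) - 1) atTop
      (𝓝 (ex (l * m * (1 - 0)) - 1)) :=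
    ((continuous_ex.tendsto _).comp ((hinv.const_sub 1).const_mul _)).sub_const 1
  have hne : (2 * π * I * ((l * m : ℝ) : ℂ)) ≠ 0 :=
    mul_ne_zero two_pi_I_ne (by exact_mod_cast (mul_pos hl0 hmpos).ne')
  have t3 := (((t1.mul t2).div (tendsto_mul_ex_sub_one (l * m)) hne).const_mul (l : ℂ))
  have e : (l : ℂ) * (ex (l * m * (0 - 1) / 2) * (ex (l * m * (1 - 0)) - 1) /
      (2 * π * I * ((l * m : ℝ) : ℂ))) =
      (ex (m * (l / 2)) - ex (-(m * (l / 2)))) / (2 * π * I * m) := by
    rw [mul_sub, ← ex_add, mul_one]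
    have e1 : l * m * (0 - 1) / 2 + l * m * (1 - 0) = m * (l / 2) := by ring
    have e2 : l * m * (0 - 1) / 2 = -(m * (l / 2)) := by ring
    rw [e1, e2]
    have : (l : ℂ) ≠ 0 := by exact_mod_cast hl0.ne'
    have : (m : ℂ) ≠ 0 := by exact_mod_cast hm0
    have := two_pi_I_ne
    push_cast
    field_simp
  rw [e] at t3
  refine t3.congr' ?_
  filter_upwards [eventually_gt_atTop m] with N hN
  have hNpos : (0 : ℝ) < N := by exact_mod_cast (by omega : 0 < N)
  have hmN : (m : ℝ) ≤ N := by exact_mod_cast hN.le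
  have hx0 : 0 < l * m / N := by positivity
  have hx1 : l * m / N ≤ 1 / 2 := by
    rw [div_le_iff₀ hNpos]; nlinarith
  have hne1 : ex (l * m / N) ≠ 1 := by
    intro h
    have := norm_ex_sub_one_ge hx0.le hx1
    rw [h] at this; simp at this; linarith
  simp only [Pi.div_apply]
  rw [chirp_coeff, ← mul_sum, geom_sum_eq hne1, ← ex_nat_mul]
  have e1 : l * m * ((m : ℝ) / N - 1) / 2 = l * m * (m - N) / (2 * N) := by field_simp
  have e2 : l * m * (1 - (m : ℝ) / N) = ((N - m : ℕ) : ℝ) * (l * m / N) := by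
    rw [Nat.cast_sub hN.le]; field_simp
  rw [e1, e2]
  have : (N : ℂ) ≠ 0 := by exact_mod_cast hNpos.ne'
  have := sub_ne_zero.mpr hne1
  field_simp

lemma chirp_coeff_bound {l : ℝ} (hl0 : 0 < l) (hl : l ≤ 1 / 2) {m : ℕ} (hm0 : m ≠ 0) (N : ℕ) :
    ‖(l : ℂ) * fourierCoeff (fun t : Tc => ((‖chirp l N t‖ ^ 2 : ℝ) : ℂ)) m‖ ≤ 1 / (2 * m) := by
  have hmpos : (0 : ℝ) < m := by exact_mod_cast Nat.pos_of_ne_zero hm0
  rw [chirp_coeff]
  by_cases hN : m < N
  · have hNpos : (0 : ℝ) < N := by exact_mod_cast (by omega : 0 < N)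
    have hmN : (m : ℝ) ≤ N := by exact_mod_cast hN.le
    have hx0 : 0 < l * m / N := by positivity
    have hx1 : l * m / N ≤ 1 / 2 := by
      rw [div_le_iff₀ hNpos]; nlinarith
    have hge := norm_ex_sub_one_ge hx0.le hx1
    have hne1 : ex (l * m / N) ≠ 1 := by
      intro h
      rw [h] at hge; simp at hge; linarith
    rw [← mul_sum, geom_sum_eq hne1]
    simp only [norm_mul, norm_inv, norm_div, norm_ex, Complex.norm_natCast, Complex.norm_real,
      Real.norm_of_nonneg hl0.le, one_mul]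
    have h2 : ‖ex (l * m / N) ^ (N - m) - 1‖ ≤ 2 := by
      refine (norm_sub_le _ _).trans ?_
      simp [norm_pow]; norm_num
    have h3 : ‖ex (l * m / N) ^ (N - m) - 1‖ / ‖ex (l * m / N) - 1‖ ≤ 2 / (4 * (l * m / N)) :=
      div_le_div₀ (by norm_num) h2 (by positivity) hge
    calc l * ((N : ℝ)⁻¹ * (‖ex (l * m / N) ^ (N - m) - 1‖ / ‖ex (l * m / N) - 1‖))
        ≤ l * ((N : ℝ)⁻¹ * (2 / (4 * (l * m / N)))) := by gcongr
      _ = 1 / (2 * m) := by field_simp; ring
  · rw [show N - m = 0 by omega]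
    simp only [range_zero, sum_empty, mul_zero, norm_zero]
    positivity

theorem chirp_flat {l : ℝ} (hl0 : 0 < l) (hl : l ≤ 1 / 2) :
    Tendsto (fun N : ℕ => ∫ t, (Real.sqrt l * ‖chirp l N t‖ -
      ind (Metric.ball (0 : Tc) (l / 2)) t) ^ 2 ∂hm) atTop (𝓝 0) := by
  set B := Metric.ball (0 : Tc) (l / 2) with hB
  have hBm : MeasurableSet B := Metric.isOpen_ball.measurableSet
  set D : ℕ → Tc → ℝ := fun N t => l * ‖chirp l N t‖ ^ 2 - ind B t with hD
  have hDb : ∀ N, Bdd (D N) := fun N =>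
    ((Bdd.const l).mul ((bdd_chirp l N).norm.pow 2)).sub (bdd_ind hBm)
  have hc : ∀ N (h : ℤ), fourierCoeff (fun t => (D N t : ℂ)) h =
      (l : ℂ) * fourierCoeff (fun t : Tc => ((‖chirp l N t‖ ^ 2 : ℝ) : ℂ)) h -
        fourierCoeff (fun t : Tc => ((ind B t : ℝ) : ℂ)) h := by
    intro N h
    unfold fourierCoeff
    rw [← integral_const_mul, ← integral_sub]
    · refine integral_congr_ae (ae_of_all _ fun t => ?_)
      simp only [hD, smul_eq_mul]; push_cast; ring
    · exact ((Bdd.const _).mul ((bdd_fourier _).mul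
        ((bdd_chirp l N).norm.pow 2).ofReal)).integrable _
    · exact ((bdd_fourier _).mul (bdd_ind hBm).ofReal).integrable _
  have hball := fun h : ℤ => ball_coeff (r := l / 2) (by positivity) (by linarith) h
  have habs : ∀ N (h : ℤ), ‖fourierCoeff (fun t => (D N t : ℂ)) h‖ =
      ‖fourierCoeff (fun t => (D N t : ℂ)) (h.natAbs : ℤ)‖ := by
    intro N h
    rcases Int.natAbs_eq h with h1 | h1
    · rw [← h1]
    · conv_lhs => rw [h1]
      rw [fourierCoeff_neg_real, Complex.norm_conj]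
  have hzero : ∀ N : ℕ, N ≠ 0 → fourierCoeff (fun t => (D N t : ℂ)) ((0 : ℕ) : ℤ) = 0 := by
    intro N hN
    rw [hc, chirp_coeff, hball]
    have : (N : ℂ) ≠ 0 := by exact_mod_cast hN
    simp [this]
    ring
  have key : Tendsto (fun N => ∑' h : ℤ, ‖fourierCoeff (fun t => (D N t : ℂ)) h‖ ^ 2) atTop
      (𝓝 (∑' _ : ℤ, (0 : ℝ))) := by
    refine tendsto_tsum_of_dominated_convergence (bound := fun h : ℤ => 1 / (h : ℝ) ^ 2)
      (Real.summable_one_div_int_pow.mpr (by norm_num)) ?_ ?_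
    · intro h
      simp only [habs _ h]
      generalize h.natAbs = m
      by_cases hm0 : m = 0
      · subst hm0
        refine tendsto_const_nhds.congr' ?_
        filter_upwards [eventually_ne_atTop 0] with N hN
        rw [hzero N hN]; simp
      · have h1 := (chirp_coeff_tendsto hl0 hl hm0).sub_const
          (fourierCoeff (fun t : Tc => ((ind B t : ℝ) : ℂ)) m)
        rw [hball, if_neg (by exact_mod_cast hm0)] at h1
        simp only [Int.cast_natCast, sub_self] at h1
        have h2 := (h1.norm).pow 2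
        simp only [norm_zero, ne_eq, OfNat.ofNat_ne_zero, not_false_eq_true, zero_pow] at h2
        refine h2.congr fun N => ?_
        rw [hc, hball, if_neg (by exact_mod_cast hm0)]
        simp
    · filter_upwards [eventually_ne_atTop 0] with N hN h
      rw [habs, Real.norm_of_nonneg (by positivity)]
      have e : (h : ℝ) ^ 2 = (h.natAbs : ℝ) ^ 2 := by
        rw [Nat.cast_natAbs, Int.cast_abs, sq_abs]
      rw [e]
      generalize h.natAbs = m
      by_cases hm0 : m = 0
      · subst hm0; rw [hzero N hN]; simp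
      · have hmpos : (0 : ℝ) < m := by exact_mod_cast Nat.pos_of_ne_zero hm0
        have h1 := chirp_coeff_bound hl0 hl hm0 N
        have h2 : ‖fourierCoeff (fun t : Tc => ((ind B t : ℝ) : ℂ)) m‖ ≤ 1 / (2 * m) := by
          rw [hball, if_neg (by exact_mod_cast hm0), norm_div]
          have h3 : ‖ex (((m : ℤ) : ℝ) * (l / 2)) - ex (-(((m : ℤ) : ℝ) * (l / 2)))‖ ≤ 2 := by
            refine (norm_sub_le _ _).trans ?_
            simp; norm_num
          have h4 : ‖(2 * π * I * ((m : ℤ) : ℂ))‖ = 2 * π * m := by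
            simp [abs_of_pos Real.pi_pos]
          rw [h4, div_le_div_iff₀ (by positivity) (by positivity)]
          nlinarith [Real.pi_gt_three, norm_nonneg
            (ex (((m : ℤ) : ℝ) * (l / 2)) - ex (-(((m : ℤ) : ℝ) * (l / 2))))]
        have h3 : ‖fourierCoeff (fun t => (D N t : ℂ)) m‖ ≤ 1 / m := by
          rw [hc]
          refine (norm_sub_le _ _).trans ((add_le_add h1 h2).trans (le_of_eq ?_))
          field_simp; ring
        calc _ ≤ (1 / (m : ℝ)) ^ 2 := by gcongr
          _ = _ := by rw [div_pow, one_pow]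
  rw [tsum_zero] at key
  have key2 : Tendsto (fun N => ∫ t, (D N t) ^ 2 ∂hm) atTop (𝓝 0) := by
    refine key.congr fun N => ?_
    rw [(parseval (hDb N).ofReal).tsum_eq]
    simp
  have key3 : Tendsto (fun N => Real.sqrt (∫ t, (D N t) ^ 2 ∂hm)) atTop (𝓝 0) := by
    simpa using key2.sqrt
  refine squeeze_zero (fun N => integral_nonneg fun t => sq_nonneg _) (fun N => ?_) key3
  have h1 := integral_le_sqrt hm (hDb N).abs
  simp only [sq_abs] at h1
  refine le_trans ?_ h1
  refine integral_mono ((((Bdd.const _).mul (bdd_chirp l N).norm).sub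
    (bdd_ind hBm)).pow 2 |>.integrable _) (((hDb N).abs).integrable _) fun t => ?_
  have e : D N t = (Real.sqrt l * ‖chirp l N t‖) ^ 2 - ind B t ^ 2 := by
    simp only [hD]; rw [mul_pow, Real.sq_sqrt hl0.le, ind_sq]
  simp only
  rw [e]
  have ha : 0 ≤ Real.sqrt l * ‖chirp l N t‖ := by positivity
  have hb := ind_nonneg B t
  generalize Real.sqrt l * ‖chirp l N t‖ = a at *
  generalize ind B t = b at *
  rcases le_total a b with h | h
  · rw [abs_of_nonpos (by nlinarith)]; nlinarith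
  · rw [abs_of_nonneg (by nlinarith)]; nlinarith

end Vale.Agent.P130
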