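import Mathlib

open Finset Function

namespace Vale.Agent.P130

section moment

variable {B C : Type*} [Fintype B] [DecidableEq B] [Fintype C] [DecidableEq C]

/-- Product weight of a colouring. -/
def wt (w : C → ℝ) (κ : B → C) : ℝ := ∏ β, w (κ β)

/-- Indicator that the colouring takes prescribed values at prescribed blocks. -/
def hit {A : Type*} [Fintype A] (β : A → B) (τ : A → C) (κ : B → C) : ℝ :=
  ∏ a, if κ (β a) = τ a then 1 else 0

omit [DecidableEq B] [Fintype C] [DecidableEq C] in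
lemma wt_nonneg {w : C → ℝ} (hw : ∀ c, 0 ≤ w c) (κ : B → C) : 0 ≤ wt w κ :=
  prod_nonneg fun _ _ => hw _

omit [Fintype B] [DecidableEq B] [Fintype C] in
lemma hit_eq {A : Type*} [Fintype A] (β : A → B) (τ : A → C) (κ : B → C) :
    hit β τ κ = if ∀ a, κ (β a) = τ a then 1 else 0 := by
  unfold hit
  split_ifs with h
  · exact prod_eq_one fun a _ => if_pos (h a)
  · push Not at h
    obtain ⟨a, ha⟩ := h
    exact prod_eq_zero (mem_univ a) (if_neg ha)

lemma exp_hit {w : C → ℝ} (hw : ∑ c, w c = 1) {A : Type*} [Fintype A] (β : A → B)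
    (hβ : Injective β) (τ : A → C) :
    ∑ κ : B → C, wt w κ * hit β τ κ = ∏ a, w (τ a) := by
  classical
  set f : B → C → ℝ := fun b c => w c * ∏ a, if β a = b then (if c = τ a then 1 else 0) else 1
    with hf
  have h1 : ∀ κ : B → C, wt w κ * hit β τ κ = ∏ b, f b (κ b) := by
    intro κ
    simp only [hf, prod_mul_distrib, wt, hit]
    congr 1
    rw [prod_comm]
    refine prod_congr rfl fun a _ => ?_
    rw [prod_ite_eq]; simp
  simp only [h1]
  have h2 := prod_univ_sum (fun _ : B => (univ : Finset C)) f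
  rw [Fintype.piFinset_univ] at h2
  rw [← h2]
  have h3 : ∀ a, ∑ c, f (β a) c = w (τ a) := by
    intro a
    have : ∀ c, f (β a) c = if c = τ a then w c else 0 := by
      intro c
      simp only [hf]
      rw [prod_eq_single a]
      · simp
      · intro a' _ ha'
        rw [if_neg (fun h => ha' (hβ h))]
      · simp
    simp [this]
  rw [← prod_subset (subset_univ (univ.image β))]
  · rw [prod_image (fun a _ a' _ h => hβ h)]
    exact prod_congr rfl fun a _ => h3 a
  · intro b _ hb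
    have : ∀ c, f b c = w c := by
      intro c
      simp only [hf]
      rw [prod_eq_one, mul_one]
      intro a _
      rw [if_neg (fun h => hb (mem_image.mpr ⟨a, mem_univ _, h⟩))]
    simp [this, hw]

lemma sum_wt {w : C → ℝ} (hw : ∑ c, w c = 1) : ∑ κ : B → C, wt w κ = 1 := by
  have := exp_hit (B := B) hw (A := Empty) Empty.elim (fun a => a.elim) Empty.elim
  simpa [hit] using this

theorem second_moment {w : C → ℝ} (hw0 : ∀ c, 0 ≤ w c) (hw : ∑ c, w c = 1)
    {V Y I : Type*} [Fintype V] [Fintype Y] [DecidableEq Y] [Fintype I] [DecidableEq I]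
    (φ : V → Y) (π : V → I → B) (τ : V → I → C) (m : ℝ) (hm : ∀ b, ∏ i, w (τ b i) = m) :
    ∑ κ : B → C, wt w κ * ∑ y, (∑ b with φ b = y, (hit (π b) (τ b) κ - m)) ^ 2 ≤
      #{g : V × V | φ g.1 = φ g.2 ∧ ¬ Injective (Sum.elim (π g.1) (π g.2))} := by
  classical
  have h1 : ∀ x : V → ℝ, ∑ y, (∑ b with φ b = y, x b) ^ 2 =
      ∑ g : V × V with φ g.1 = φ g.2, x g.1 * x g.2 := by
    intro x
    rw [← sum_fiberwise (g := fun g : V × V => φ g.1)]
    refine sum_congr rfl fun y _ => ?_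
    rw [sq, sum_mul_sum, ← sum_product']
    refine sum_congr ?_ fun _ _ => rfl
    ext g
    simp only [mem_product, mem_filter, mem_univ, true_and]
    constructor
    · rintro ⟨h1, h2⟩; exact ⟨h1.trans h2.symm, h1⟩
    · rintro ⟨h1, h2⟩; exact ⟨h2, h1.symm.trans h2⟩
  simp only [h1, mul_sum]
  rw [sum_comm, ← filter_filter, card_filter, Nat.cast_sum]
  refine sum_le_sum fun g _ => ?_
  by_cases hg : Injective (Sum.elim (π g.1) (π g.2))
  · have i1 : Injective (π g.1) := fun a a' h => Sum.inl_injective (hg (a₁ := .inl a) (a₂ := .inl a') h)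
    have i2 : Injective (π g.2) := fun a a' h => Sum.inr_injective (hg (a₁ := .inr a) (a₂ := .inr a') h)
    have e1 := exp_hit hw _ i1 (τ g.1)
    have e2 := exp_hit hw _ i2 (τ g.2)
    have e3 := exp_hit hw _ hg (Sum.elim (τ g.1) (τ g.2))
    rw [Fintype.prod_sum_type] at e3
    simp only [Sum.elim_inl, Sum.elim_inr] at e3
    rw [hm] at e1 e2 e3
    rw [hm] at e3
    have e4 : ∀ κ : B → C, wt w κ * ((hit (π g.1) (τ g.1) κ - m) * (hit (π g.2) (τ g.2) κ - m)) =
        wt w κ * hit (Sum.elim (π g.1) (π g.2)) (Sum.elim (τ g.1) (τ g.2)) κ -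
          m * (wt w κ * hit (π g.1) (τ g.1) κ) - m * (wt w κ * hit (π g.2) (τ g.2) κ) +
          m ^ 2 * wt w κ := by
      intro κ
      have : hit (Sum.elim (π g.1) (π g.2)) (Sum.elim (τ g.1) (τ g.2)) κ =
          hit (π g.1) (τ g.1) κ * hit (π g.2) (τ g.2) κ := by
        unfold hit; rw [Fintype.prod_sum_type]; rfl
      rw [this]; ring
    simp only [e4, sum_add_distrib, sum_sub_distrib, ← mul_sum, e1, e2, e3, sum_wt hw]
    simp [hg]; nlinarith
  · have hm0 : 0 ≤ m := by rw [← hm g.1]; exact prod_nonneg fun _ _ => hw0 _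
    have hm1 : m ≤ 1 := by
      rw [← hm g.1]
      refine prod_le_one (fun _ _ => hw0 _) fun i _ => ?_
      rw [← hw]; exact single_le_sum (fun c _ => hw0 c) (mem_univ _)
    have hb : ∀ (b : V) (κ : B → C), |hit (π b) (τ b) κ - m| ≤ 1 := by
      intro b κ
      rw [hit_eq, abs_le]; split_ifs <;> constructor <;> linarith
    simp only [hg, not_false_eq_true, if_true, Nat.cast_one]
    rw [← sum_wt (B := B) hw]
    refine sum_le_sum fun κ _ => mul_le_of_le_one_right (wt_nonneg hw0 κ) ?_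
    refine (le_abs_self _).trans ?_
    rw [abs_mul]
    exact mul_le_one₀ (hb _ _) (abs_nonneg _) (hb _ _)

end moment

section count

variable {q : ℕ} [Fact q.Prime] {G : Type*} [AddCommGroup G] [Fintype G]

open Classical in
lemma card_fibre (H : AddSubgroup G) (L : G →+ ZMod q) (hL : ∃ g ∈ H, L g ≠ 0) (x : ZMod q) :
    #{g | g ∈ H ∧ L g = x} * q = #{g | g ∈ H} := by
  obtain ⟨g0, hg0, hL0⟩ := hL
  have hsurj : ∀ x : ZMod q, ∃ g ∈ H, L g = x := by
    intro x
    refine ⟨(x * (L g0)⁻¹).val • g0, H.nsmul_mem hg0 _, ?_⟩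
    rw [map_nsmul, nsmul_eq_mul, ZMod.natCast_zmod_val]
    field_simp
  have heq : ∀ y : ZMod q, #{g | g ∈ H ∧ L g = y} = #{g | g ∈ H ∧ L g = x} := by
    intro y
    obtain ⟨c, hc, hLc⟩ := hsurj (x - y)
    refine card_bij' (fun g _ => g + c) (fun g _ => g - c) ?_ ?_ ?_ ?_
    · intro g hg
      simp only [mem_filter, mem_univ, true_and] at hg ⊢
      exact ⟨H.add_mem hg.1 hc, by rw [map_add, hg.2, hLc]; ring⟩
    · intro g hg
      simp only [mem_filter, mem_univ, true_and] at hg ⊢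
      exact ⟨H.sub_mem hg.1 hc, by rw [map_sub, hg.2, hLc]; ring⟩
    · intro g _; simp
    · intro g _; simp
  rw [card_eq_sum_card_fiberwise (f := L) (s := {g | g ∈ H}) (t := univ) (fun _ _ => mem_univ _)]
  simp only [filter_filter, heq]
  simp [mul_comm]

open Classical in
lemma card_preimage_le (H : AddSubgroup G) (L : G →+ ZMod q) (hL : ∃ g ∈ H, L g ≠ 0)
    (S : Finset (ZMod q)) : #{g | g ∈ H ∧ L g ∈ S} * q = #S * #{g | g ∈ H} := by
  rw [card_eq_sum_card_fiberwise (f := L) (s := {g | g ∈ H ∧ L g ∈ S}) (t := S)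
    (fun g hg => by simpa using (mem_filter.mp hg).2.2), sum_mul]
  rw [sum_congr rfl (g := fun _ => #{g | g ∈ H})]
  · simp
  · intro x hx
    rw [← card_fibre H L hL x, filter_filter]
    congr 2
    ext g
    simp only [mem_filter, mem_univ, true_and]
    constructor
    · rintro ⟨⟨h1, _⟩, h2⟩; exact ⟨h1, h2⟩
    · rintro ⟨h1, h2⟩; exact ⟨⟨h1, h2 ▸ hx⟩, h2⟩

/-- The block containing the absolute value of a residue. -/
def blk (Λ : ℕ) (x : ZMod q) : Fin (q + 1) :=
  ⟨x.valMinAbs.natAbs / Λ, by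
    have h1 := ZMod.natAbs_valMinAbs_le x
    have h2 := Nat.div_le_self x.valMinAbs.natAbs Λ
    omega⟩

lemma blk_eq {Λ : ℕ} (hΛ : 0 < Λ) {x y : ZMod q} (h : blk Λ x = blk Λ y) :
    x - y ∈ (Ioo (-Λ : ℤ) Λ).image (Int.cast : ℤ → ZMod q) ∨
      x + y ∈ (Ioo (-Λ : ℤ) Λ).image (Int.cast : ℤ → ZMod q) := by
  have h1 : x.valMinAbs.natAbs / Λ = y.valMinAbs.natAbs / Λ := congrArg Fin.val h
  have h2 := Nat.div_add_mod x.valMinAbs.natAbs Λ
  have h3 := Nat.div_add_mod y.valMinAbs.natAbs Λ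
  have h4 := Nat.mod_lt x.valMinAbs.natAbs hΛ
  have h5 := Nat.mod_lt y.valMinAbs.natAbs hΛ
  rw [h1] at h2
  generalize Λ * (y.valMinAbs.natAbs / Λ) = z at h2 h3
  by_cases hs : 0 ≤ x.valMinAbs ↔ 0 ≤ y.valMinAbs
  · left
    refine mem_image.mpr ⟨x.valMinAbs - y.valMinAbs, mem_Ioo.mpr ⟨by omega, by omega⟩, ?_⟩
    simp
  · right
    refine mem_image.mpr ⟨x.valMinAbs + y.valMinAbs, mem_Ioo.mpr ⟨by omega, by omega⟩, ?_⟩
    simp

open Classical in
lemma card_nongeneric (H : AddSubgroup G) {U : Type*} [Fintype U] (L : U → G →+ ZMod q)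
    (h1 : ∀ u u', u ≠ u' → ∃ g ∈ H, L u g - L u' g ≠ 0)
    (h2 : ∀ u u', u ≠ u' → ∃ g ∈ H, L u g + L u' g ≠ 0) {Λ : ℕ} (hΛ : 0 < Λ) :
    #{g | g ∈ H ∧ ¬ Injective (fun u => blk Λ (L u g))} * q ≤
      Fintype.card U ^ 2 * (4 * Λ) * #{g | g ∈ H} := by
  set S := (Ioo (-Λ : ℤ) Λ).image (Int.cast : ℤ → ZMod q) with hS
  have hSc : #S ≤ 2 * Λ := by
    refine card_image_le.trans ?_
    rw [Int.card_Ioo]; omega
  set P : Finset (U × U) := {p | p.1 ≠ p.2} with hP
  have hsub : ({g | g ∈ H ∧ ¬ Injective (fun u => blk Λ (L u g))} : Finset G) ⊆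
      P.biUnion fun p => (univ.filter fun g => g ∈ H ∧ (L p.1 - L p.2) g ∈ S) ∪
        (univ.filter fun g => g ∈ H ∧ (L p.1 + L p.2) g ∈ S) := by
    intro g hg
    simp only [mem_filter, mem_univ, true_and, Injective, not_forall] at hg
    obtain ⟨hgH, u, u', hu, hne⟩ := hg
    refine mem_biUnion.mpr ⟨(u, u'), by simpa [hP] using hne, ?_⟩
    rcases blk_eq hΛ hu with h | h
    · exact mem_union_left _ (mem_filter.mpr ⟨mem_univ _, hgH, h⟩)
    · exact mem_union_right _ (mem_filter.mpr ⟨mem_univ _, hgH, h⟩)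
  calc _ ≤ (∑ p ∈ P, (#{g | g ∈ H ∧ (L p.1 - L p.2) g ∈ S} +
        #{g | g ∈ H ∧ (L p.1 + L p.2) g ∈ S})) * q := by
        gcongr
        refine (card_le_card hsub).trans (card_biUnion_le.trans ?_)
        exact sum_le_sum fun p _ => card_union_le _ _
    _ ≤ ∑ p ∈ P, (4 * Λ) * #{g | g ∈ H} := by
        rw [sum_mul]
        refine sum_le_sum fun p hp => ?_
        have hp' : p.1 ≠ p.2 := by simpa [hP] using hp
        rw [add_mul, card_preimage_le H _ (h1 _ _ hp'), card_preimage_le H _ (h2 _ _ hp')]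
        nlinarith [Nat.zero_le (#{g | g ∈ H})]
    _ ≤ _ := by
        rw [sum_const, smul_eq_mul, mul_assoc (Fintype.card U ^ 2)]
        refine Nat.mul_le_mul_right _ ?_
        refine (card_le_univ _).trans ?_
        simp [sq]

end count

end Vale.Agent.P130
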