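import Vale.Agent.P130.Colour

open Finset Function

namespace Vale.Agent.P130

lemma card_filter_iff {α : Type*} (s : Finset α) {p q : α → Prop} {_ : DecidablePred p}
    {_ : DecidablePred q} (h : ∀ x, p x ↔ q x) : #(s.filter p) = #(s.filter q) :=
  congrArg card (filter_congr fun x _ => h x)

variable {δ ι : Type*} [Fintype δ] [DecidableEq δ] [Fintype ι] [DecidableEq ι]

/-- The linear form of an integer vector modulo `q`. -/
def dq (q : ℕ) (ν : δ → ℤ) : (δ → ZMod q) →+ ZMod q where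
  toFun b := ∑ d, (ν d : ZMod q) * b d
  map_zero' := by simp
  map_add' a b := by simp [mul_add, sum_add_distrib]

omit [DecidableEq δ] in
lemma dq_cast (q : ℕ) (ν a : δ → ℤ) :
    dq q ν (fun d => (a d : ZMod q)) = ((ν ⬝ᵥ a : ℤ) : ZMod q) := by
  simp [dq, dotProduct]

variable {q : ℕ} [Fact q.Prime]

/-- The colour condition of the branch `i` at the point `b`. -/
def Col (Λ : ℕ) (κ : Fin (q + 1) → Option (ι × Bool)) (ν : ι → δ → ℤ) (b : δ → ZMod q) (i : ι) :
    Prop :=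
  κ (blk Λ (dq q (ν i) b)) = some (i, decide (0 < (dq q (ν i) b).valMinAbs))

instance (Λ : ℕ) (κ : Fin (q + 1) → Option (ι × Bool)) (ν : ι → δ → ℤ) (b : δ → ZMod q) (i : ι) :
    Decidable (Col Λ κ ν b i) := by unfold Col; infer_instance

/-- Colour weights. -/
def cw (lam : ι → ℝ) : Option (ι × Bool) → ℝ
  | none => 1 - 2 * ∑ i, lam i
  | some p => lam p.1

omit [DecidableEq ι] in
lemma sum_cw (lam : ι → ℝ) : ∑ c, cw lam c = 1 := by
  rw [Fintype.sum_option, Fintype.sum_prod_type]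
  simp [cw, ← mul_sum]

open Classical in
lemma moment_aux (ν v : ι → δ → ℤ) (hv0 : ∀ i, ν i ⬝ᵥ v i = 0)
    (hv : ∀ i j, j ≠ i → ((ν j ⬝ᵥ v i : ℤ) : ZMod q) ≠ 0)
    (lam : ι → ℝ) (hl0 : ∀ i, 0 ≤ lam i) (hl : 2 * ∑ i, lam i ≤ 1) {Λ : ℕ} (hΛ : 0 < Λ)
    {Y : Type} [Fintype Y] [DecidableEq Y] [AddCommGroup Y] (φ : (δ → ZMod q) →+ Y)
    (p : ι → Prop) [DecidablePred p]
    (hd : ∀ j, p j → ∃ d, φ d = 0 ∧ dq q (ν j) d ≠ 0) :
    (∑ κ : Fin (q + 1) → Option (ι × Bool), wt (cw lam) κ *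
      ∑ y, ((#{b | φ b = y ∧ ∀ i, p i → Col Λ κ ν b i} : ℝ) -
        #{b | φ b = y} * ∏ i with p i, lam i) ^ 2) * q ≤
      (2 * Fintype.card ι) ^ 2 * (4 * Λ) *
        #{g : (δ → ZMod q) × (δ → ZMod q) | φ g.1 = φ g.2} := by
  have hw0 : ∀ c, 0 ≤ cw lam c := by
    rintro (_ | c)
    · simp only [cw]; linarith
    · exact hl0 _
  have hm := second_moment (B := Fin (q + 1)) hw0 (sum_cw lam) (I := {i // p i}) φ
    (fun b i => blk Λ (dq q (ν i) b))
    (fun b i => some (i.1, decide (0 < (dq q (ν i) b).valMinAbs))) (∏ i with p i, lam i)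
    (fun b => by
      simp only [cw]
      exact (prod_subtype _ (by simp) lam).symm)
  set H : AddSubgroup ((δ → ZMod q) × (δ → ZMod q)) :=
    (φ.comp (AddMonoidHom.fst _ _) - φ.comp (AddMonoidHom.snd _ _)).ker with hH
  have hHm : ∀ g, g ∈ H ↔ φ g.1 = φ g.2 := by
    intro g; simp [hH, sub_eq_zero]
  set L : {i // p i} ⊕ {i // p i} → ((δ → ZMod q) × (δ → ZMod q)) →+ ZMod q :=
    Sum.elim (fun i => (dq q (ν i)).comp (AddMonoidHom.fst _ _))
      (fun i => (dq q (ν i)).comp (AddMonoidHom.snd _ _)) with hL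
  have hex : ∀ u u', u ≠ u' → ∃ g ∈ H, (L u g = 0 ∧ L u' g ≠ 0) ∨ (L u g ≠ 0 ∧ L u' g = 0) := by
    rintro (i | i) (j | j) hne
    · refine ⟨(fun d => (v i d : ZMod q), fun d => (v i d : ZMod q)), (hHm _).mpr rfl, Or.inl ?_⟩
      have : j.1 ≠ i.1 := fun h => hne (by rw [Subtype.ext h])
      simp only [hL, Sum.elim_inl, AddMonoidHom.comp_apply, AddMonoidHom.coe_fst, dq_cast, hv0]
      exact ⟨by simp, hv _ _ this⟩
    · obtain ⟨d, hd1, hd2⟩ := hd j j.2
      exact ⟨(0, d), (hHm _).mpr (by simp [hd1]), Or.inl (by simpa [hL] using hd2)⟩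
    · obtain ⟨d, hd1, hd2⟩ := hd i i.2
      exact ⟨(0, d), (hHm _).mpr (by simp [hd1]), Or.inr (by simpa [hL] using hd2)⟩
    · refine ⟨(fun d => (v i d : ZMod q), fun d => (v i d : ZMod q)), (hHm _).mpr rfl, Or.inl ?_⟩
      have : j.1 ≠ i.1 := fun h => hne (by rw [Subtype.ext h])
      simp only [hL, Sum.elim_inr, AddMonoidHom.comp_apply, AddMonoidHom.coe_snd, dq_cast, hv0]
      exact ⟨by simp, hv _ _ this⟩
  have hng := card_nongeneric H L
    (fun u u' h => by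
      obtain ⟨g, hg, h1 | h1⟩ := hex u u' h
      · exact ⟨g, hg, by simpa [h1.1] using h1.2⟩
      · exact ⟨g, hg, by simpa [h1.2] using h1.1⟩)
    (fun u u' h => by
      obtain ⟨g, hg, h1 | h1⟩ := hex u u' h
      · exact ⟨g, hg, by simpa [h1.1] using h1.2⟩
      · exact ⟨g, hg, by simpa [h1.2] using h1.1⟩) hΛ
  have e1 : ∀ (κ : Fin (q + 1) → Option (ι × Bool)) (y : Y),
      ((#{b | φ b = y ∧ ∀ i, p i → Col Λ κ ν b i} : ℝ) -
        #{b | φ b = y} * ∏ i with p i, lam i) =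
      ∑ b with φ b = y, (hit (fun i : {i // p i} => blk Λ (dq q (ν i) b))
        (fun i => some (i.1, decide (0 < (dq q (ν i) b).valMinAbs))) κ - ∏ i with p i, lam i) := by
    intro κ y
    rw [sum_sub_distrib, sum_const, nsmul_eq_mul, ← filter_filter, card_filter, Nat.cast_sum]
    congr 1
    refine sum_congr rfl fun b _ => ?_
    rw [hit_eq]
    by_cases h : ∀ i, p i → Col Λ κ ν b i
    · rw [if_pos h, if_pos]
      · simp
      · exact fun i => h i.1 i.2
    · rw [if_neg h, if_neg (fun h' => h fun i hi => h' ⟨i, hi⟩)]; simp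
  simp only [e1]
  refine (mul_le_mul_of_nonneg_right hm (Nat.cast_nonneg q)).trans ?_
  have e2 : ∀ g : (δ → ZMod q) × (δ → ZMod q), (φ g.1 = φ g.2 ∧
      ¬ Injective (Sum.elim (fun i : {i // p i} => blk Λ (dq q (ν i) g.1))
        (fun i : {i // p i} => blk Λ (dq q (ν i) g.2)))) ↔
      (g ∈ H ∧ ¬ Injective (fun u => blk Λ (L u g))) := by
    intro g
    rw [hHm]
    have : (Sum.elim (fun i : {i // p i} => blk Λ (dq q (ν i) g.1))
        (fun i : {i // p i} => blk Λ (dq q (ν i) g.2))) = fun u => blk Λ (L u g) := by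
      funext u; rcases u with i | i <;> rfl
    rw [this]
  have hc : Fintype.card ({i // p i} ⊕ {i // p i}) ≤ 2 * Fintype.card ι := by
    rw [Fintype.card_sum]
    have := Fintype.card_subtype_le p
    omega
  have h4 := hng.trans (Nat.mul_le_mul_right _ (Nat.mul_le_mul_right _ (Nat.pow_le_pow_left hc 2)))
  have h5 := (Nat.cast_le (α := ℝ)).mpr h4
  push_cast at h5
  refine le_of_eq_of_le ?_ (h5.trans_eq ?_)
  · exact congrArg (fun n : ℕ => (n : ℝ) * q) (card_filter_iff _ e2)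
  · exact congrArg (fun n : ℕ => (2 * (Fintype.card ι : ℝ)) ^ 2 * (4 * Λ) * (n : ℝ))
      (card_filter_iff _ hHm)

theorem colouring (ν v : ι → δ → ℤ) (α : δ → ℤ) (hv0 : ∀ i, ν i ⬝ᵥ v i = 0)
    (hv : ∀ i j, j ≠ i → ((ν j ⬝ᵥ v i : ℤ) : ZMod q) ≠ 0)
    (hα : ∀ i, ((ν i ⬝ᵥ α : ℤ) : ZMod q) ≠ 0)
    (lam : ι → ℝ) (hl0 : ∀ i, 0 ≤ lam i) (hl : 2 * ∑ i, lam i ≤ 1) {Λ : ℕ} (hΛ : 0 < Λ) :
    ∃ κ : Fin (q + 1) → Option (ι × Bool),
      ((#{b : δ → ZMod q | ∀ i, Col Λ κ ν b i} : ℝ) -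
        (q : ℝ) ^ Fintype.card δ * ∏ i, lam i) ^ 2 * q ≤
        (Fintype.card ι + 1) * (2 * Fintype.card ι) ^ 2 * (4 * Λ) *
          ((q : ℝ) ^ Fintype.card δ) ^ 2 ∧
      ∀ n, (∑ x, ((#{b : δ → ZMod q | dq q (ν n) b = x ∧ ∀ i, i ≠ n → Col Λ κ ν b i} : ℝ) -
        (q : ℝ) ^ Fintype.card δ / q * ∏ i with i ≠ n, lam i) ^ 2) * q ^ 2 ≤
        (Fintype.card ι + 1) * (2 * Fintype.card ι) ^ 2 * (4 * Λ) *
          ((q : ℝ) ^ Fintype.card δ) ^ 2 := by
  classical
  have hq : (0 : ℝ) < q := by exact_mod_cast (Fact.out : q.Prime).pos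
  have hw0 : ∀ c, 0 ≤ cw lam c := by
    rintro (_ | c)
    · simp only [cw]; linarith
    · exact hl0 _
  set W : ℝ := (q : ℝ) ^ Fintype.card δ with hW
  have hWc : (Fintype.card (δ → ZMod q) : ℝ) = W := by simp [hW]
  set K : ℝ := (2 * Fintype.card ι) ^ 2 * (4 * Λ) with hK
  have hαd : ∀ j, dq q (ν j) (fun d => (α d : ZMod q)) ≠ 0 := fun j => by
    rw [dq_cast]; exact hα j
  set Z0 : (Fin (q + 1) → Option (ι × Bool)) → ℝ := fun κ =>
    ((#{b : δ → ZMod q | ∀ i, Col Λ κ ν b i} : ℝ) - W * ∏ i, lam i) ^ 2 * q with hZ0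
  set Z : ι → (Fin (q + 1) → Option (ι × Bool)) → ℝ := fun n κ =>
    (∑ x, ((#{b : δ → ZMod q | dq q (ν n) b = x ∧ ∀ i, i ≠ n → Col Λ κ ν b i} : ℝ) -
        W / q * ∏ i with i ≠ n, lam i) ^ 2) * q ^ 2 with hZ
  have h0 : ∑ κ, wt (cw lam) κ * Z0 κ ≤ K * W ^ 2 := by
    have := moment_aux ν v hv0 hv lam hl0 hl hΛ (Y := Unit) 0 (fun _ => True)
      (fun j _ => ⟨_, rfl, hαd j⟩)
    simp only [univ_unique, sum_singleton, forall_const, true_and, filter_true,
      card_univ, Fintype.card_prod, Nat.cast_mul, hWc] at this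
    rw [sum_mul] at this
    simp only [hZ0, ← mul_assoc]
    convert this using 1
    rw [sq]
  have hn : ∀ n, ∑ κ, wt (cw lam) κ * Z n κ ≤ K * W ^ 2 := by
    intro n
    have := moment_aux ν v hv0 hv lam hl0 hl hΛ (dq q (ν n)) (fun i => i ≠ n)
      (fun j hj => ⟨fun d => (v n d : ZMod q), by rw [dq_cast, hv0]; simp,
        by rw [dq_cast]; exact hv _ _ hj⟩)
    have f1 : ∀ y, (#{b | dq q (ν n) b = y} : ℝ) = W / q := by
      intro y
      have h1 := card_fibre ⊤ (dq q (ν n)) ⟨_, trivial, hαd n⟩ y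
      simp only [AddSubgroup.mem_top, true_and, filter_true, card_univ] at h1
      rw [eq_div_iff hq.ne', ← hWc]
      convert congrArg (Nat.cast (R := ℝ)) h1 using 1
      push_cast; congr
    have f2 : (#{g : (δ → ZMod q) × (δ → ZMod q) | dq q (ν n) g.1 = dq q (ν n) g.2} : ℝ) * q =
        W ^ 2 := by
      have h1 := card_fibre ⊤ ((dq q (ν n)).comp (AddMonoidHom.fst _ (δ → ZMod q)) -
        (dq q (ν n)).comp (AddMonoidHom.snd (δ → ZMod q) _))
        ⟨(fun d => (α d : ZMod q), 0), trivial, by simpa using hαd n⟩ 0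
      simp only [AddSubgroup.mem_top, true_and, filter_true, card_univ, Fintype.card_prod,
        AddMonoidHom.sub_apply, AddMonoidHom.comp_apply, AddMonoidHom.coe_fst,
        AddMonoidHom.coe_snd, sub_eq_zero] at h1
      rw [sq, ← hWc]
      convert congrArg (Nat.cast (R := ℝ)) h1 using 1
      · push_cast; congr
      · push_cast; rfl
    simp only [f1] at this
    have h2 := mul_le_mul_of_nonneg_right this hq.le
    rw [mul_assoc K, f2, mul_assoc, ← sq, sum_mul] at h2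
    simp only [hZ, ← mul_assoc]
    convert h2
  have hsum : ∑ κ, wt (cw lam) κ * (Z0 κ + ∑ n, Z n κ) ≤
      ∑ κ : Fin (q + 1) → Option (ι × Bool), wt (cw lam) κ *
        ((Fintype.card ι + 1) * K * W ^ 2) := by
    rw [← sum_mul, sum_wt (sum_cw lam), one_mul]
    simp only [mul_add, sum_add_distrib, mul_sum]
    rw [sum_comm]
    have := sum_le_sum (s := univ) fun n _ => hn n
    simp only [sum_const, card_univ, nsmul_eq_mul] at this
    linarith
  have hex : ∃ κ, Z0 κ + ∑ n, Z n κ ≤ (Fintype.card ι + 1) * K * W ^ 2 := by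
    by_contra hcon
    push Not at hcon
    refine absurd hsum (not_le.mpr ?_)
    have hpos : ∃ κ : Fin (q + 1) → Option (ι × Bool), 0 < wt (cw lam) κ := by
      by_contra h
      push Not at h
      have := sum_nonpos (s := univ) fun κ _ => h κ
      rw [sum_wt (sum_cw lam)] at this
      linarith
    obtain ⟨κ0, hκ0⟩ := hpos
    exact sum_lt_sum (fun κ _ => mul_le_mul_of_nonneg_left (hcon κ).le (wt_nonneg hw0 κ))
      ⟨κ0, mem_univ _, mul_lt_mul_of_pos_left (hcon κ0) hκ0⟩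
  obtain ⟨κ, hκ⟩ := hex
  have z0 : 0 ≤ Z0 κ := by simp only [hZ0]; positivity
  have zn : ∀ n, 0 ≤ Z n κ := fun n => by simp only [hZ]; positivity
  have zs := sum_nonneg (s := univ) fun n _ => zn n
  refine ⟨κ, ?_, fun n => ?_⟩
  · have : Z0 κ ≤ (Fintype.card ι + 1) * K * W ^ 2 := by linarith
    simpa only [hZ0, hK, mul_assoc] using this
  · have h1 := single_le_sum (fun n _ => zn n) (mem_univ n)
    have : Z n κ ≤ (Fintype.card ι + 1) * K * W ^ 2 := by linarith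
    simpa only [hZ, hK, mul_assoc] using this

end Vale.Agent.P130
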