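import Vale.Agent.P130.Basic

open Complex Finset
open scoped Real ComplexConjugate

namespace Vale.Agent.P130

lemma stdAddChar_eq_ex (r : ℕ) [NeZero r] (j : ℤ) :
    ZMod.stdAddChar (j : ZMod r) = ex (j / r) := by
  rw [ZMod.stdAddChar_coe]; unfold ex; congr 1; push_cast; ring

/-- A quadratic phase with a unit coefficient has Fourier coefficients of constant modulus. -/
theorem gauss_comb (r : ℕ) [NeZero r] (u : ℤ) (hu : IsCoprime (2 * u) (r : ℤ)) :
    ∃ g : ZMod r → ℂ, (∀ a, ‖g a‖ = (Real.sqrt r)⁻¹) ∧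
      ∀ k : ℕ, ex (u * (k : ℝ) ^ 2 / r) = ∑ a : ZMod r, g a * ex (k * (a.val : ℝ) / r) := by
  classical
  set ψ : AddChar (ZMod r) ℂ := ZMod.stdAddChar with hψ
  have hprim : ψ.IsPrimitive := ZMod.isPrimitive_stdAddChar r
  have hr : (r : ℂ) ≠ 0 := by exact_mod_cast NeZero.ne r
  have hconj : ∀ x : ZMod r, conj (ψ x) = ψ (-x) := by
    intro x
    obtain ⟨j, rfl⟩ := ZMod.intCast_surjective x
    rw [← Int.cast_neg, hψ, stdAddChar_eq_ex, stdAddChar_eq_ex, ← ex_neg]
    congr 1; push_cast; ring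
  have hunit : IsUnit (2 * (u : ZMod r)) := by
    obtain ⟨a, b, hab⟩ := hu
    have := congrArg (Int.cast : ℤ → ZMod r) hab
    push_cast at this
    rw [ZMod.natCast_self, mul_zero, add_zero] at this
    exact IsUnit.of_mul_eq_one_right _ this
  refine ⟨fun a => (r : ℂ)⁻¹ * ∑ j : ZMod r, ψ (u * j ^ 2 - j * a), fun a => ?_, fun k => ?_⟩
  · have h1 : (∑ j : ZMod r, ψ (u * j ^ 2 - j * a)) * conj (∑ j : ZMod r, ψ (u * j ^ 2 - j * a))
        = r := by
      rw [map_sum, sum_mul_sum, sum_comm]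
      have h2 : ∀ j : ZMod r, ∑ i : ZMod r, ψ (u * i ^ 2 - i * a) * conj (ψ (u * j ^ 2 - j * a)) =
          ∑ h : ZMod r, ψ (u * h ^ 2 - h * a) * ψ (j * (2 * u * h)) := by
        intro j
        rw [← Equiv.sum_comp (Equiv.addLeft j)]
        refine sum_congr rfl fun h _ => ?_
        rw [hconj, ← AddChar.map_add_eq_mul, ← AddChar.map_add_eq_mul]
        congr 1
        simp only [Equiv.coe_addLeft]; ring
      simp only [h2]
      rw [sum_comm]
      simp only [← mul_sum, AddChar.sum_mulShift _ hprim]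
      rw [sum_eq_single 0]
      · simp
      · intro h _ hh
        rw [if_neg (fun h0 => hh (hunit.mul_right_eq_zero.mp h0))]; simp
      · simp
    rw [Complex.mul_conj, Complex.normSq_eq_norm_sq] at h1
    have h2 : ‖∑ j : ZMod r, ψ (u * j ^ 2 - j * a)‖ = Real.sqrt r := by
      have : ‖∑ j : ZMod r, ψ (u * j ^ 2 - j * a)‖ ^ 2 = r := by exact_mod_cast h1
      rw [← this, Real.sqrt_sq (norm_nonneg _)]
    rw [norm_mul, h2, norm_inv, Complex.norm_natCast]
    have hr' : (0 : ℝ) < r := by exact_mod_cast Nat.pos_of_ne_zero (NeZero.ne r)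
    have hs : Real.sqrt r ≠ 0 := (Real.sqrt_pos.mpr hr').ne'
    field_simp
    rw [Real.sq_sqrt hr'.le]
  · have e1 : ex (u * (k : ℝ) ^ 2 / r) = ψ (u * (k : ZMod r) ^ 2) := by
      have := stdAddChar_eq_ex r (u * (k : ℤ) ^ 2)
      push_cast at this; rw [hψ, this]
    have e2 : ∀ a : ZMod r, ex (k * (a.val : ℝ) / r) = ψ (a * k) := by
      intro a
      have := stdAddChar_eq_ex r ((k : ℤ) * (a.val : ℤ))
      push_cast at this
      rw [hψ, ← this, ZMod.natCast_zmod_val, mul_comm]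
    simp only [e1, e2, mul_assoc, ← mul_sum, sum_mul]
    rw [sum_comm]
    have h3 : ∀ j : ZMod r, ∑ a : ZMod r, ψ (u * j ^ 2 - j * a) * ψ (a * k) =
        ψ (u * j ^ 2) * ∑ a : ZMod r, ψ (a * (k - j)) := by
      intro j
      rw [mul_sum]
      refine sum_congr rfl fun a _ => ?_
      rw [← AddChar.map_add_eq_mul, ← AddChar.map_add_eq_mul]
      congr 1; ring
    simp only [h3, AddChar.sum_mulShift _ hprim]
    rw [sum_eq_single (k : ZMod r)]
    · simp; field_simp
    · intro j _ hj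
      rw [if_neg (fun h => hj (sub_eq_zero.mp h).symm)]; simp
    · simp

end Vale.Agent.P130
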