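import Vale.Agent.P130.Basic

open MeasureTheory Complex Finset Filter Topology Function
open scoped Real ComplexConjugate InnerProductSpace

namespace Vale.Agent.P130

lemma ae_zero_of_fourier {h : Tc → ℂ} (hh : Integrable h hm)
    (h0 : ∀ n : ℤ, ∫ θ, fourier n θ * h θ ∂hm = 0) : h =ᵐ[hm] 0 := by
  have hint : ∀ φ : C(Tc, ℂ), Integrable (fun θ => φ θ * h θ) hm := fun φ =>
    hh.bdd_mul (c := ‖φ‖) φ.continuous.aestronglyMeasurable (ae_of_all _ φ.norm_coe_le_norm)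
  let L : C(Tc, ℂ) →ₗ[ℂ] ℂ :=
    { toFun := fun φ => ∫ θ, φ θ * h θ ∂hm
      map_add' := fun φ ψ => by
        rw [← integral_add (hint φ) (hint ψ)]; simp [add_mul]
      map_smul' := fun c φ => by
        simp [mul_assoc, integral_const_mul] }
  have hL : ∀ φ, ‖L φ‖ ≤ (∫ θ, ‖h θ‖ ∂hm) * ‖φ‖ := by
    intro φ
    rw [← integral_mul_const]
    refine norm_integral_le_of_norm_le (hh.norm.mul_const _) (ae_of_all _ fun θ => ?_)
    rw [norm_mul, mul_comm]
    gcongr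
    exact φ.norm_coe_le_norm θ
  have hL0 : L.mkContinuous _ hL = 0 := by
    refine ContinuousLinearMap.ext_on
      (Submodule.dense_iff_topologicalClosure_eq_top.mpr (span_fourier_closure_eq_top (T := 1))) ?_
    rintro _ ⟨n, rfl⟩
    exact h0 n
  have hφ : ∀ φ : C(Tc, ℂ), ∫ θ, φ θ * h θ ∂hm = 0 := fun φ =>
    congrArg (fun L : C(Tc, ℂ) →L[ℂ] ℂ => L φ) hL0
  refine ae_eq_zero_of_forall_setIntegral_isClosed_eq_zero hh fun s hs => ?_
  have hlim : Tendsto (fun n => ∫ θ, ((hs.apprSeq n θ : ℝ) : ℂ) * h θ ∂hm) atTop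
      (𝓝 (∫ θ, s.indicator h θ ∂hm)) := by
    refine tendsto_integral_of_dominated_convergence (fun θ => ‖h θ‖) (fun n => ?_) hh.norm
      (fun n => ae_of_all _ fun θ => ?_) (ae_of_all _ fun θ => ?_)
    · refine AEStronglyMeasurable.mul (Continuous.aestronglyMeasurable ?_) hh.1
      fun_prop
    · rw [norm_mul]
      refine mul_le_of_le_one_left (norm_nonneg _) ?_
      simpa using HasOuterApproxClosed.apprSeq_apply_le_one hs n θ
    · have h1 := tendsto_pi_nhds.mp (HasOuterApproxClosed.tendsto_apprSeq hs) θ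
      have h2 := ((Complex.continuous_ofReal.comp NNReal.continuous_coe).tendsto _).comp h1
      have h3 := h2.mul_const (h θ)
      have e : s.indicator h θ =
          (ofReal ∘ NNReal.toReal) (s.indicator (fun _ => 1) θ) * h θ := by
        by_cases hθ : θ ∈ s <;> simp [hθ]
      rw [e]; exact h3
  rw [integral_indicator hs.measurableSet] at hlim
  have h2 : ∀ n, ∫ θ, ((hs.apprSeq n θ : ℝ) : ℂ) * h θ ∂hm = 0 := fun n =>
    hφ ⟨fun θ => ((hs.apprSeq n θ : ℝ) : ℂ), by fun_prop⟩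
  simp only [h2] at hlim
  exact (tendsto_nhds_unique tendsto_const_nhds hlim).symm

/-- The space `L^2` of the circle. -/
noncomputable abbrev L2 := Lp ℂ 2 hm

lemma memLp_mul {φ : Tc → ℂ} (hφ : Bdd φ) (F : L2) : MemLp (fun θ => φ θ * F θ) 2 hm := by
  obtain ⟨C, hC⟩ := hφ.bd
  refine MemLp.of_le_mul (c := C) (Lp.memLp F)
    (hφ.meas.aestronglyMeasurable.mul (Lp.memLp F).1) (ae_of_all _ fun θ => ?_)
  rw [norm_mul]; gcongr; exact hC θ

/-- Multiplication by a bounded function, as a linear map. -/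
noncomputable def mulLin {φ : Tc → ℂ} (hφ : Bdd φ) : L2 →ₗ[ℂ] L2 where
  toFun F := (memLp_mul hφ F).toLp _
  map_add' F G := by
    rw [← MemLp.toLp_add]
    refine MemLp.toLp_congr _ _ ?_
    filter_upwards [Lp.coeFn_add F G] with θ h
    rw [h]; simp [mul_add]
  map_smul' c F := by
    rw [RingHom.id_apply, ← MemLp.toLp_const_smul]
    refine MemLp.toLp_congr _ _ ?_
    filter_upwards [Lp.coeFn_smul c F] with θ h
    simp [h, mul_left_comm]

lemma mulLin_bound {φ : Tc → ℂ} (hφ : Bdd φ) : ∃ C, ∀ F, ‖mulLin hφ F‖ ≤ C * ‖F‖ := by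
  obtain ⟨C, hC⟩ := hφ.bd
  refine ⟨C, fun F => Lp.norm_le_mul_norm_of_ae_le_mul ?_⟩
  filter_upwards [(memLp_mul hφ F).coeFn_toLp] with θ h
  change ‖(memLp_mul hφ F).toLp _ θ‖ ≤ _
  rw [h, norm_mul]; gcongr; exact hC θ

/-- Multiplication by a bounded function. -/
noncomputable def mulL {φ : Tc → ℂ} (hφ : Bdd φ) : L2 →L[ℂ] L2 :=
  (mulLin hφ).mkContinuousOfExistsBound (mulLin_bound hφ)

lemma coe_mulL {φ : Tc → ℂ} (hφ : Bdd φ) (F : L2) :
    mulL hφ F =ᵐ[hm] fun θ => φ θ * F θ := (memLp_mul hφ F).coeFn_toLp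

/-- Multiplication by a character. -/
noncomputable def Zm (n : ℤ) : L2 →L[ℂ] L2 := mulL (bdd_fourier n)

lemma coe_Zm (n : ℤ) (F : L2) : Zm n F =ᵐ[hm] fun θ => fourier n θ * F θ := coe_mulL _ F

lemma Zm_Zm (m n : ℤ) (F : L2) : Zm m (Zm n F) = Zm (n + m) F := by
  apply Lp.ext
  filter_upwards [coe_Zm m (Zm n F), coe_Zm n F, coe_Zm (n + m) F] with θ h1 h2 h3
  rw [h1, h2, h3, fourier_add]; ring

lemma inner_Zm (m n : ℤ) (F G : L2) :
    ⟪Zm m F, Zm n G⟫_ℂ = ∫ θ, fourier (n - m) θ * (conj (F θ) * G θ) ∂hm := by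
  rw [L2.inner_def]
  refine integral_congr_ae ?_
  filter_upwards [coe_Zm m F, coe_Zm n G] with θ h1 h2
  rw [h1, h2, RCLike.inner_apply, sub_eq_add_neg, fourier_add, fourier_neg, map_mul]; ring

lemma eq_zero_of_inner_Zm {A : L2} (hA : ∀ᵐ θ ∂hm, A θ ≠ 0) {u : L2}
    (h : ∀ n, ⟪Zm n A, u⟫_ℂ = 0) : u = 0 := by
  have h1 : Integrable (fun θ => conj (A θ) * u θ) hm := by
    have := L2.integrable_inner (𝕜 := ℂ) A u
    simpa only [RCLike.inner_apply, mul_comm] using this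
  have h2 := ae_zero_of_fourier h1 fun n => by
    have := h (-n)
    rw [L2.inner_def] at this
    rw [← this]
    refine integral_congr_ae ?_
    filter_upwards [coe_Zm (-n) A] with θ h1
    rw [h1, RCLike.inner_apply, map_mul, fourier_neg, conj_conj]; ring
  apply Lp.ext
  filter_upwards [h2, hA, Lp.coeFn_zero ℂ 2 hm] with θ h1 h2 h3
  rw [h3]
  simpa [h2] using h1

lemma dense_Zm {A : L2} (hA : ∀ᵐ θ ∂hm, A θ ≠ 0) :
    Dense (Submodule.span ℂ (Set.range fun n => Zm n A) : Set L2) := by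
  rw [Submodule.dense_iff_topologicalClosure_eq_top, Submodule.topologicalClosure_eq_top_iff,
    Submodule.eq_bot_iff]
  intro u hu
  exact eq_zero_of_inner_Zm hA fun n =>
    (Submodule.mem_orthogonal _ _).mp hu _ (Submodule.subset_span ⟨n, rfl⟩)

variable {E : Type*} [NormedAddCommGroup E] [InnerProductSpace ℂ E] [CompleteSpace E]

lemma exists_isometry {A : L2} (hA : ∀ᵐ θ ∂hm, A θ ≠ 0) (ξ : ℤ → E)
    (h : ∀ m n, ⟪ξ m, ξ n⟫_ℂ = ⟪Zm m A, Zm n A⟫_ℂ) :
    ∃ W : L2 →L[ℂ] E, (∀ n, W (Zm n A) = ξ n) ∧ ∀ F G, ⟪W F, W G⟫_ℂ = ⟪F, G⟫_ℂ := by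
  set e := Finsupp.linearCombination ℂ fun n => Zm n A with he
  set f := Finsupp.linearCombination ℂ ξ with hf
  have hd : DenseRange e := by
    have := dense_Zm hA
    rw [← Finsupp.range_linearCombination] at this
    exact this
  have hi : ∀ x y, ⟪f x, f y⟫_ℂ = ⟪e x, e y⟫_ℂ := by
    intro x y
    simp only [he, hf, Finsupp.linearCombination_apply, Finsupp.sum, sum_inner, inner_sum,
      inner_smul_left, inner_smul_right, h]
  have hn : ∀ x, ‖f x‖ ≤ 1 * ‖e x‖ := by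
    intro x
    rw [one_mul, @norm_eq_sqrt_re_inner ℂ, @norm_eq_sqrt_re_inner ℂ, hi]
  refine ⟨f.extendOfNorm e, fun n => ?_, fun F G => ?_⟩
  · have := LinearMap.extendOfNorm_eq hd ⟨1, hn⟩ (Finsupp.single n 1)
    simpa [he, hf] using this
  · refine hd.induction_on₂ (p := fun F G =>
      ⟪f.extendOfNorm e F, f.extendOfNorm e G⟫_ℂ = ⟪F, G⟫_ℂ) ?_ (fun x y => ?_) F G
    · exact isClosed_eq (by fun_prop) (by fun_prop)
    · simp only [LinearMap.extendOfNorm_eq hd ⟨1, hn⟩, hi]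

theorem spectral (V : ℤ → E →L[ℂ] E) (ξ : ℕ → ℤ → E) (hV : ∀ n m, V n (ξ 0 m) = ξ 0 (m + n))
    (A : ℕ → L2) (hA : ∀ j, ∀ᵐ θ ∂hm, A j θ ≠ 0)
    (hi : ∀ j m n, ⟪ξ j m, ξ j n⟫_ℂ = ⟪Zm m (A j), Zm n (A j)⟫_ℂ)
    (B : ℕ → Finset ℤ) (hB : ∀ j, ∀ᵐ θ ∂hm, ∑ u ∈ B j, fourier u θ ≠ 0)
    (hrel : ∀ j n, ξ 0 n = ∑ u ∈ B j, ξ j (n - u)) :
    ∃ f : E, (∀ m n, ⟪V m f, V n f⟫_ℂ = if m = n then 1 else 0) ∧
      (∀ e : E, (∀ n, ⟪e, ξ 0 n⟫_ℂ = 0) → ⟪e, f⟫_ℂ = 0) ∧
      ∀ g : E, (∀ n, ⟪V n f, g⟫_ℂ = 0) → ∀ j n, ⟪ξ j n, g⟫_ℂ = 0 := by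
  choose W hW1 hW2 using fun j => exists_isometry (hA j) (ξ j) (hi j)
  set one : L2 := (memLp_const (1 : ℂ)).toLp _ with hone
  have hone1 : one =ᵐ[hm] fun _ => 1 := MemLp.coeFn_toLp _
  have hone0 : ∀ᵐ θ ∂hm, one θ ≠ 0 := by
    filter_upwards [hone1] with θ h; rw [h]; exact one_ne_zero
  have hVW : ∀ n, (V n).comp (W 0) = (W 0).comp (Zm n) := by
    intro n
    refine ContinuousLinearMap.ext_on (dense_Zm (hA 0)) ?_
    rintro _ ⟨m, rfl⟩
    simp only [ContinuousLinearMap.comp_apply, Zm_Zm, hW1, hV]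
  have hVf : ∀ n, V n (W 0 one) = W 0 (Zm n one) := fun n =>
    congrArg (fun L : L2 →L[ℂ] E => L one) (hVW n)
  refine ⟨W 0 one, fun m n => ?_, fun e he => ?_, fun g hg j n => ?_⟩
  · rw [hVf, hVf, hW2, inner_Zm]
    have : ∫ θ, fourier (n - m) θ * (conj (one θ) * one θ) ∂hm = ∫ θ, fourier (n - m) θ ∂hm := by
      refine integral_congr_ae ?_
      filter_upwards [hone1] with θ h
      simp [h]
    rw [this, integral_fourier]
    exact if_congr (by omega) rfl rfl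
  · have : (innerSL ℂ e).comp (W 0) = 0 := by
      refine ContinuousLinearMap.ext_on (dense_Zm (hA 0)) ?_
      rintro _ ⟨m, rfl⟩
      simpa [hW1] using he m
    exact congrArg (fun L : L2 →L[ℂ] ℂ => L one) this
  · have h1 : ContinuousLinearMap.adjoint (W 0) g = 0 :=
      eq_zero_of_inner_Zm hone0 fun n => by
        rw [ContinuousLinearMap.adjoint_inner_right, ← hVf, hg]
    have h2 : ∀ n, ⟪ξ 0 n, g⟫_ℂ = 0 := fun n => by
      rw [← hW1, ← ContinuousLinearMap.adjoint_inner_right, h1, inner_zero_right]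
    have h3 : ContinuousLinearMap.adjoint (W j) g = 0 := by
      refine eq_zero_of_inner_Zm (A := ∑ u ∈ B j, Zm (-u) (A j)) ?_ fun n => ?_
      · have h4 : ∀ s : Finset ℤ, ∀ᵐ θ ∂hm, (∑ u ∈ s, Zm (-u) (A j) : L2) θ =
            conj (∑ u ∈ s, fourier u θ) * A j θ := by
          intro s
          induction s using Finset.induction_on with
          | empty => filter_upwards [Lp.coeFn_zero ℂ 2 hm] with θ h; simp
          | insert a s ha ih =>
            rw [sum_insert ha]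
            filter_upwards [ih, coe_Zm (-a) (A j), Lp.coeFn_add (Zm (-a) (A j))
              (∑ u ∈ s, Zm (-u) (A j))] with θ h1 h2 h3
            rw [h3, Pi.add_apply, h1, h2, sum_insert ha, map_add, fourier_neg]; ring
        filter_upwards [h4 (B j), hA j, hB j] with θ h1 h2 h3
        rw [h1]
        exact mul_ne_zero ((map_ne_zero _).mpr h3) h2
      · rw [ContinuousLinearMap.adjoint_inner_right, map_sum, map_sum, ← h2 n, hrel j n]
        congr 1
        refine sum_congr rfl fun u _ => ?_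
        rw [Zm_Zm, hW1, neg_add_eq_sub]
    rw [← hW1, ← ContinuousLinearMap.adjoint_inner_right, h3, inner_zero_right]

lemma nullSingleton_hm : NullSingletonClass hm := ⟨fun x => by
  rw [hm_eq_volume, ← Metric.closedBall_zero, AddCircle.volume_closedBall]; simp⟩

lemma ae_eval_ne_zero {q : Polynomial ℂ} (hq : q ≠ 0) : ∀ᵐ θ ∂hm, q.eval (fourier 1 θ) ≠ 0 := by
  have h1 : Set.Finite {θ : Tc | q.IsRoot (fourier 1 θ)} := by
    refine Set.Finite.preimage (f := fun θ : Tc => (fourier 1 θ : ℂ)) (s := {z | q.IsRoot z})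
      (Injective.injOn fun a b h => ?_) (Polynomial.finite_setOfPred_isRoot hq)
    simp only [fourier_one] at h
    exact AddCircle.injective_toCircle one_ne_zero (Subtype.ext h)
  have := nullSingleton_hm
  rw [ae_iff]
  simpa using h1.measure_zero hm

end Vale.Agent.P130
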