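import Vale.Agent.P130.Par
import Vale.Agent.P130.Spec0

open MeasureTheory Complex Finset Filter Topology Function
open scoped Real ComplexConjugate InnerProductSpace

namespace Vale.Agent.P130

lemma L2_norm_sq (F : L2) : ‖F‖ ^ 2 = ∫ θ, ‖F θ‖ ^ 2 ∂hm := by
  have H₃ := congr_arg RCLike.re (@L2.inner_def Tc ℂ ℂ _ _ _ _ _ F F)
  rw [← integral_re (L2.integrable_inner F F)] at H₃
  simpa only [← norm_sq_eq_re_inner] using H₃

lemma ae_sum_fourier_ne_zero {B : Finset ℤ} (hB : ∀ u ∈ B, 0 ≤ u) (hne : 0 < #B) :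
    ∀ᵐ θ ∂hm, ∑ u ∈ B, fourier u θ ≠ 0 := by
  have h1 : (∑ u ∈ B, Polynomial.X ^ u.toNat : Polynomial ℂ) ≠ 0 := by
    intro h
    have := congrArg (Polynomial.eval 1) h
    simp only [Polynomial.eval_finsetSum, Polynomial.eval_pow, Polynomial.eval_X, one_pow,
      sum_const, nsmul_eq_mul, mul_one, Polynomial.eval_zero, Nat.cast_eq_zero] at this
    omega
  filter_upwards [ae_eval_ne_zero h1] with θ h
  simp only [Polynomial.eval_finsetSum, Polynomial.eval_pow, Polynomial.eval_X,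
    ← fourier_nat] at h
  rwa [sum_congr rfl fun u hu => by rw [Int.toNat_of_nonneg (hB u hu)]] at h

lemma ae_one_sub_ne_zero : ∀ᵐ θ ∂hm, 1 - fourier 1 θ ≠ 0 := by
  have h1 : (1 - Polynomial.X : Polynomial ℂ) ≠ 0 := by
    intro h
    have := congrArg (Polynomial.eval 0) h
    simp at this
  filter_upwards [ae_eval_ne_zero h1] with θ h
  simpa only [Polynomial.eval_sub, Polynomial.eval_one, Polynomial.eval_X] using h

namespace Par

variable (P : Par)

lemma ae_PP_ne_zero (j d : ℕ) : ∀ᵐ θ ∂hm, P.PP j d θ ≠ 0 := by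
  filter_upwards [ae_sum_fourier_ne_zero (fun u hu => (P.B_bound hu).1) (P.card_B_pos j d)]
    with θ h
  rw [PP_eq]
  refine mul_ne_zero (inv_ne_zero ?_) h
  exact_mod_cast (Real.sqrt_pos.mpr (by exact_mod_cast P.card_B_pos j d)).ne'

lemma bdd_am (j d : ℕ) : Bdd fun θ => ((‖1 - fourier 1 θ‖ * ‖P.PP j d θ‖ : ℝ) : ℂ) :=
  (((Bdd.const _).sub (bdd_fourier 1)).norm.mul (P.bdd_PP j d).norm).ofReal

/-- Approximate spectral amplitudes. -/
noncomputable def am (j d : ℕ) : L2 := ((P.bdd_am j d).memLp hm 2).toLp _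

lemma coe_am (j d : ℕ) :
    P.am j d =ᵐ[hm] fun θ => ((‖1 - fourier 1 θ‖ * ‖P.PP j d θ‖ : ℝ) : ℂ) := MemLp.coeFn_toLp _

theorem exists_lim (hP : ∀ j d, ∫ θ, ‖P.PP j d θ‖ ^ 2 *
    (‖1 - fourier 1 θ‖ ^ 2 * (‖P.pk (j + d) θ‖ - 1) ^ 2) ∂hm ≤ (1 / 4) ^ (j + d)) :
    ∃ A : ℕ → L2, (∀ j, ∀ᵐ θ ∂hm, A j θ ≠ 0) ∧ ∀ j m n, Tendsto (fun d =>
      ∫ θ, fourier (n - m) θ * ((‖1 - fourier 1 θ‖ ^ 2 * ‖P.PP j d θ‖ ^ 2 : ℝ) : ℂ) ∂hm) atTop
      (𝓝 ⟪Zm m (A j), Zm n (A j)⟫_ℂ) := by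
  have hd : ∀ j d, dist (P.am j d) (P.am j (d + 1)) ≤ (1 / 2) ^ j * (1 / 2) ^ d := by
    intro j d
    rw [dist_eq_norm, ← pow_add]
    refine abs_le_of_sq_le_sq' ?_ (by positivity) |>.2
    rw [L2_norm_sq, ← pow_mul, mul_comm (j + d), pow_mul, show (1 / 2 : ℝ) ^ 2 = 1 / 4 by norm_num]
    refine le_of_eq_of_le (integral_congr_ae ?_) (hP j d)
    filter_upwards [Lp.coeFn_sub (P.am j d) (P.am j (d + 1)), P.coe_am j d, P.coe_am j (d + 1)]
      with θ h1 h2 h3
    rw [h1, Pi.sub_apply, h2, h3, ← Complex.ofReal_sub, Complex.norm_real, Real.norm_eq_abs, sq_abs]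
    simp only [PP, prod_range_succ, norm_mul]
    ring
  choose A hA using fun j => cauchySeq_tendsto_of_complete
    (cauchySeq_of_le_geometric (1 / 2) _ (by norm_num) (hd j))
  have hd0 : ∀ j, ‖P.am j 0 - A j‖ ≤ 2 * (1 / 2) ^ j := by
    intro j
    have := dist_le_of_le_geometric_of_tendsto₀ (1 / 2) _ (by norm_num) (hd j) (hA j)
    rw [dist_eq_norm] at this
    refine this.trans (le_of_eq ?_)
    ring
  have hrel : ∀ j e, A j = mulL (P.bdd_PP j e).norm.ofReal (A (j + e)) := by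
    intro j e
    have h1 := ((mulL (P.bdd_PP j e).norm.ofReal).continuous.tendsto _).comp (hA (j + e))
    have h2 := (tendsto_add_atTop_iff_nat e).mpr (hA j)
    refine tendsto_nhds_unique h2 (h1.congr fun d => ?_)
    apply Lp.ext
    filter_upwards [coe_mulL (P.bdd_PP j e).norm.ofReal (P.am (j + e) d), P.coe_am (j + e) d,
      P.coe_am j (d + e)] with θ h1 h2 h3
    rw [Function.comp_apply, h1, h2, h3, add_comm d e]
    simp only [PP, prod_range_add, norm_mul, add_assoc]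
    push_cast; ring
  refine ⟨A, fun j => ?_, fun j m n => ?_⟩
  · set Z : Set Tc := {θ | A j θ = 0} with hZ
    have hZm : MeasurableSet Z := (Lp.stronglyMeasurable (A j)).measurableSet_eq_fun
      stronglyMeasurable_const
    have hb : Bdd fun θ => ind Z θ * ‖1 - fourier 1 θ‖ ^ 2 :=
      (bdd_ind hZm).mul (((Bdd.const _).sub (bdd_fourier 1)).norm.pow 2)
    have h1 : ∀ e, ∫ θ, ind Z θ * ‖1 - fourier 1 θ‖ ^ 2 ∂hm ≤ (2 * (1 / 2) ^ (j + e)) ^ 2 := by
      intro e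
      refine le_trans ?_ (pow_le_pow_left₀ (norm_nonneg _) (hd0 (j + e)) 2)
      rw [L2_norm_sq]
      refine integral_mono_ae (hb.integrable _)
        ((Lp.memLp (P.am (j + e) 0 - A (j + e))).integrable_norm_pow two_ne_zero) ?_
      filter_upwards [Lp.coeFn_sub (P.am (j + e) 0) (A (j + e)), P.coe_am (j + e) 0,
        coe_mulL (P.bdd_PP j e).norm.ofReal (A (j + e)), P.ae_PP_ne_zero j e] with θ h1 h2 h3 h4
      by_cases hθ : θ ∈ Z
      · have h5 : A j θ = 0 := hθ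
        rw [← hrel, h5] at h3
        have h6 : A (j + e) θ = 0 := (mul_eq_zero.mp h3.symm).resolve_left (by simpa using h4)
        rw [h1, Pi.sub_apply, h2, h6, ind_of_mem hθ]
        simp [PP]
      · rw [ind_of_notMem hθ, zero_mul]; positivity
    have h2 : Tendsto (fun e => (2 * (1 / 2 : ℝ) ^ (j + e)) ^ 2) atTop (𝓝 0) := by
      have := (((tendsto_pow_atTop_nhds_zero_of_lt_one (r := (1 / 2 : ℝ)) (by norm_num)
        (by norm_num)).const_mul ((1 / 2) ^ j)).const_mul 2).pow 2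
      simpa [pow_add] using this
    have h3 : ∫ θ, ind Z θ * ‖1 - fourier 1 θ‖ ^ 2 ∂hm = 0 :=
      le_antisymm (ge_of_tendsto' h2 h1)
        (integral_nonneg fun θ => mul_nonneg (ind_nonneg _ _) (sq_nonneg _))
    rw [integral_eq_zero_iff_of_nonneg (fun θ => mul_nonneg (ind_nonneg _ _) (sq_nonneg _))
      (hb.integrable _)] at h3
    filter_upwards [h3, ae_one_sub_ne_zero] with θ h4 h5 h6
    rw [ind_of_mem (show θ ∈ Z from h6)] at h4
    simp only [one_mul, Pi.zero_apply, ne_eq, OfNat.ofNat_ne_zero, not_false_eq_true,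
      pow_eq_zero_iff, norm_eq_zero] at h4
    exact h5 h4
  · have h1 := Filter.Tendsto.inner (𝕜 := ℂ) (((Zm m).continuous.tendsto _).comp (hA j))
      (((Zm n).continuous.tendsto _).comp (hA j))
    refine h1.congr fun d => ?_
    simp only [Function.comp_apply]
    rw [inner_Zm]
    refine integral_congr_ae ?_
    filter_upwards [P.coe_am j d] with θ h
    rw [h, conj_ofReal]
    push_cast; ring

end Par

end Vale.Agent.P130
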