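import Vale.Agent.P130.Tower

open MeasureTheory Complex Finset Filter Topology Function
open scoped Real ComplexConjugate InnerProductSpace ENNReal

namespace Vale.Agent.P130

/-- Coboundaries of the indicators of the bases. -/
noncomputable def xi (j : ℕ) (n : ℤ) (x : Xs) : ℂ :=
  ((bb j (sh n x) - bb j (sh (n - 1) x) : ℝ) : ℂ)

lemma bdd_xi (j : ℕ) (n : ℤ) : Bdd (xi j n) := ((bdd_bb_sh _ _).sub (bdd_bb_sh _ _)).ofReal

lemma xi_sh (j : ℕ) (m n : ℤ) (x : Xs) : xi j m (sh n x) = xi j (m + n) x := by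
  simp only [xi, sh_sh, sub_add_eq_add_sub]

namespace Par

variable {P : Par} {μ : Measure Xs} [IsProbabilityMeasure μ]

lemma IsLim.integral_xi (hμ : P.IsLim μ) (j : ℕ) (n : ℤ) : ∫ x, xi j n x ∂μ = 0 := by
  unfold xi
  rw [integral_complex_ofReal, integral_sub ((bdd_bb_sh _ _).integrable _)
    ((bdd_bb_sh _ _).integrable _), hμ.integral_sh _ (continuous_bb j),
    hμ.integral_sh _ (continuous_bb j), sub_self, ofReal_zero]

lemma IsLim.xi_corr (hμ : P.IsLim μ) (j : ℕ) (m n : ℤ) {c : ℂ} (hc : Tendsto (fun d =>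
      ∫ θ, fourier (n - m) θ * ((‖1 - fourier 1 θ‖ ^ 2 * ‖P.PP j d θ‖ ^ 2 : ℝ) : ℂ) ∂hm) atTop
      (𝓝 c)) : ∫ x, conj (xi j m x) * xi j n x ∂μ = ((∫ x, bb j x ∂μ : ℝ) : ℂ) * c := by
  have hR : ∀ a b : ℤ, ∫ x, bb j (sh a x) * bb j (sh b x) ∂μ =
      ∫ x, bb j x * bb j (sh (b - a) x) ∂μ := by
    intro a b
    rw [← hμ.integral_sh a (g := fun x => bb j x * bb j (sh (b - a) x))
      ((continuous_bb j).mul (continuous_bb_sh j (b - a)))]
    simp only [sh_sh, sub_add_cancel]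
  have hi' : ∀ a b : ℤ, Bdd (fun x => bb j (sh a x) * bb j (sh b x)) := fun a b =>
    (bdd_bb_sh _ _).mul (bdd_bb_sh _ _)
  have hi : ∀ a b : ℤ, Integrable (fun x => bb j (sh a x) * bb j (sh b x)) μ := fun a b =>
    (hi' a b).integrable _
  have h1 : ∫ x, conj (xi j m x) * xi j n x ∂μ =
      2 * ((∫ x, bb j x * bb j (sh (n - m) x) ∂μ : ℝ) : ℂ) -
        ((∫ x, bb j x * bb j (sh (n - m + -1) x) ∂μ : ℝ) : ℂ) -
        ((∫ x, bb j x * bb j (sh (n - m + 1) x) ∂μ : ℝ) : ℂ) := by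
    simp only [xi, conj_ofReal, ← ofReal_mul, sub_mul, mul_sub]
    rw [integral_complex_ofReal, integral_sub (((hi' _ _).sub (hi' _ _)).integrable _)
      (((hi' _ _).sub (hi' _ _)).integrable _),
      integral_sub (hi _ _) (hi _ _), integral_sub (hi _ _) (hi _ _), hR, hR, hR, hR,
      show n - (m - 1) = n - m + 1 by ring, show n - 1 - m = n - m + -1 by ring,
      show n - 1 - (m - 1) = n - m by ring]
    push_cast; ring
  have h2 := (((hμ.corr j (n - m)).const_mul 2).sub (hμ.corr j (n - m + -1))).sub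
    (hμ.corr j (n - m + 1))
  have h3 := ((Complex.continuous_ofReal.tendsto _).comp (hμ.base j)).mul
    ((hc.comp (tendsto_sub_atTop_nat j)).mono_left Nat.hyperfilter_le_atTop)
  rw [h1]
  refine tendsto_nhds_unique h2 (h3.congr fun J => ?_)
  have hb : ∀ k : ℤ, Bdd (fun θ : Tc => fourier k θ *
      ((‖∑ u ∈ P.B j (J - j), fourier u θ‖ ^ 2 : ℝ) : ℂ)) := fun k =>
    (bdd_fourier k).mul ((Bdd.sum _ fun _ _ => bdd_fourier _).norm.pow 2).ofReal
  simp only [Function.comp_apply]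
  rw [mul_left_comm, ← mul_sub, ← mul_sub, ← integral_const_mul 2,
    ← integral_sub (((Bdd.const _).mul (hb _)).integrable _) ((hb _).integrable _),
    ← integral_sub ((((Bdd.const _).mul (hb _)).sub (hb _)).integrable _) ((hb _).integrable _),
    ofReal_mul, mul_assoc, ← integral_const_mul]
  push_cast
  congr 1
  refine integral_congr_ae (ae_of_all _ fun θ => ?_)
  have e1 : ((‖1 - fourier 1 θ‖ : ℂ)) ^ 2 = 2 - fourier (-1) θ - fourier 1 θ := by
    rw [← ofReal_pow, ← Complex.normSq_eq_norm_sq, ← Complex.mul_conj, map_sub, map_one,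
      ← fourier_neg]
    have : fourier 1 θ * fourier (-1) θ = 1 := by rw [← fourier_add]; simp
    linear_combination this
  have e2 : (#(P.B j (J - j)) : ℂ) * (‖P.PP j (J - j) θ‖ : ℂ) ^ 2 =
      (‖∑ u ∈ P.B j (J - j), fourier u θ‖ : ℂ) ^ 2 := by
    have h0 : (#(P.B j (J - j)) : ℝ) ≠ 0 := by exact_mod_cast (P.card_B_pos _ _).ne'
    have := P.norm_PP_sq j (J - j) θ
    rw [eq_inv_mul_iff_mul_eq₀ h0] at this
    exact_mod_cast this
  simp only [fourier_add]
  rw [e1, ← e2]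
  ring

end Par

theorem main : ∃ (X : Type) (_ : MeasurableSpace X) (_ : StandardBorelSpace X) (μ : Measure X)
    (_ : IsProbabilityMeasure μ) (T : X ≃ᵐ X), (∀ x, μ {x} = 0) ∧ MeasurePreserving T μ μ ∧
    ∃ f : X → ℂ, MemLp f 2 μ ∧ ∫ x, f x ∂μ = 0 ∧
      (∀ m n : ℤ, ∫ x, f ((T.toEquiv ^ m) x) * conj (f ((T.toEquiv ^ n) x)) ∂μ =
        if m = n then 1 else 0) ∧
      ∀ g : X → ℂ, MemLp g 2 μ → ∫ x, g x ∂μ = 0 →
        (∀ n : ℤ, ∫ x, g x * conj (f ((T.toEquiv ^ n) x)) ∂μ = 0) → g =ᵐ[μ] 0 := by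
  obtain ⟨P, hP⟩ := exists_par
  obtain ⟨μ, hprob, hμ⟩ := P.exists_measure
  obtain ⟨A, hA0, hA⟩ := P.exists_lim hP
  set V : ℤ → Lp ℂ 2 μ →L[ℂ] Lp ℂ 2 μ := fun n =>
    (Lp.compMeasurePreservingₗᵢ ℂ (sh n) (hμ.mp n)).toContinuousLinearMap with hV
  have hVc : ∀ n (F : Lp ℂ 2 μ), V n F =ᵐ[μ] fun x => F (sh n x) := fun n F =>
    Lp.coeFn_compMeasurePreserving F (hμ.mp n)
  set ξ : ℕ → ℤ → Lp ℂ 2 μ := fun j n => ((bdd_xi (2 + j) n).memLp μ 2).toLp _ with hξ
  have hξc : ∀ j n, ξ j n =ᵐ[μ] xi (2 + j) n := fun j n => MemLp.coeFn_toLp _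
  have hβ : ∀ j, 0 < ∫ x, bb (2 + j) x ∂μ := by
    intro j
    have h1 := hμ.base_ge (2 + j)
    have h2 : (1 / 2 : ℝ) ^ (2 + j) ≤ (1 / 2) ^ 2 :=
      pow_le_pow_of_le_one (by norm_num) (by norm_num) (by omega)
    exact pos_of_mul_pos_right (a := (P.h (2 + j) : ℝ)) (by linarith) (Nat.cast_nonneg _)
  obtain ⟨f, hf1, hf2, hf3⟩ := spectral V ξ
    (fun n m => by
      apply Lp.ext
      filter_upwards [hVc n (ξ 0 m), (hμ.mp n).quasiMeasurePreserving.ae_eq_comp (hξc 0 m),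
        hξc 0 (m + n)] with x h1 h2 h3
      rw [h1, h3, ← xi_sh]; exact h2)
    (fun j => ((Real.sqrt (∫ x, bb (2 + j) x ∂μ) : ℝ) : ℂ) • A (2 + j))
    (fun j => by
      filter_upwards [hA0 (2 + j),
        Lp.coeFn_smul ((Real.sqrt (∫ x, bb (2 + j) x ∂μ) : ℝ) : ℂ) (A (2 + j))] with θ h1 h2
      rw [h2, Pi.smul_apply, smul_eq_mul]
      exact mul_ne_zero (by exact_mod_cast (Real.sqrt_pos.mpr (hβ j)).ne') h1)
    (fun j m n => by
      rw [map_smul, map_smul, inner_smul_left, inner_smul_right, conj_ofReal, ← mul_assoc,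
        ← ofReal_mul, Real.mul_self_sqrt (hβ j).le, ← hμ.xi_corr _ m n (hA _ m n), L2.inner_def]
      refine integral_congr_ae ?_
      filter_upwards [hξc j m, hξc j n] with x h1 h2
      rw [h1, h2, RCLike.inner_apply, mul_comm])
    (fun j => P.B 2 j)
    (fun j => ae_sum_fourier_ne_zero (fun u hu => (P.B_bound hu).1) (P.card_B_pos 2 j))
    (fun j n => by
      apply Lp.ext
      have h4 : ∀ s : Finset ℤ, ∀ᵐ x ∂μ, (∑ u ∈ s, ξ j (n - u) : Lp ℂ 2 μ) x =
          ∑ u ∈ s, xi (2 + j) (n - u) x := by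
        intro s
        induction s using Finset.induction_on with
        | empty => filter_upwards [Lp.coeFn_zero ℂ 2 μ] with θ h; simp
        | insert a s ha ih =>
          rw [sum_insert ha]
          filter_upwards [ih, hξc j (n - a), Lp.coeFn_add (ξ j (n - a))
            (∑ u ∈ s, ξ j (n - u))] with θ h1 h2 h3
          rw [h3, Pi.add_apply, h1, h2, sum_insert ha]
      filter_upwards [h4 (P.B 2 j), hξc 0 n, hμ.rel 2 j n, hμ.rel 2 j (n - 1)] with x h1 h2 h3 h4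
      rw [h1, h2]
      simp only [xi, add_zero, h3, h4, ← sum_sub_distrib, ofReal_sum, sub_right_comm n 1])
  refine ⟨Xs, inferInstance, inferInstance, μ, hprob, shE, hμ.singleton, hμ.mp_one, f,
    Lp.memLp f, ?_, fun m n => ?_, fun g hg hg0 hgf => ?_⟩
  · have h1 : ∀ F : Lp ℂ 2 μ, ⟪(memLp_const (1 : ℂ)).toLp _, F⟫_ℂ = ∫ x, F x ∂μ := by
      intro F
      rw [L2.inner_def]
      refine integral_congr_ae ?_
      filter_upwards [(memLp_const (μ := μ) (p := 2) (1 : ℂ)).coeFn_toLp] with x h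
      rw [h]; simp
    rw [← h1]
    refine hf2 _ fun n => ?_
    rw [h1, integral_congr_ae (hξc 0 n), hμ.integral_xi]
  · simp only [shE_zpow]
    rw [if_congr eq_comm rfl rfl, ← hf1 n m, L2.inner_def]
    refine integral_congr_ae ?_
    filter_upwards [hVc m f, hVc n f] with x h1 h2
    rw [h1, h2, RCLike.inner_apply]
  · simp only [shE_zpow] at hgf
    have h1 := hf3 (hg.toLp g) fun n => by
      rw [← hgf n, L2.inner_def]
      refine integral_congr_ae ?_
      filter_upwards [hVc n f, hg.coeFn_toLp] with x h1 h2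
      rw [h1, h2, RCLike.inner_apply]
    refine hμ.dense hg hg0 fun J n hJ => ?_
    obtain ⟨j, rfl⟩ := Nat.exists_eq_add_of_le hJ
    rw [← h1 j n, L2.inner_def]
    refine integral_congr_ae ?_
    filter_upwards [hξc j n, hg.coeFn_toLp] with x h1 h2
    rw [h1, h2, RCLike.inner_apply, xi, conj_ofReal, mul_comm]

end Vale.Agent.P130
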