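import Mathlib

open Finset Function

namespace Vale.Agent.P130

lemma coprime_mul_add_one {a b Z A : ℕ} (hab : a < b) (hb : b ≤ A) (hZ : A.factorial ∣ Z) :
    Nat.Coprime (a * Z + 1) (b * Z + 1) := by
  refine Nat.coprime_of_dvd fun l hl h1 h2 => ?_
  have h3 : l ∣ (b - a) * Z := by
    have := Nat.dvd_sub h2 h1
    rwa [show b * Z + 1 - (a * Z + 1) = (b - a) * Z by rw [Nat.sub_mul]; omega] at this
  have h4 : l ∣ Z := by
    rcases (Nat.Prime.dvd_mul hl).mp h3 with h | h
    · have : l ≤ A := (Nat.le_of_dvd (by omega) h).trans (by omega)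
      exact (Nat.dvd_factorial hl.pos this).trans hZ
    · exact h
  have h5 : l ∣ 1 := (Nat.dvd_add_right (h4.mul_left a)).mp h1
  exact hl.one_lt.ne' (Nat.dvd_one.mp h5)

lemma exists_pos_le {ι : Type*} [Finite ι] (s : ι → ℝ) (hs : ∀ i, 0 < s i) :
    ∃ σ > 0, ∀ i, σ ≤ s i := by
  rcases isEmpty_or_nonempty ι with h | h
  · exact ⟨1, one_pos, fun i => h.elim i⟩
  · obtain ⟨i, hi⟩ := Finite.exists_min s
    exact ⟨s i, hs i, hi⟩

theorem moduli {ι : Type*} [Fintype ι] (s : ι → ℝ) (hs : ∀ i, 0 < s i) {K : ℕ} (hK : K ≠ 0)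
    {γ : ℝ} (hγ : 0 < γ) :
    ∃ X0 : ℝ, ∀ X, X0 ≤ X → ∃ Q : ι → ℕ, (∀ i, 0 < Q i) ∧ Pairwise (Nat.Coprime on Q) ∧
      (∀ i, Nat.Coprime (Q i) K) ∧ ∀ i, |(Q i : ℝ) - s i * X| ≤ γ * (s i * X) := by
  obtain ⟨σ, hσ, hσs⟩ := exists_pos_le s hs
  set L : ℕ := Fintype.card ι + 1 with hL
  set idx : ι → ℕ := fun i => (Fintype.equivFin ι i : ℕ) with hidx
  have hidxL : ∀ i, idx i < L := fun i => (Fintype.equivFin ι i).2.trans (Nat.lt_succ_self _)
  have hidxi : Injective idx := fun i j h => (Fintype.equivFin ι).injective (Fin.ext h)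
  set A : ℝ := 4 / (γ * σ) with hA
  have hApos : 0 < A := by positivity
  set a : ι → ℕ := fun i => ⌈A * s i⌉₊ * L + idx i with ha
  have hai : Injective a := by
    intro i j h
    apply hidxi
    have h1 : a i % L = idx i := by
      simp only [ha]; rw [Nat.mul_add_mod_of_lt (hidxL i)]
    have h2 : a j % L = idx j := by
      simp only [ha]; rw [Nat.mul_add_mod_of_lt (hidxL j)]
    rw [← h1, ← h2, h]
  set Z0 : ℕ := K * (∑ i, a i).factorial with hZ0
  have hZ0pos : 0 < Z0 := Nat.mul_pos (Nat.pos_of_ne_zero hK) (Nat.factorial_pos _)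
  have hLpos : (0 : ℝ) < L := by exact_mod_cast Nat.succ_pos _
  have hZ0r : (0 : ℝ) < Z0 := by exact_mod_cast hZ0pos
  refine ⟨max (2 / (γ * σ)) (L * A * Z0 / γ), fun X hX => ?_⟩
  have hX1 : 2 / (γ * σ) ≤ X := (le_max_left _ _).trans hX
  have hX2 : L * A * Z0 / γ ≤ X := (le_max_right _ _).trans hX
  have hXpos : 0 < X := lt_of_lt_of_le (by positivity) hX1
  set Z : ℕ := Z0 * ⌊X / (L * A * Z0)⌋₊ with hZ
  have hZu : (Z : ℝ) ≤ X / (L * A) := by
    have := Nat.floor_le (a := X / (L * A * Z0)) (by positivity)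
    simp only [hZ]; push_cast
    calc (Z0 : ℝ) * ⌊X / (L * A * Z0)⌋₊ ≤ Z0 * (X / (L * A * Z0)) := by gcongr
      _ = _ := by field_simp
  have hZl : X / (L * A) - Z0 ≤ Z := by
    have := (Nat.lt_floor_add_one (X / (L * A * Z0))).le
    simp only [hZ]; push_cast
    calc X / (L * A) - Z0 = Z0 * (X / (L * A * Z0) - 1) := by field_simp
      _ ≤ _ := by gcongr; linarith
  have hfac : (∑ i, a i).factorial ∣ Z := (Dvd.intro_left _ rfl).mul_right _
  have hle : ∀ i, a i ≤ ∑ i, a i := fun i => single_le_sum (fun _ _ => Nat.zero_le _) (mem_univ i)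
  refine ⟨fun i => a i * Z + 1, fun i => Nat.succ_pos _, fun i j hij => ?_, fun i => ?_,
    fun i => ?_⟩
  · rcases lt_or_gt_of_ne (hai.ne hij) with h | h
    · exact coprime_mul_add_one h (hle _) hfac
    · exact (coprime_mul_add_one h (hle _) hfac).symm
  · have : K ∣ a i * Z := ((Dvd.intro _ rfl).mul_right _ : K ∣ Z).mul_left _
    obtain ⟨c, hc⟩ := this
    simp only [hc]
    exact (Nat.coprime_mul_left_add_left _ _ _).mpr (Nat.coprime_one_left _)
  · have hsi := hs i
    have a1 : L * (A * s i) ≤ a i := by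
      have := Nat.le_ceil (A * s i)
      simp only [ha]; push_cast
      nlinarith [Nat.cast_nonneg (α := ℝ) (idx i)]
    have a2 : (a i : ℝ) ≤ L * (A * s i) + 2 * L := by
      have := (Nat.ceil_lt_add_one (a := A * s i) (by positivity)).le
      have h2 : (idx i : ℝ) ≤ L := by exact_mod_cast (hidxL i).le
      simp only [ha]; push_cast
      nlinarith
    push_cast
    rw [abs_le]
    constructor
    · have h1 : L * (A * s i) * (X / (L * A) - Z0) ≤ a i * Z := by
        calc L * (A * s i) * (X / (L * A) - Z0) ≤ L * (A * s i) * Z := by gcongr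
          _ ≤ _ := by gcongr
      have h2 : L * (A * s i) * (X / (L * A) - Z0) = s i * X - s i * (L * A * Z0) := by
        field_simp
      rw [div_le_iff₀ hγ] at hX2
      nlinarith
    · have h1 : (a i : ℝ) * Z ≤ (L * (A * s i) + 2 * L) * (X / (L * A)) := by gcongr
      have h2 : (L * (A * s i) + 2 * L) * (X / (L * A)) = s i * X + γ * σ * X / 2 := by
        rw [hA]; field_simp; ring
      rw [div_le_iff₀ (by positivity)] at hX1
      have h3 : γ * σ * X ≤ γ * (s i * X) := by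
        rw [mul_assoc]; gcongr; exact hσs i
      nlinarith

lemma crt {ι : Type*} [Finite ι] (Q : ι → ℕ) (hQ : Pairwise (Nat.Coprime on Q)) (t : ι → ℤ)
    (ht : ∀ i, IsCoprime (t i) (Q i : ℤ)) (c : ι → ℤ) :
    ∃ τ : ℤ, ∀ i, (Q i : ℤ) ∣ τ * t i - c i := by
  choose u w huw using ht
  obtain ⟨r, hr⟩ := Ideal.exists_forall_sub_mem_ideal (I := fun i => Ideal.span {(Q i : ℤ)})
    (fun i j hij => by
      simp only [onFun]
      rw [Ideal.isCoprime_span_singleton_iff]
      exact Nat.isCoprime_iff_coprime.mpr (hQ hij)) (fun i => u i * c i)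
  refine ⟨r, fun i => ?_⟩
  obtain ⟨d, hd⟩ := Ideal.mem_span_singleton.mp (hr i)
  refine ⟨d * t i - w i * c i, ?_⟩
  have := huw i
  linear_combination (t i) * hd + (c i) * this

end Vale.Agent.P130
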