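import Vale.Agent.P130.Pack0
import Vale.Agent.P130.Moduli

open Finset Function Filter

namespace Vale.Agent.P130

variable {δ ι : Type} [Fintype δ] [DecidableEq δ] [Fintype ι] [DecidableEq ι]

omit [DecidableEq δ] [DecidableEq ι] in
lemma pack_sep {q : ℕ} [Fact q.Prime] (ν : ι → δ → ℤ) (α : δ → ℤ) (t : ι → ℕ)
    (ht : ∀ i, ν i ⬝ᵥ α = t i) (ht0 : ∀ i, 0 < t i) (Q : ι → ℕ)
    (hQ : Pairwise (Nat.Coprime on Q)) (hQt : ∀ i, Nat.Coprime (Q i) (t i))
    {Λ T : ℕ} (hT : ∀ i, t i ≤ T) (κ : Fin (q + 1) → Option (ι × Bool))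
    (rk : ι → (δ → ZMod q) → ℕ) :
    ∃ bt : (δ → ZMod q) → δ → ℤ, ∀ i j b b', Col Λ κ ν b i → Col Λ κ ν b' j →
      Inner Λ T (dq q (ν i) b) → ∀ m : ℤ,
      (¬ 2 * |ν i ⬝ᵥ bt b + ν j ⬝ᵥ bt b' - q * m| < t i + t j) ∧
      (2 * |ν i ⬝ᵥ bt b - ν j ⬝ᵥ bt b' - q * m| < t i + t j → i = j ∧
        ((Q i : ℤ) ∣ m → rk i b < Q i / t i → rk i b' < Q i / t i →
          dq q (ν i) b = dq q (ν i) b' ∧ rk i b = rk i b')) := by
  have hq : (q : ℤ) ≠ 0 := by exact_mod_cast (Fact.out : q.Prime).ne_zero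
  have hw : ∀ (b : δ → ZMod q) i, ∃ w : ℤ,
      ν i ⬝ᵥ (fun d => (b d).valMinAbs) = (dq q (ν i) b).valMinAbs + q * w := by
    intro b i
    have h1 : ((ν i ⬝ᵥ (fun d => (b d).valMinAbs) - (dq q (ν i) b).valMinAbs : ℤ) : ZMod q) = 0 := by
      rw [Int.cast_sub, ← dq_cast]; simp
    obtain ⟨w, hw⟩ := (ZMod.intCast_zmod_eq_zero_iff_dvd _ _).mp h1
    exact ⟨w, by linarith⟩
  choose w hw using hw
  set ζ : ι → (δ → ZMod q) → ℤ := fun i b => rk i b * t i + (dq q (ν i) b).valMinAbs % t i with hζ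
  have hτ := fun b : δ → ZMod q => crt Q hQ (fun i => (t i : ℤ))
    (fun i => Nat.isCoprime_iff_coprime.mpr (hQt i).symm) (fun i => ζ i b - w b i)
  choose τ hτ using hτ
  refine ⟨fun b => (fun d => (b d).valMinAbs) + (q * τ b) • α, ?_⟩
  intro i j b b' hb hb' hin m
  have e : ∀ (i : ι) (b : δ → ZMod q), ν i ⬝ᵥ ((fun d => (b d).valMinAbs) + (q * τ b) • α) =
      (dq q (ν i) b).valMinAbs + q * (w b i + τ b * t i) := by
    intro i b
    rw [dotProduct_add, dotProduct_smul, hw, ht, smul_eq_mul]; ring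
  rw [e, e]
  have hTi := hT i
  have hTj := hT j
  constructor
  · intro h
    set d := (dq q (ν i) b).valMinAbs + q * (w b i + τ b * t i) +
      ((dq q (ν j) b').valMinAbs + q * (w b' j + τ b' * t j)) - q * m with hd
    have hdT : |d| < T := by omega
    have hc : dq q (ν i) b - (-dq q (ν j) b') = d := by
      rw [hd]; push_cast; simp
    obtain ⟨h1, h2, h3, h4, h5⟩ := hin.near hdT hc
    rw [neg_neg] at h2
    have h6 : blk Λ (-dq q (ν j) b') = blk Λ (dq q (ν j) b') := by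
      apply Fin.ext; simp only [blk, ZMod.natAbs_valMinAbs_neg]
    unfold Col at hb hb'
    rw [h3, h6, hb'] at hb
    simp only [Option.some.injEq, Prod.mk.injEq, decide_eq_decide] at hb
    have := hb.2
    omega
  · intro h
    set d := (dq q (ν i) b).valMinAbs + q * (w b i + τ b * t i) -
      ((dq q (ν j) b').valMinAbs + q * (w b' j + τ b' * t j)) - q * m with hd
    have hdT : |d| < T := by omega
    have hc : dq q (ν i) b - dq q (ν j) b' = d := by
      rw [hd]; push_cast; simp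
    obtain ⟨h1, h2, h3, h4, h5⟩ := hin.near hdT hc
    unfold Col at hb hb'
    rw [h3, hb'] at hb
    simp only [Option.some.injEq, Prod.mk.injEq, decide_eq_decide] at hb
    obtain rfl : j = i := hb.1
    refine ⟨rfl, fun hm r1 r2 => ?_⟩
    have h7 : (w b j + τ b * t j) - (w b' j + τ b' * t j) = m := by
      apply mul_left_cancel₀ hq
      linear_combination -hd + h1
    have h8 : (Q j : ℤ) ∣ ζ j b - ζ j b' := by
      have := dvd_add (dvd_sub hm (hτ b j)) (hτ b' j)
      rwa [show m - (τ b * t j - (ζ j b - w b j)) + (τ b' * t j - (ζ j b' - w b' j)) =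
        ζ j b - ζ j b' by linear_combination -h7] at this
    have htj : (0 : ℤ) < t j := by exact_mod_cast ht0 j
    have hζb : ∀ b, rk j b < Q j / t j → 0 ≤ ζ j b ∧ ζ j b < Q j := by
      intro b hb
      have a1 := Int.emod_nonneg (dq q (ν j) b).valMinAbs htj.ne'
      have a2 := Int.emod_lt_of_pos (dq q (ν j) b).valMinAbs htj
      have a3 : (rk j b + 1) * t j ≤ Q j :=
        (Nat.mul_le_mul_right _ hb).trans (Nat.div_mul_le_self _ _)
      have a4 : ((rk j b : ℤ) + 1) * t j ≤ Q j := by exact_mod_cast a3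
      simp only [hζ]
      constructor
      · positivity
      · linarith
    have h9 : ζ j b = ζ j b' := by
      have := Int.eq_zero_of_abs_lt_dvd h8 (by
        have := hζb b r1
        have := hζb b' r2
        rw [abs_lt]; constructor <;> linarith)
      linarith
    have h10 : (dq q (ν j) b).valMinAbs % t j = (dq q (ν j) b').valMinAbs % t j := by
      have := congrArg (· % (t j : ℤ)) h9
      simpa [hζ, Int.add_emod] using this
    have h11 : (t j : ℤ) ∣ d := by
      have h12 : (t j : ℤ) ∣ (dq q (ν j) b').valMinAbs - (dq q (ν j) b).valMinAbs :=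
        Int.ModEq.dvd h10
      rw [h1] at h12
      simpa using h12
    have h12 : d = 0 := Int.eq_zero_of_abs_lt_dvd h11 (by omega)
    refine ⟨by rw [h12] at hc; simpa [sub_eq_zero] using hc, ?_⟩
    simp only [hζ, h10, add_left_inj] at h9
    exact_mod_cast mul_right_cancel₀ htj.ne' h9

set_option maxHeartbeats 800000 in
theorem packing (hD : 2 ≤ Fintype.card δ) (ν v : ι → δ → ℤ) (α : δ → ℤ) (t : ι → ℕ)
    (hv0 : ∀ i, ν i ⬝ᵥ v i = 0) (hv : ∀ i j, j ≠ i → ν j ⬝ᵥ v i ≠ 0)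
    (ht : ∀ i, ν i ⬝ᵥ α = t i) (ht0 : ∀ i, 0 < t i)
    (lam : ι → ℝ) (hl0 : ∀ i, 0 < lam i) (hl : 2 * ∑ i, lam i ≤ 1)
    {K : ℕ} (hK : K ≠ 0) (hKt : ∀ i, t i ∣ K) {γ : ℝ} (hγ : 0 < γ) :
    ∃ (q S : ℕ) (Q : ι → ℕ) (bt : Fin S → δ → ℤ) (G : ι → Finset (Fin S)),
      0 < S ∧ 0 < q ∧ (∀ i, 2 * t i ≤ q) ∧ (∀ i, 0 < Q i) ∧ Pairwise (Nat.Coprime on Q) ∧
      (∀ i, Nat.Coprime (Q i) K) ∧
      (∀ i, |lam i * q * Q i - S * t i| ≤ γ * (S * t i)) ∧
      (∀ i, (#(G i)ᶜ : ℝ) ≤ γ * S) ∧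
      (∀ i j β β', β ∈ G i → β' ∈ G j → ∀ m : ℤ,
        ¬ 2 * |ν i ⬝ᵥ bt β + ν j ⬝ᵥ bt β' - q * m| < t i + t j) ∧
      (∀ i j β β', β ∈ G i → β' ∈ G j → ∀ m : ℤ,
        2 * |ν i ⬝ᵥ bt β - ν j ⬝ᵥ bt β' - q * m| < t i + t j →
          i = j ∧ ((Q i : ℤ) ∣ m → β = β')) := by
  classical
  obtain ⟨σ0, hσ0, hσl0⟩ := exists_pos_le lam hl0
  set σ := min σ0 1 with hσdef
  have hσ : 0 < σ := lt_min hσ0 one_pos
  have hσ1 : σ ≤ 1 := min_le_right _ _
  have hσl : ∀ i, σ ≤ lam i := fun i => (min_le_left _ _).trans (hσl0 i)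
  set g := min γ 1 * σ / 12 with hg
  have hgpos : 0 < g := by have := lt_min hγ one_pos; positivity
  have hg1 : 12 * g ≤ γ * σ := by
    rw [hg]; have := min_le_left γ 1; nlinarith
  have hg2 : 12 * g ≤ 1 := by
    rw [hg]; have := min_le_right γ 1; have := lt_min hγ one_pos; nlinarith
  set T := ∑ i, t i with hTdef
  have hT : ∀ i, t i ≤ T := fun i => single_le_sum (fun _ _ => Nat.zero_le _) (mem_univ i)
  obtain ⟨Λ, hΛ⟩ := exists_nat_gt (4 * T / g)
  have hΛr : (0 : ℝ) < Λ := lt_of_le_of_lt (by positivity) hΛ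
  have hΛ0 : 0 < Λ := by exact_mod_cast hΛr
  set P := ∏ i, lam i with hP
  have hPpos : 0 < P := prod_pos fun i _ => hl0 i
  set K1 : ℝ := (Fintype.card ι + 1) * (2 * Fintype.card ι) ^ 2 * (4 * Λ) with hK1
  obtain ⟨X0, hX0⟩ := moduli (fun i => t i / lam i)
    (fun i => div_pos (by exact_mod_cast ht0 i) (hl0 i)) hK hgpos
  have hev : ∀ᶠ q : ℕ in atTop, (∀ i j, ((ν j ⬝ᵥ v i).natAbs : ℝ) + 1 ≤ q) ∧ (2 * T + 1 : ℝ) ≤ q ∧
      K1 / (g * P) ^ 2 ≤ q ∧ (6 * T + 2) / g ≤ q ∧ 1 / (g * P) ≤ q ∧ X0 / P ≤ q := by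
    have h := fun c : ℝ => (tendsto_natCast_atTop_atTop (R := ℝ)).eventually_ge_atTop c
    refine (eventually_all.mpr fun i => eventually_all.mpr fun j => h _).and
      ((h _).and ((h _).and ((h _).and ((h _).and (h _)))))
  obtain ⟨q0, hq0⟩ := eventually_atTop.mp hev
  obtain ⟨q, hqq, hqp⟩ := Nat.exists_infinite_primes q0
  obtain ⟨q1, q2, q3, q4, q5, q6⟩ := hq0 q hqq
  have : Fact q.Prime := ⟨hqp⟩
  have hqr : (0 : ℝ) < q := by exact_mod_cast hqp.pos
  have hq2 : 2 * T + 1 ≤ q := by exact_mod_cast q2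
  have hnz : ∀ z : ℤ, z ≠ 0 → z.natAbs < q → (z : ZMod q) ≠ 0 := by
    intro z hz hzq h
    have := (ZMod.intCast_zmod_eq_zero_iff_dvd _ _).mp h
    exact hz (Int.eq_zero_of_abs_lt_dvd this (by rw [Int.abs_eq_natAbs]; omega))
  obtain ⟨κ, hκ0, hκ⟩ := colouring (q := q) ν v α hv0
    (fun i j hij => hnz _ (hv i j hij) (by have := q1 i j; exact_mod_cast this))
    (fun i => hnz _ (by rw [ht]; exact_mod_cast (ht0 i).ne') (by rw [ht]; have := hT i; omega))
    lam (fun i => (hl0 i).le) hl hΛ0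
  rw [← hK1] at hκ0 hκ
  set W : ℝ := (q : ℝ) ^ Fintype.card δ with hW
  have hWq : (q : ℝ) * q ≤ W := by
    rw [← sq]; exact pow_le_pow_right₀ (by exact_mod_cast hqp.pos) hD
  have hWpos : 0 < W := by positivity
  set A := W * P with hA
  have hApos : 0 < A := by positivity
  have hKq : K1 * W ^ 2 ≤ (g * A) ^ 2 * q := by
    rw [div_le_iff₀ (by positivity)] at q3
    calc K1 * W ^ 2 ≤ (q * (g * P) ^ 2) * W ^ 2 := by gcongr
      _ = _ := by rw [hA]; ring
  obtain ⟨Q, hQ0, hQc, hQK, hQ⟩ := hX0 (A / q) (by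
    rw [div_le_iff₀ hPpos] at q6
    rw [le_div_iff₀ hqr, hA]
    calc X0 * q ≤ q * P * q := by gcongr
      _ = q * q * P := by ring
      _ ≤ _ := by gcongr)
  set Ω : Finset (δ → ZMod q) := {b | ∀ i, Col Λ κ ν b i} with hΩ
  choose rk hrk1 hrk2 using fun n => exists_fibre_rank Ω (dq q (ν n))
  obtain ⟨bt, hbt⟩ := pack_sep ν α t ht ht0 Q hQc
    (fun i => Nat.Coprime.coprime_dvd_right (hKt i) (hQK i)) (Λ := Λ) hT κ rk
  have hS : |(#Ω : ℝ) - A| ≤ g * A := by
    refine abs_le_of_sq_le_sq ?_ (by positivity)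
    exact le_of_mul_le_mul_right (hκ0.trans hKq) hqr
  have hS1 : A ≤ 2 * #Ω := by
    have := (abs_le.mp hS).1; nlinarith
  set e : Fin #Ω → (δ → ZMod q) := fun β => (Ω.equivFin.symm β).1 with he
  have heΩ : ∀ β, e β ∈ Ω := fun β => (Ω.equivFin.symm β).2
  have hei : Injective e := Subtype.val_injective.comp Ω.equivFin.symm.injective
  have hcol : ∀ β i, Col Λ κ ν (e β) i := fun β i => (mem_filter.mp (heΩ β)).2 i
  refine ⟨q, #Ω, Q, fun β => bt (e β),
    fun n => {β | Inner Λ T (dq q (ν n) (e β)) ∧ rk n (e β) < Q n / t n}, ?_, hqp.pos,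
    fun i => by have := hT i; omega, hQ0, hQc, hQK, fun n => ?_, fun n => ?_, ?_, ?_⟩
  · have : (0 : ℝ) < #Ω := by linarith
    exact_mod_cast this
  · have htn : (0 : ℝ) < t n := by exact_mod_cast ht0 n
    have hln := hl0 n
    have h1 : |lam n * q * Q n - A * t n| ≤ g * (A * t n) := by
      have h2 := mul_le_mul_of_nonneg_left (hQ n) (by positivity : 0 ≤ lam n * q)
      rw [← abs_of_nonneg (by positivity : 0 ≤ lam n * q), ← abs_mul,
        abs_of_nonneg (by positivity : 0 ≤ lam n * q)] at h2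
      refine le_of_eq_of_le ?_ (h2.trans_eq ?_)
      · congr 1; field_simp
      · field_simp
    have h2 : |A * t n - #Ω * t n| ≤ g * (A * t n) := by
      rw [← sub_mul, abs_mul, abs_of_pos htn, abs_sub_comm, ← mul_assoc]; gcongr
    have h3 := abs_sub_le (lam n * q * Q n) (A * t n) (#Ω * t n)
    have h4 : g * (A * t n) ≤ g * (2 * #Ω * t n) := by gcongr
    have h5 : 4 * g * (#Ω * t n) ≤ γ * (#Ω * t n) := by
      have : γ * σ ≤ γ := mul_le_of_le_one_right hγ.le hσ1
      exact mul_le_mul_of_nonneg_right (by linarith) (by positivity)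
    linarith
  · have htn : (0 : ℝ) < t n := by exact_mod_cast ht0 n
    have hln := hl0 n
    set f : ZMod q → ℕ := fun x => #{b : δ → ZMod q | dq q (ν n) b = x ∧
      ∀ i, i ≠ n → Col Λ κ ν b i} with hf
    set m : ℝ := W / q * ∏ i with i ≠ n, lam i with hm
    have hmA : q * m * lam n = A := by
      have : (∏ i with i ≠ n, lam i) * lam n = P := by
        rw [hP, filter_ne', prod_erase_mul _ _ (mem_univ n)]
      rw [hm, hA, ← this]; field_simp
    have hm0 : 0 ≤ m := by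
      have : 0 ≤ ∏ i with i ≠ n, lam i := prod_nonneg fun i _ => (hl0 i).le
      positivity
    have hdev : ∑ x, |(f x : ℝ) - m| ≤ g * A := by
      refine sum_abs_le_of_sq _ (by positivity) ?_
      rw [ZMod.card]
      have h1 := (hκ n).trans hKq
      refine le_of_mul_le_mul_right ?_ hqr
      calc _ = (∑ x, ((f x : ℝ) - m) ^ 2) * q ^ 2 := by ring
        _ ≤ _ := h1
    have hF : ∀ x, #{b ∈ Ω | dq q (ν n) b = x} ≤ f x := by
      intro x
      refine card_le_card fun b hb => ?_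
      simp only [hΩ, mem_filter, mem_univ, true_and] at hb ⊢
      exact ⟨hb.2, fun i _ => hb.1 i⟩
    set cap := Q n / t n with hcap
    have hcapl : m - cap ≤ g * m + 1 := by
      have h1 := (abs_le.mp (hQ n)).1
      have h2 : t n / lam n * (A / q) = t n * m := by rw [← hmA]; field_simp
      rw [h2] at h1
      have h3 : Q n < (cap + 1) * t n := by
        rw [hcap, mul_comm]; exact Nat.lt_mul_div_succ _ (ht0 n)
      have h4 : (Q n : ℝ) < (cap + 1) * t n := by exact_mod_cast h3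
      refine le_of_mul_le_mul_right ?_ htn
      nlinarith
    have c1 : #({β | Inner Λ T (dq q (ν n) (e β)) ∧ rk n (e β) < cap} : Finset (Fin #Ω))ᶜ ≤
        #{b ∈ Ω | ¬ Inner Λ T (dq q (ν n) b)} + #{b ∈ Ω | cap ≤ rk n b} := by
      refine le_trans ?_ (card_union_le _ _)
      refine card_le_card_of_injOn e (fun β hβ => ?_) hei.injOn
      simp only [coe_compl, coe_filter, mem_univ, true_and, Set.mem_compl_iff,
        Set.mem_ofPred_eq, not_and, not_lt] at hβ
      simp only [coe_union, coe_filter, Set.mem_union, Set.mem_ofPred_eq]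
      by_cases h : Inner Λ T (dq q (ν n) (e β))
      · exact Or.inr ⟨heΩ β, hβ h⟩
      · exact Or.inl ⟨heΩ β, h⟩
    have c2 : (#{b ∈ Ω | ¬ Inner Λ T (dq q (ν n) b)} : ℝ) ≤
        #{x : ZMod q | ¬ Inner Λ T x} * m + g * A := by
      rw [card_eq_sum_card_fiberwise (f := dq q (ν n)) (t := {x : ZMod q | ¬ Inner Λ T x})
        (fun b hb => by simpa using (mem_filter.mp hb).2)]
      push_cast
      calc _ ≤ ∑ x with ¬ Inner Λ T x, (m + |(f x : ℝ) - m|) := by
            refine sum_le_sum fun x _ => ?_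
            have h1 : #{b ∈ {b ∈ Ω | ¬ Inner Λ T (dq q (ν n) b)} | dq q (ν n) b = x} ≤ f x :=
              (card_le_card (filter_subset_filter _ (filter_subset _ _))).trans (hF x)
            have h2 := (Nat.cast_le (α := ℝ)).mpr h1
            have := le_abs_self ((f x : ℝ) - m)
            linarith
        _ ≤ _ := by
            rw [sum_add_distrib, sum_const, nsmul_eq_mul]
            gcongr
            exact (sum_le_univ_sum_of_nonneg fun _ => abs_nonneg _).trans hdev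
    have c3 : (#{b ∈ Ω | cap ≤ rk n b} : ℝ) ≤ g * A + q * (g * m + 1) := by
      refine ((Nat.cast_le (α := ℝ)).mpr (hrk2 n cap)).trans ?_
      rw [Nat.cast_sum]
      calc _ ≤ ∑ x : ZMod q, (|(f x : ℝ) - m| + (g * m + 1)) := by
            refine sum_le_sum fun x _ => ?_
            have h1 := (Nat.cast_le (α := ℝ)).mpr (hF x)
            have h2 := le_abs_self ((f x : ℝ) - m)
            rcases le_total cap #{b ∈ Ω | dq q (ν n) b = x} with h | h
            · rw [Nat.cast_sub h]; linarith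
            · rw [Nat.sub_eq_zero_of_le h, Nat.cast_zero]; positivity
        _ ≤ _ := by
            rw [sum_add_distrib, sum_const, nsmul_eq_mul, card_univ, ZMod.card]
            gcongr
    have c4 : (#{x : ZMod q | ¬ Inner Λ T x} : ℝ) ≤ 2 * g * q := by
      refine ((Nat.cast_le (α := ℝ)).mpr (card_not_inner hΛ0 T)).trans ?_
      push_cast
      have h1 : ((q / Λ : ℕ) : ℝ) ≤ q / Λ := Nat.cast_div_le
      have h2 : (q : ℝ) / Λ * (4 * T) ≤ g * q := by
        rw [div_lt_iff₀ hgpos] at hΛ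
        rw [div_mul_eq_mul_div, div_le_iff₀ hΛr]
        nlinarith
      rw [div_le_iff₀ hgpos] at q4
      nlinarith [Nat.cast_nonneg (α := ℝ) T]
    have c5 : (q : ℝ) ≤ g * A := by
      rw [div_le_iff₀ (by positivity)] at q5
      calc (q : ℝ) = q * 1 := by ring
        _ ≤ q * (q * (g * P)) := by gcongr
        _ = g * (q * q * P) := by ring
        _ ≤ _ := by rw [hA]; gcongr
    have c6 : q * m * σ ≤ A := by
      rw [← hmA]; gcongr; exact hσl n
    have c7 := (Nat.cast_le (α := ℝ)).mpr c1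
    push_cast at c7
    have c8 : (#{x : ZMod q | ¬ Inner Λ T x} : ℝ) * m ≤ 2 * g * q * m := by gcongr
    refine le_of_mul_le_mul_right ?_ hσ
    have c9 : g * A * σ ≤ g * A := mul_le_of_le_one_right (by positivity) hσ1
    have c10 : g * (q * m * σ) ≤ g * A := by gcongr
    have c11 : 6 * g * A ≤ 6 * g * (2 * #Ω) := by gcongr
    have c12 : 12 * g * #Ω ≤ γ * σ * #Ω := by gcongr
    have c13 := mul_le_mul_of_nonneg_right
      (c7.trans (add_le_add (c2.trans (add_le_add c8 le_rfl)) c3)) hσ.le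
    have c14 : (q : ℝ) * σ ≤ g * A := (mul_le_of_le_one_right hqr.le hσ1).trans c5
    have c15 : (2 * g * q * m + g * A + (g * A + q * (g * m + 1))) * σ =
      3 * (g * (q * m * σ)) + 2 * (g * A * σ) + q * σ := by ring
    rw [c15] at c13
    refine c13.trans ?_
    linarith
  · intro i j β β' hβ hβ' m
    exact (hbt i j _ _ (hcol β i) (hcol β' j) (mem_filter.mp hβ).2.1 m).1
  · intro i j β β' hβ hβ' m h
    obtain ⟨rfl, h2⟩ := (hbt i j _ _ (hcol β i) (hcol β' j) (mem_filter.mp hβ).2.1 m).2 h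
    refine ⟨rfl, fun hm => hei ?_⟩
    obtain ⟨h3, h4⟩ := h2 hm (mem_filter.mp hβ).2.2 (mem_filter.mp hβ').2.2
    exact hrk1 i _ (heΩ _) _ (heΩ _) h3 h4

end Vale.Agent.P130
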