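import Vale.Agent.P130.Colour2

open Finset Function

namespace Vale.Agent.P130

lemma exists_rank {α : Type*} (t : Finset α) :
    ∃ r : α → ℕ, Set.InjOn r t ∧ ∀ a ∈ t, r a < #t := by
  classical
  refine ⟨fun a => if h : a ∈ t then (t.equivFin ⟨a, h⟩ : ℕ) else 0, fun a ha b hb h => ?_,
    fun a ha => ?_⟩
  · have ha' : a ∈ t := ha
    have hb' : b ∈ t := hb
    simp only [dif_pos ha', dif_pos hb'] at h
    exact congrArg Subtype.val (t.equivFin.injective (Fin.ext h))
  · simp only [dif_pos ha]; exact Fin.is_lt _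

lemma exists_fibre_rank {α Y : Type*} [Fintype Y] [DecidableEq Y] (s : Finset α) (φ : α → Y) :
    ∃ r : α → ℕ, (∀ a ∈ s, ∀ b ∈ s, φ a = φ b → r a = r b → a = b) ∧
      ∀ cap : ℕ, #{a ∈ s | cap ≤ r a} ≤ ∑ y, (#{a ∈ s | φ a = y} - cap) := by
  choose r hr1 hr2 using fun y => exists_rank {a ∈ s | φ a = y}
  refine ⟨fun a => r (φ a) a, fun a ha b hb h1 h2 => ?_, fun cap => ?_⟩
  · refine hr1 (φ a) (by simp [ha]) (by simp [hb, h1]) ?_
    simp only at h2
    rw [h2, h1]
  · rw [card_eq_sum_card_fiberwise (f := φ) (t := univ) (fun _ _ => mem_univ _)]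
    refine sum_le_sum fun y _ => ?_
    rw [← Nat.card_Ico]
    refine card_le_card_of_injOn (r y) (fun a ha => ?_) (fun a ha b hb h => ?_)
    · simp only [coe_filter, mem_filter, Set.mem_ofPred_eq] at ha
      obtain ⟨⟨h1, h2⟩, h3⟩ := ha
      simp only [coe_Ico, Set.mem_Ico]
      exact ⟨h3 ▸ h2, hr2 y a (by simp [h1, h3])⟩
    · simp only [coe_filter, mem_filter, Set.mem_ofPred_eq] at ha hb
      exact hr1 y (by simp [ha.1.1, ha.2]) (by simp [hb.1.1, hb.2]) h

variable {q : ℕ} [Fact q.Prime]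

/-- Residues well inside their block. -/
def Inner (Λ T : ℕ) (x : ZMod q) : Prop :=
  T ≤ x.valMinAbs.natAbs % Λ ∧ x.valMinAbs.natAbs % Λ + T < Λ ∧ 2 * (x.valMinAbs.natAbs + T) < q

instance (Λ T : ℕ) (x : ZMod q) : Decidable (Inner Λ T x) := by unfold Inner; infer_instance

lemma Inner.near {Λ T : ℕ} {x y : ZMod q} (hx : Inner Λ T x) {d : ℤ} (hd : |d| < T)
    (hxy : x - y = d) : y.valMinAbs = x.valMinAbs - d ∧ (-y).valMinAbs = -(x.valMinAbs - d) ∧
      blk Λ x = blk Λ y ∧ (0 < x.valMinAbs ↔ 0 < x.valMinAbs - d) ∧ x.valMinAbs - d ≠ 0 := by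
  obtain ⟨h1, h2, h3⟩ := hx
  rw [abs_lt] at hd
  have h4 := Nat.mod_le x.valMinAbs.natAbs Λ
  have hy : y = ((x.valMinAbs - d : ℤ) : ZMod q) := by
    push_cast; rw [← hxy]; ring
  have e1 : y.valMinAbs = x.valMinAbs - d := by
    rw [ZMod.valMinAbs_spec]
    exact ⟨hy, by omega, by omega⟩
  refine ⟨e1, ?_, ?_, by omega, by omega⟩
  · rw [ZMod.valMinAbs_spec]
    exact ⟨by rw [hy]; push_cast; ring, by omega, by omega⟩
  · apply Fin.ext
    simp only [blk, e1]
    have h5 := Nat.div_add_mod x.valMinAbs.natAbs Λ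
    symm
    refine Nat.div_eq_of_lt_le ?_ ?_
    · rw [mul_comm]; omega
    · rw [add_mul, mul_comm]; omega

lemma card_not_inner {Λ : ℕ} (hΛ : 0 < Λ) (T : ℕ) :
    #{x : ZMod q | ¬ Inner Λ T x} ≤ 2 * ((q / Λ + 1) * (2 * T)) + 2 * (T + 1) := by
  classical
  have hsub : ({x : ZMod q | ¬ Inner Λ T x} : Finset (ZMod q)) ⊆
      (({1, -1} : Finset ℤ) ×ˢ range (q / Λ + 1) ×ˢ (range T ∪ Ico (Λ - T) Λ)).image
        (fun p => ((p.1 * (Λ * p.2.1 + p.2.2 : ℕ) : ℤ) : ZMod q)) ∪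
      (({1, -1} : Finset ℤ) ×ˢ range (T + 1)).image
        (fun p => ((p.1 * (q / 2 - p.2 : ℕ) : ℤ) : ZMod q)) := by
    intro x hx
    replace hx := (mem_filter.mp hx).2
    unfold Inner at hx
    have h1 := ZMod.natAbs_valMinAbs_le x
    have h2 := Nat.div_add_mod x.valMinAbs.natAbs Λ
    have h3 := Nat.mod_lt x.valMinAbs.natAbs hΛ
    obtain ⟨s, hs, hsx⟩ : ∃ s ∈ ({1, -1} : Finset ℤ), s * x.valMinAbs.natAbs = x.valMinAbs := by
      rcases Int.natAbs_eq x.valMinAbs with h | h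
      · exact ⟨1, by simp, by omega⟩
      · exact ⟨-1, by simp, by omega⟩
    by_cases h4 : 2 * (x.valMinAbs.natAbs + T) < q
    · refine mem_union_left _ (mem_image.mpr
        ⟨(s, x.valMinAbs.natAbs / Λ, x.valMinAbs.natAbs % Λ), ?_, ?_⟩)
      · simp only [mem_product, mem_range, mem_union, mem_Ico]
        refine ⟨hs, ?_, by omega⟩
        exact Nat.lt_succ_of_le (Nat.div_le_div_right (by omega))
      · simp only [h2, hsx, ZMod.coe_valMinAbs]
    · refine mem_union_right _ (mem_image.mpr ⟨(s, q / 2 - x.valMinAbs.natAbs), ?_, ?_⟩)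
      · simp only [mem_product, mem_range]
        exact ⟨hs, by omega⟩
      · simp only [Nat.sub_sub_self h1, hsx, ZMod.coe_valMinAbs]
  refine (card_le_card hsub).trans ((card_union_le _ _).trans (add_le_add ?_ ?_))
  · refine card_image_le.trans ?_
    rw [card_product, card_product, card_range]
    have : #(range T ∪ Ico (Λ - T) Λ) ≤ 2 * T := by
      refine (card_union_le _ _).trans ?_
      rw [card_range, Nat.card_Ico]; omega
    gcongr
    exact card_le_two
  · refine card_image_le.trans ?_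
    rw [card_product, card_range]
    gcongr
    exact card_le_two

lemma sum_abs_le_of_sq {Y : Type*} [Fintype Y] (f : Y → ℝ) {c : ℝ} (hc : 0 ≤ c)
    (h : (Fintype.card Y) * ∑ y, f y ^ 2 ≤ c ^ 2) : ∑ y, |f y| ≤ c := by
  have h1 := sq_sum_le_card_mul_sum_sq (s := univ) (f := fun y => |f y|)
  simp only [sq_abs, card_univ] at h1
  exact (abs_le_of_sq_le_sq' (h1.trans h) hc).2

end Vale.Agent.P130
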