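import Vale.Agent.P130.Stage

open MeasureTheory Complex Finset Filter Topology Function
open scoped Real ComplexConjugate

namespace Vale.Agent.P130

/-- Cutting and spacer parameters of a rank one construction. -/
structure Par where
  M : ℕ → ℕ
  p : ℕ → ℕ
  h : ℕ → ℕ
  c : ℕ → ℕ → ℕ
  p_pos : ∀ j, 0 < p j
  h_succ : ∀ j, h (j + 1) = p j * (h j + M j)
  c_lt : ∀ j k, c j k < M j
  M_le : ∀ j, 2 ^ j * M j ≤ h j

namespace Par

variable (P : Par)

lemma M_pos (j : ℕ) : 0 < P.M j := lt_of_le_of_lt (Nat.zero_le _) (P.c_lt j 0)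

lemma pow_le_h (j : ℕ) : 2 ^ j ≤ P.h j :=
  (Nat.le_mul_of_pos_right _ (P.M_pos j)).trans (P.M_le j)

lemma h_pos (j : ℕ) : 0 < P.h j := lt_of_lt_of_le (by positivity) (P.pow_le_h j)

/-- Position of the `k`-th copy of the `j`-th tower in the next one. -/
def n (j k : ℕ) : ℤ := ((k * (P.h j + P.M j) + P.c j k : ℕ) : ℤ)

lemma n_nonneg (j k : ℕ) : 0 ≤ P.n j k := Int.natCast_nonneg _

lemma n_le {j k : ℕ} (hk : k < P.p j) : P.n j k + P.h j ≤ P.h (j + 1) := by
  have h1 := P.c_lt j k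
  have h2 : (k + 1) * (P.h j + P.M j) ≤ P.p j * (P.h j + P.M j) := Nat.mul_le_mul_right _ hk
  rw [← P.h_succ, add_mul] at h2
  unfold n; omega

lemma n_sep {j k k' : ℕ} (hk : k < k') : P.n j k + P.h j ≤ P.n j k' := by
  have h1 := P.c_lt j k
  have h2 : (k + 1) * (P.h j + P.M j) ≤ k' * (P.h j + P.M j) := Nat.mul_le_mul_right _ hk
  rw [add_mul] at h2
  unfold n; omega

/-- Positions of the copies of the tower `j` in the tower `j + d`. -/
def B : ℕ → ℕ → Finset ℤ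
  | _, 0 => {0}
  | j, d + 1 => (range (P.p j) ×ˢ B (j + 1) d).image fun z => P.n j z.1 + z.2

lemma mem_B_succ {j d : ℕ} {u : ℤ} :
    u ∈ P.B j (d + 1) ↔ ∃ k < P.p j, ∃ v ∈ P.B (j + 1) d, P.n j k + v = u := by
  simp [B, and_assoc]

lemma B_bound {j d : ℕ} {u : ℤ} (hu : u ∈ P.B j d) : 0 ≤ u ∧ u + P.h j ≤ P.h (j + d) := by
  induction d generalizing j u with
  | zero => simp only [B, mem_singleton] at hu; subst hu; simp
  | succ d ih =>
    obtain ⟨k, hk, v, hv, rfl⟩ := P.mem_B_succ.mp hu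
    have h1 := ih hv
    have h2 := P.n_nonneg j k
    have h3 := P.n_le hk
    rw [show j + (d + 1) = j + 1 + d by ring]
    omega

lemma B_sep {j d : ℕ} {u v : ℤ} (hu : u ∈ P.B j d) (hv : v ∈ P.B j d) (huv : u < v) :
    u + P.h j ≤ v := by
  induction d generalizing j u v with
  | zero => simp only [B, mem_singleton] at hu hv; omega
  | succ d ih =>
    obtain ⟨k, hk, u', hu', rfl⟩ := P.mem_B_succ.mp hu
    obtain ⟨k', hk', v', hv', rfl⟩ := P.mem_B_succ.mp hv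
    have a1 := P.n_nonneg j k
    have a2 := P.n_nonneg j k'
    have a3 := P.n_le hk
    have a4 := P.n_le hk'
    rcases lt_trichotomy u' v' with h | rfl | h
    · have := ih hu' hv' h; omega
    · rcases lt_trichotomy k k' with h | rfl | h
      · have := P.n_sep (j := j) h; omega
      · omega
      · have := P.n_sep (j := j) h; omega
    · have := ih hv' hu' h; omega

lemma B_eq {j d : ℕ} {u v : ℤ} (hu : u ∈ P.B j d) (hv : v ∈ P.B j d) (h1 : u < v + P.h j)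
    (h2 : v < u + P.h j) : u = v := by
  rcases lt_trichotomy u v with h | h | h
  · have := P.B_sep hu hv h; omega
  · exact h
  · have := P.B_sep hv hu h; omega

lemma sum_B_succ {A : Type*} [AddCommMonoid A] (f : ℤ → A) (j d : ℕ) :
    ∑ u ∈ P.B j (d + 1), f u = ∑ k ∈ range (P.p j), ∑ v ∈ P.B (j + 1) d, f (P.n j k + v) := by
  rw [B, sum_image, sum_product]
  rintro ⟨k, u⟩ h1 ⟨k', v⟩ h2 h
  simp only [coe_product, coe_range, Set.mem_prod, Set.mem_Iio, mem_coe] at h1 h2 h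
  have a1 := P.n_nonneg j k
  have a2 := P.n_nonneg j k'
  have a3 := P.n_le h1.1
  have a4 := P.n_le h2.1
  have a5 := P.h_pos j
  have h3 : u = v := P.B_eq h1.2 h2.2 (by omega) (by omega)
  subst h3
  rcases lt_trichotomy k k' with h4 | rfl | h4
  · have := P.n_sep (j := j) h4; omega
  · rfl
  · have := P.n_sep (j := j) h4; omega

lemma mem_B_add {j d e : ℕ} {u : ℤ} :
    u ∈ P.B j (d + e) ↔ ∃ a ∈ P.B j d, ∃ b ∈ P.B (j + d) e, a + b = u := by
  induction d generalizing j u with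
  | zero => simp [B]
  | succ d ih =>
    rw [show d + 1 + e = d + e + 1 by ring, show j + (d + 1) = j + 1 + d by ring]
    simp only [mem_B_succ, ih]
    constructor
    · rintro ⟨k, hk, v, ⟨a, ha, b, hb, rfl⟩, rfl⟩
      exact ⟨_, ⟨k, hk, a, ha, rfl⟩, b, hb, by ring⟩
    · rintro ⟨_, ⟨k, hk, a, ha, rfl⟩, b, hb, rfl⟩
      exact ⟨k, hk, _, ⟨a, ha, b, hb, rfl⟩, by ring⟩

lemma card_B (j d : ℕ) : #(P.B j d) = ∏ l ∈ range d, P.p (j + l) := by
  induction d generalizing j with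
  | zero => simp [B]
  | succ d ih =>
    rw [card_eq_sum_ones, sum_B_succ, prod_range_succ']
    simp only [sum_const, smul_eq_mul, mul_one, card_range, ih, add_zero]
    rw [mul_comm]
    congr 1
    exact prod_congr rfl fun l _ => by congr 1; ring

lemma card_B_pos (j d : ℕ) : 0 < #(P.B j d) := by
  rw [card_B]; exact prod_pos fun _ _ => P.p_pos _

/-- The polynomial of the stage `j`. -/
noncomputable def pk (j : ℕ) : Tc → ℂ := Pk (P.p j) (P.h j + P.M j) (P.c j)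

/-- Products of stage polynomials. -/
noncomputable def PP (j d : ℕ) (θ : Tc) : ℂ := ∏ l ∈ range d, P.pk (j + l) θ

lemma bdd_PP (j d : ℕ) : Bdd (P.PP j d) := Bdd.prod _ fun _ _ => bdd_Pk _ _ _

lemma PP_eq (j d : ℕ) (θ : Tc) :
    P.PP j d θ = ((Real.sqrt #(P.B j d) : ℝ) : ℂ)⁻¹ * ∑ u ∈ P.B j d, fourier u θ := by
  induction d generalizing j with
  | zero => simp [PP, B]
  | succ d ih =>
    have h1 : P.PP j (d + 1) θ = P.PP (j + 1) d θ * P.pk j θ := by
      unfold PP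
      rw [prod_range_succ', add_zero]
      congr 1
      exact prod_congr rfl fun l _ => by congr 1; ring
    have h2 : #(P.B j (d + 1)) = #(P.B (j + 1) d) * P.p j := by
      rw [card_eq_sum_ones, sum_B_succ]; simp [mul_comm]
    rw [h1, ih, h2, sum_B_succ, Nat.cast_mul, Real.sqrt_mul (Nat.cast_nonneg _)]
    simp only [pk, Pk, fourier_add, ← mul_sum, ← sum_mul, n]
    push_cast
    ring

lemma norm_PP_sq (j d : ℕ) (θ : Tc) :
    ‖P.PP j d θ‖ ^ 2 = (#(P.B j d) : ℝ)⁻¹ * ‖∑ u ∈ P.B j d, fourier u θ‖ ^ 2 := by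
  rw [PP_eq, norm_mul, mul_pow, norm_inv, Complex.norm_real, Real.norm_eq_abs, inv_pow, sq_abs,
    Real.sq_sqrt (Nat.cast_nonneg _)]

end Par

lemma norm_sq_sum_fourier (B : Finset ℤ) (θ : Tc) :
    ((‖∑ u ∈ B, fourier u θ‖ ^ 2 : ℝ) : ℂ) = ∑ u ∈ B, ∑ v ∈ B, fourier (u - v) θ := by
  rw [← Complex.normSq_eq_norm_sq, ← Complex.mul_conj, map_sum, sum_mul_sum]
  refine sum_congr rfl fun i _ => sum_congr rfl fun j _ => ?_
  rw [sub_eq_add_neg, fourier_add, fourier_neg]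

lemma integral_fourier_mul_comp {H : ℕ} (hH : 0 < H) {m : ℤ} (hm0 : m ≠ 0) (hmH : |m| < H)
    (Ψ : Tc → ℂ) : ∫ θ, fourier m θ * Ψ ((H : ℤ) • θ) ∂hm = 0 := by
  have : NeZero H := ⟨hH.ne'⟩
  have hHr : (H : ℝ) ≠ 0 := by exact_mod_cast hH.ne'
  have h1 := integral_add_right_eq_self (μ := hm) (fun θ => fourier m θ * Ψ ((H : ℤ) • θ))
    (((1 / H : ℝ)) : Tc)
  have h2 : (H : ℤ) • (((1 / H : ℝ)) : Tc) = 0 := by
    rw [← AddCircle.coe_zsmul, zsmul_eq_mul]
    push_cast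
    rw [mul_one_div_cancel hHr]; exact AddCircle.coe_period 1
  simp only [smul_add, h2, add_zero, fourier_add_pt, fourier_coe, mul_right_comm _ (ex _),
    integral_mul_const] at h1
  have h3 : ex (m * (1 / H)) ≠ 1 := by
    intro h
    rw [mul_one_div, ← stdAddChar_eq_ex, ← (ZMod.stdAddChar (N := H)).map_zero_eq_one] at h
    have := (ZMod.intCast_zmod_eq_zero_iff_dvd _ _).mp (ZMod.injective_stdAddChar h)
    exact hm0 (Int.eq_zero_of_abs_lt_dvd this hmH)
  have h4 : (∫ θ, fourier m θ * Ψ ((H : ℤ) • θ) ∂hm) * (ex (m * (1 / H)) - 1) = 0 := by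
    rw [mul_sub, h1]; ring
  exact (mul_eq_zero.mp h4).resolve_right (sub_ne_zero.mpr h3)

lemma decouple {H : ℕ} (hH : 0 < H) (B : Finset ℤ) (hB : ∀ u ∈ B, 0 ≤ u ∧ u < H) {Ψ : Tc → ℝ}
    (hΨ : Bdd Ψ) :
    ∫ θ, ‖∑ u ∈ B, fourier u θ‖ ^ 2 * Ψ ((H : ℤ) • θ) ∂hm = #B * ∫ t, Ψ t ∂hm := by
  have hb : Bdd fun θ : Tc => (Ψ ((H : ℤ) • θ) : ℂ) := (hΨ.comp (measurable_zsmul_Tc _)).ofReal
  have h0 : ∫ θ, Ψ ((H : ℤ) • θ) ∂hm = ∫ t, Ψ t ∂hm := by
    have hmp := Measure.measurePreserving_zsmul hm (n := (H : ℤ)) (by exact_mod_cast hH.ne')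
    rw [← hmp.map_eq, integral_map hmp.measurable.aemeasurable hΨ.meas.aestronglyMeasurable,
      hmp.map_eq]
  apply Complex.ofReal_injective
  rw [← integral_complex_ofReal]
  simp only [Complex.ofReal_mul, norm_sq_sum_fourier, sum_mul]
  rw [integral_finsetSum _ fun u _ =>
    (Bdd.sum _ fun v _ => (bdd_fourier _).mul hb).integrable _]
  rw [sum_congr rfl (g := fun _ => ((∫ t, Ψ t ∂hm : ℝ) : ℂ))]
  · simp
  intro u hu
  rw [integral_finsetSum _ fun v _ => ((bdd_fourier _).mul hb).integrable _, sum_eq_single u]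
  · simp only [sub_self, fourier_zero, one_mul]
    rw [integral_complex_ofReal, h0]
  · intro v hv hvu
    have := hB u hu
    have := hB v hv
    exact integral_fourier_mul_comp hH (by omega) (by rw [abs_lt]; constructor <;> omega)
      fun t => (Ψ t : ℂ)
  · intro h; exact absurd hu h

theorem exists_par : ∃ P : Par, ∀ j d, ∫ θ, ‖P.PP j d θ‖ ^ 2 *
    (‖1 - fourier 1 θ‖ ^ 2 * (‖P.pk (j + d) θ‖ - 1) ^ 2) ∂hm ≤ (1 / 4) ^ (j + d) := by
  have hδ : ∀ J : ℕ, (0 : ℝ) < (1 / 4) ^ J / (J + 1) := fun J => by positivity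
  choose M hM hst using fun J => stage (hδ J)
  choose p hp1 hp2 hst using fun J => hst J (2 ^ (J + 1) * M (J + 1))
  let h : ℕ → ℕ := fun J => Nat.rec (M 0) (fun j x => p j * (x + M j)) J
  have hex : ∀ (J : ℕ) (W : Tc → ℝ), ∃ c : ℕ → ℕ, (∀ k, c k < M J) ∧
      (Bdd W → (∀ θ, 0 ≤ W θ) → (∀ Ψ : Tc → ℝ, Bdd Ψ →
        ∫ θ, W θ * Ψ (((h J + M J : ℕ) : ℤ) • θ) ∂hm = (J + 1) * ∫ t, Ψ t ∂hm) →
      ∫ θ, W θ * (‖1 - fourier 1 θ‖ ^ 2 * (‖Pk (p J) (h J + M J) c θ‖ - 1) ^ 2) ∂hm ≤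
        (J + 1) * ((1 / 4 : ℝ) ^ J / (J + 1))) := by
    intro J W
    by_cases hyp : Bdd W ∧ (∀ θ, 0 ≤ W θ) ∧ (∀ Ψ : Tc → ℝ, Bdd Ψ →
        ∫ θ, W θ * Ψ (((h J + M J : ℕ) : ℤ) • θ) ∂hm = (J + 1) * ∫ t, Ψ t ∂hm)
    · obtain ⟨c, h1, h2⟩ := hst J W _ _ hyp.1 hyp.2.1 hyp.2.2
      exact ⟨c, h1, fun _ _ _ => h2⟩
    · exact ⟨fun _ => 0, fun _ => hM J, fun h1 h2 h3 => absurd ⟨h1, h2, h3⟩ hyp⟩
  choose ch hch1 hch2 using hex
  let W : ℕ → Tc → ℝ := fun J => Nat.rec (fun _ => 1)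
    (fun j x θ => x θ * ‖Pk (p j) (h j + M j) (ch j x) θ‖ ^ 2 + 1) J
  let P : Par :=
    { M := M, p := p, h := h, c := fun J => ch J (W J), p_pos := hp2, h_succ := fun _ => rfl
      c_lt := fun J => hch1 J _
      M_le := fun J => by
        cases J with
        | zero => simp [h]
        | succ J => exact (hp1 J).trans (Nat.le_mul_of_pos_right _ (Nat.add_pos_right _ (hM J))) }
  have hW : ∀ J θ, W J θ = ∑ i ∈ range (J + 1), ‖P.PP i (J - i) θ‖ ^ 2 := by
    intro J θ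
    induction J with
    | zero => simp [W, Par.PP]
    | succ J ih =>
      change W J θ * ‖P.pk J θ‖ ^ 2 + 1 = _
      rw [sum_range_succ _ (J + 1), ih, sum_mul]
      congr 1
      · refine sum_congr rfl fun i hi => ?_
        have hi' : i ≤ J := Nat.lt_succ_iff.mp (mem_range.mp hi)
        rw [show J + 1 - i = J - i + 1 by omega]
        simp only [Par.PP, prod_range_succ, norm_mul, mul_pow]
        rw [show i + (J - i) = J by omega]
      · simp [Par.PP]
  have hb : ∀ j d, Bdd fun θ => ‖P.PP j d θ‖ ^ 2 := fun j d => (P.bdd_PP j d).norm.pow 2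
  have hWb : ∀ J, Bdd (W J) := fun J => by
    rw [funext (hW J)]; exact Bdd.sum _ fun i _ => hb _ _
  refine ⟨P, fun j d => ?_⟩
  have h1 := hch2 (j + d) (W (j + d)) (hWb _)
    (fun θ => by rw [hW]; exact sum_nonneg fun _ _ => sq_nonneg _) (fun Ψ hΨ => by
      simp only [hW, sum_mul]
      rw [integral_finsetSum _ fun i _ =>
        ((hb _ _).mul (hΨ.comp (measurable_zsmul_Tc _))).integrable _]
      rw [sum_congr rfl (g := fun _ => ∫ t, Ψ t ∂hm)]
      · simp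
      intro i hi
      have hi' : i ≤ j + d := Nat.lt_succ_iff.mp (mem_range.mp hi)
      simp only [Par.norm_PP_sq, mul_assoc, integral_const_mul]
      rw [decouple (Nat.add_pos_right _ (hM _)) _ _ hΨ, ← mul_assoc, inv_mul_cancel₀, one_mul]
      · exact_mod_cast (P.card_B_pos _ _).ne'
      · intro u hu
        have h2 := P.B_bound hu
        have h3 := P.h_pos i
        rw [show i + (j + d - i) = j + d by omega] at h2
        change 0 ≤ u ∧ u < ((P.h (j + d) + P.M (j + d) : ℕ) : ℤ)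
        omega)
  rw [mul_div_cancel₀ _ (by positivity)] at h1
  refine le_trans ?_ h1
  have hg : Bdd fun θ => ‖1 - fourier 1 θ‖ ^ 2 * (‖P.pk (j + d) θ‖ - 1) ^ 2 :=
    (((Bdd.const _).sub (bdd_fourier 1)).norm.pow 2).mul
      (((bdd_Pk _ _ _).norm.sub (Bdd.const _)).pow 2)
  refine integral_mono (((hb _ _).mul hg).integrable _) (((hWb _).mul hg).integrable _)
    fun θ => mul_le_mul_of_nonneg_right ?_ (by positivity)
  rw [hW]
  have := single_le_sum (f := fun i => ‖P.PP i (j + d - i) θ‖ ^ 2) (fun _ _ => sq_nonneg _)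
    (mem_range.mpr (by omega : j < j + d + 1))
  simpa using this

end Vale.Agent.P130
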