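import Vale.Agent.P130.Chirp
import Vale.Agent.P130.Gauss

open MeasureTheory Complex Finset Filter Topology Function
open scoped Real ComplexConjugate

namespace Vale.Agent.P130

lemma sum_ind_le_one {α ι : Type*} (s : Finset ι) (E : ι → Set α)
    (hE : ∀ i ∈ s, ∀ j ∈ s, i ≠ j → Disjoint (E i) (E j)) (x : α) :
    ∑ i ∈ s, ind (E i) x = ind (⋃ i ∈ s, E i) x := by
  classical
  by_cases hx : x ∈ ⋃ i ∈ s, E i
  · rw [ind_of_mem hx]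
    simp only [Set.mem_iUnion] at hx
    obtain ⟨i, hi, hxi⟩ := hx
    rw [sum_eq_single i, ind_of_mem hxi]
    · intro j hj hji
      exact ind_of_notMem fun h => Set.disjoint_left.mp (hE i hi j hj hji.symm) hxi h
    · intro h; exact absurd hi h
  · rw [ind_of_notMem hx]
    exact sum_eq_zero fun j hj => ind_of_notMem fun h => hx (Set.mem_biUnion hj h)

lemma abs_norm_sum_sub_ind_le' {α ι : Type*} (s : Finset ι) (f : ι → ℂ) (E : ι → Set α)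
    (hE : ∀ i ∈ s, ∀ j ∈ s, i ≠ j → Disjoint (E i) (E j)) (x : α) (ρ a : ι → ℝ) {κ C : ℝ}
    (hκ0 : 0 ≤ κ) (hf : ∀ i ∈ s, ‖f i‖ = ρ i * a i) (hρ : ∀ i ∈ s, |ρ i - 1| ≤ κ)
    (hC : ∀ i ∈ s, |ρ i| ≤ C) :
    |‖∑ i ∈ s, f i‖ - ind (⋃ i ∈ s, E i) x| ≤ C * ∑ i ∈ s, |a i - ind (E i) x| + κ := by
  refine (abs_norm_sum_sub_ind_le s f E hE x).trans ?_
  have h1 : ∑ i ∈ s, κ * ind (E i) x ≤ κ := by
    rw [← mul_sum, sum_ind_le_one s E hE]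
    exact mul_le_of_le_one_right hκ0 (ind_le_one _ _)
  refine le_trans ?_ (add_le_add le_rfl h1)
  rw [mul_sum, ← sum_add_distrib]
  refine sum_le_sum fun i hi => ?_
  rw [hf i hi, show ρ i * a i - ind (E i) x = ρ i * (a i - ind (E i) x) + (ρ i - 1) * ind (E i) x
    by ring]
  refine (abs_add_le _ _).trans ?_
  rw [abs_mul, abs_mul, abs_of_nonneg (ind_nonneg _ _)]
  have := ind_nonneg (E i) x
  gcongr
  · exact hC i hi
  · exact hρ i hi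

lemma sum_range_mul' {M : Type*} [AddCommMonoid M] (f : ℕ → M) (S N : ℕ) :
    ∑ k ∈ range (S * N), f k = ∑ β : Fin S, ∑ j ∈ range N, f (β * N + j) := by
  rw [Fin.sum_univ_eq_sum_range (fun β => ∑ j ∈ range N, f (β * N + j))]
  induction S with
  | zero => simp
  | succ S ih => rw [sum_range_succ, ← ih, add_mul, one_mul, sum_range_add]

lemma near_int {G : ℕ} (hG : 0 < G) (j : ℤ) {c : ℝ} (h : ‖((j / G : ℝ) : Tc)‖ < c / G) :
    ∃ m : ℤ, ((|j - G * m| : ℤ) : ℝ) < c := by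
  rw [UnitAddCircle.norm_eq] at h
  refine ⟨round ((j : ℝ) / G), ?_⟩
  have hG' : (0 : ℝ) < G := by exact_mod_cast hG
  rw [lt_div_iff₀ hG', ← abs_of_pos hG', ← abs_mul, abs_of_pos hG'] at h
  push_cast
  rwa [show ((j : ℝ) / G - round ((j : ℝ) / G)) * G = j - G * round ((j : ℝ) / G) by
    field_simp] at h

variable {δ ι : Type} [Fintype δ] [Fintype ι] [DecidableEq ι]

lemma exists_quad (ν v : ι → δ → ℤ) (hv0 : ∀ i, ν i ⬝ᵥ v i = 0) (Q : ι → ℕ)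
    (hQ : Pairwise (Nat.Coprime on Q)) (hQ2 : ∀ i, IsCoprime (2 : ℤ) (Q i))
    (hQv : ∀ i j, j ≠ i → IsCoprime (ν j ⬝ᵥ v i) (Q i)) :
    ∃ V : δ → ℤ, ∀ n, ∃ u : ℤ, ν n ⬝ᵥ V = Q n * u ∧
      IsCoprime (2 * u) ((∏ i ∈ univ.erase n, Q i : ℕ) : ℤ) := by
  refine ⟨∑ m, (∏ i ∈ univ.erase m, (Q i : ℤ)) • v m, fun n => ?_⟩
  have e : ν n ⬝ᵥ ∑ m, (∏ i ∈ univ.erase m, (Q i : ℤ)) • v m =
      ∑ m, (∏ i ∈ univ.erase m, (Q i : ℤ)) * (ν n ⬝ᵥ v m) := by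
    rw [dotProduct_sum]; simp only [dotProduct_smul, smul_eq_mul]
  rw [e]
  have hd : ∀ k m, k ≠ m → (Q k : ℤ) ∣ (∏ i ∈ univ.erase m, (Q i : ℤ)) * (ν n ⬝ᵥ v m) :=
    fun k m hkm => (dvd_prod_of_mem _ (mem_erase.mpr ⟨hkm, mem_univ _⟩)).mul_right _
  obtain ⟨u, hu⟩ : (Q n : ℤ) ∣ ∑ m, (∏ i ∈ univ.erase m, (Q i : ℤ)) * (ν n ⬝ᵥ v m) := by
    refine dvd_sum fun m _ => ?_
    by_cases h : n = m
    · subst h; rw [hv0, mul_zero]; exact dvd_zero _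
    · exact hd n m h
  refine ⟨u, hu, ?_⟩
  push_cast
  refine IsCoprime.prod_right fun m hm => (hQ2 m).mul_left ?_
  have hmn : m ≠ n := (mem_erase.mp hm).1
  refine IsCoprime.of_mul_left_right (x := (Q n : ℤ)) ?_
  rw [← hu, ← add_sum_erase _ _ (mem_univ m)]
  obtain ⟨c, hc⟩ : (Q m : ℤ) ∣ ∑ k ∈ univ.erase m,
      (∏ i ∈ univ.erase k, (Q i : ℤ)) * (ν n ⬝ᵥ v k) :=
    dvd_sum fun k hk => hd m k (mem_erase.mp hk).1.symm
  rw [hc]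
  refine IsCoprime.add_mul_left_left (IsCoprime.mul_left ?_ (hQv m n hmn.symm)) _
  exact IsCoprime.prod_left fun i hi =>
    Nat.isCoprime_iff_coprime.mpr (hQ (mem_erase.mp hi).1)

/-- The branch polynomial of the frequency `n`. -/
noncomputable def Ub (p : ℕ) (y : ℕ → δ → ℝ) (n : δ → ℤ) (t : Tc) : ℂ :=
  ((Real.sqrt p : ℝ) : ℂ)⁻¹ * ∑ k ∈ range p, ex (∑ d, n d * y k d) * fourier k t

lemma continuous_Ub (p : ℕ) (y : ℕ → δ → ℝ) (n : δ → ℤ) : Continuous (Ub p y n) := by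
  unfold Ub; fun_prop

lemma bdd_Ub (p : ℕ) (y : ℕ → δ → ℝ) (n : δ → ℤ) : Bdd (Ub p y n) :=
  Bdd.of_continuous (continuous_Ub p y n)

lemma slice_eq {N r : ℕ} [NeZero r] (hN : 0 < N) (l x : ℝ) (u : ℤ) (g : ZMod r → ℂ)
    (hg : ∀ k : ℕ, ex (u * (k : ℝ) ^ 2 / r) = ∑ a : ZMod r, g a * ex (k * (a.val : ℝ) / r))
    (c : ℕ) (t : Tc) :
    ∑ j ∈ range N, ex (l * ((j : ℝ) ^ 2 - N * j) / (2 * N) + j * x + u * (j : ℝ) ^ 2 / r) *
      fourier ((c + j : ℕ) : ℤ) t =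
    ∑ a : ZMod r, (Real.sqrt N : ℝ) * fourier c t * g a *
      chirp l N (t + ((x + a.val / r : ℝ) : Tc)) := by
  have hs : ((Real.sqrt N : ℝ) : ℂ) ≠ 0 := by
    exact_mod_cast (Real.sqrt_pos.mpr (by exact_mod_cast hN)).ne'
  unfold chirp
  simp only [ex_add, hg, mul_sum, sum_mul]
  rw [sum_comm]
  refine sum_congr rfl fun a _ => sum_congr rfl fun j _ => ?_
  push_cast
  rw [fourier_add, fourier_add_pt, fourier_coe, mul_add, ex_add]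
  push_cast
  rw [mul_div_assoc (j : ℝ)]
  field_simp

end Vale.Agent.P130
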