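import Vale.Agent.P130.Real0

open MeasureTheory Complex Finset Filter Topology Function
open scoped Real ComplexConjugate

namespace Vale.Agent.P130

/-- An arc of the circle. -/
def arc (x l : ℝ) : Set Tc := (fun t => t + (x : Tc)) ⁻¹' Metric.ball (0 : Tc) (l / 2)

lemma measurableSet_arc (x l : ℝ) : MeasurableSet (arc x l) :=
  (measurable_add_const _) Metric.isOpen_ball.measurableSet

lemma branch_est {S N r : ℕ} [NeZero r] (hS : 0 < S) (hN : 0 < N) {l : ℝ} (hl : 0 < l)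
    (x : Fin S → ℝ) (u : ℤ) (hu : IsCoprime (2 * u) (r : ℤ)) (G : Finset (Fin S))
    {lam γ : ℝ} (hlam0 : 0 < lam) (hlam : lam ≤ 1) (hγ0 : 0 ≤ γ) (hγ : γ ≤ 1)
    (hρ : |lam / (S * r * l) - 1| ≤ γ) (hG : (#Gᶜ : ℝ) ≤ γ * S)
    (hdis : ∀ p ∈ G ×ˢ (univ : Finset (ZMod r)), ∀ p' ∈ G ×ˢ (univ : Finset (ZMod r)), p ≠ p' →
      Disjoint (arc (x p.1 + p.2.val / r) l) (arc (x p'.1 + p'.2.val / r) l)) :
    ∫ t, (Real.sqrt lam * ‖((Real.sqrt (S * N : ℕ) : ℝ) : ℂ)⁻¹ * ∑ β : Fin S, ∑ j ∈ range N,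
        ex (l * ((j : ℝ) ^ 2 - N * j) / (2 * N) + j * x β + u * (j : ℝ) ^ 2 / r) *
          fourier ((β * N + j : ℕ) : ℤ) t‖ -
        ind (⋃ p ∈ G ×ˢ (univ : Finset (ZMod r)), arc (x p.1 + p.2.val / r) l) t) ^ 2 ∂hm ≤
      3 * (γ + 4 * (S * r) ^ 2 * ∫ t, (Real.sqrt l * ‖chirp l N t‖ -
        ind (Metric.ball (0 : Tc) (l / 2)) t) ^ 2 ∂hm + γ ^ 2) := by
  classical
  obtain ⟨g, hg1, hg2⟩ := gauss_comb r u hu
  set I := ∫ t, (Real.sqrt l * ‖chirp l N t‖ - ind (Metric.ball (0 : Tc) (l / 2)) t) ^ 2 ∂hm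
    with hI
  have hI0 : 0 ≤ I := integral_nonneg fun _ => sq_nonneg _
  set c : ℂ := ((Real.sqrt (S * N : ℕ) : ℝ) : ℂ)⁻¹ with hc
  set w : Fin S → ℕ → ℂ := fun β j =>
    ex (l * ((j : ℝ) ^ 2 - N * j) / (2 * N) + j * x β + u * (j : ℝ) ^ 2 / r) with hw
  set A := G ×ˢ (univ : Finset (ZMod r)) with hA
  set pos : Fin S × ZMod r → ℝ := fun p => x p.1 + p.2.val / r with hpos
  set E := ⋃ p ∈ A, arc (pos p) l with hE
  have hEm : MeasurableSet E := Finset.measurableSet_biUnion _ fun p _ => measurableSet_arc _ _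
  have hSr : (0 : ℝ) < S := by exact_mod_cast hS
  have hNr : (0 : ℝ) < N := by exact_mod_cast hN
  have hrr : (0 : ℝ) < r := by exact_mod_cast Nat.pos_of_ne_zero (NeZero.ne r)
  have hcn : ‖c‖ = (Real.sqrt S)⁻¹ * (Real.sqrt N)⁻¹ := by
    rw [hc, norm_inv, Complex.norm_real, Real.norm_of_nonneg (Real.sqrt_nonneg _), Nat.cast_mul,
      Real.sqrt_mul hSr.le, mul_inv]
  set Bd : Tc → ℂ := fun t => ∑ p ∈ Gᶜ ×ˢ range N,
    (c * w p.1 p.2) * fourier ((p.1 * N + p.2 : ℕ) : ℤ) t with hBd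
  set F : Fin S × ZMod r → Tc → ℂ := fun p t => (Real.sqrt lam : ℝ) * (c *
    ((Real.sqrt N : ℝ) * fourier ((p.1 * N : ℕ) : ℤ) t * g p.2 * chirp l N (t + (pos p : Tc))))
    with hF
  set a : Fin S × ZMod r → Tc → ℝ := fun p t =>
    Real.sqrt l * ‖chirp l N (t + (pos p : Tc))‖ - ind (arc (pos p) l) t with ha
  have hab : ∀ p, Bdd (a p) := fun p =>
    ((Bdd.const _).mul ((bdd_chirp l N).comp (measurable_add_const _)).norm).sub
      (bdd_ind (measurableSet_arc _ _))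
  have haI : ∀ p, ∫ t, a p t ^ 2 ∂hm = I := by
    intro p
    rw [hI]
    exact integral_add_right_eq_self (fun t => (Real.sqrt l * ‖chirp l N t‖ -
      ind (Metric.ball (0 : Tc) (l / 2)) t) ^ 2) (pos p : Tc)
  have hBdb : Bdd Bd := Bdd.sum _ fun p _ => (Bdd.const _).mul (bdd_fourier _)
  have hBdI : ∫ t, ‖Bd t‖ ^ 2 ∂hm ≤ γ := by
    rw [hBd, integral_norm_sq_trig]
    · have : ∀ p : Fin S × ℕ, ‖c * w p.1 p.2‖ ^ 2 = (S * N : ℝ)⁻¹ := by
        intro p
        rw [norm_mul, hcn, hw]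
        simp only [norm_ex, mul_one, mul_pow, inv_pow, Real.sq_sqrt hSr.le, Real.sq_sqrt hNr.le,
          mul_inv]
      simp only [this, sum_const, card_product, card_range, nsmul_eq_mul]
      push_cast
      calc (#Gᶜ : ℝ) * N * (S * N : ℝ)⁻¹ ≤ γ * S * N * (S * N : ℝ)⁻¹ := by gcongr
        _ = γ := by field_simp
    · rintro ⟨β, j⟩ h1 ⟨β', j'⟩ h2 h
      simp only [coe_product, coe_range, Set.mem_prod, Set.mem_Iio] at h1 h2
      have h3 : β * N + j = β' * N + j' := by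
        simp only at h
        exact_mod_cast h
      have h4 : j = j' := by
        have := congrArg (· % N) h3
        simpa [Nat.mul_add_mod_of_lt h1.2, Nat.mul_add_mod_of_lt h2.2] using this
      subst h4
      have h5 : (β : ℕ) = β' := Nat.eq_of_mul_eq_mul_right hN (by omega)
      rw [Fin.ext h5]
  have hsplit : ∀ t, ((Real.sqrt lam : ℝ) : ℂ) * (c * ∑ β : Fin S, ∑ j ∈ range N,
      w β j * fourier ((β * N + j : ℕ) : ℤ) t) =
      ∑ p ∈ A, F p t + (Real.sqrt lam : ℝ) * Bd t := by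
    intro t
    rw [← sum_add_sum_compl G, mul_add, mul_add]
    congr 1
    · rw [hA, sum_product, mul_sum, mul_sum]
      refine sum_congr rfl fun β _ => ?_
      simp only [hw, hF, hpos]
      rw [slice_eq hN l (x β) u g hg2, mul_sum, mul_sum]
    · simp only [hBd]
      rw [sum_product, mul_sum]
      simp only [mul_sum, mul_assoc]
  set ρ := Real.sqrt (lam / (S * r * l)) with hρdef
  have hρ0 : 0 ≤ ρ := Real.sqrt_nonneg _
  have hρ1 : |ρ - 1| ≤ γ := by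
    have h1 : ρ ^ 2 = lam / (S * r * l) := Real.sq_sqrt (by positivity)
    rw [← h1, show ρ ^ 2 - 1 = (ρ - 1) * (ρ + 1) by ring, abs_mul,
      abs_of_pos (by linarith : 0 < ρ + 1)] at hρ
    nlinarith [abs_nonneg (ρ - 1)]
  have hFn : ∀ p t, ‖F p t‖ = ρ * (Real.sqrt l * ‖chirp l N (t + (pos p : Tc))‖) := by
    intro p t
    simp only [hF, norm_mul, hcn, hg1, norm_fourier, Complex.norm_real, Real.norm_eq_abs,
      abs_of_nonneg (Real.sqrt_nonneg _), hρdef]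
    rw [Real.sqrt_div hlam0.le, Real.sqrt_mul (by positivity), Real.sqrt_mul (by positivity)]
    have := (Real.sqrt_pos.mpr hSr).ne'
    have := (Real.sqrt_pos.mpr hNr).ne'
    have := (Real.sqrt_pos.mpr hrr).ne'
    have := (Real.sqrt_pos.mpr hl).ne'
    field_simp
  have hpt : ∀ t, (Real.sqrt lam * ‖c * ∑ β : Fin S, ∑ j ∈ range N,
      w β j * fourier ((β * N + j : ℕ) : ℤ) t‖ - ind E t) ^ 2 ≤
      3 * (‖Bd t‖ ^ 2 + 4 * (S * r) * ∑ p ∈ A, a p t ^ 2 + γ ^ 2) := by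
    intro t
    have h1 := abs_norm_sum_sub_ind_le' A (fun p => F p t) (fun p => arc (pos p) l) hdis t
      (fun _ => ρ) (fun p => Real.sqrt l * ‖chirp l N (t + (pos p : Tc))‖) (C := 2) hγ0
      (fun p _ => hFn p t) (fun _ _ => hρ1)
      (fun _ _ => by rw [abs_of_nonneg hρ0]; linarith [(abs_le.mp hρ1).2])
    have h2 : Real.sqrt lam * ‖c * ∑ β : Fin S, ∑ j ∈ range N,
        w β j * fourier ((β * N + j : ℕ) : ℤ) t‖ =
        ‖∑ p ∈ A, F p t + (Real.sqrt lam : ℝ) * Bd t‖ := by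
      rw [← hsplit, norm_mul (((Real.sqrt lam : ℝ) : ℂ)), Complex.norm_real,
        Real.norm_of_nonneg (Real.sqrt_nonneg _)]
    have h3 := abs_norm_sub_norm_le (∑ p ∈ A, F p t + (Real.sqrt lam : ℝ) * Bd t) (∑ p ∈ A, F p t)
    have h4 : ‖((Real.sqrt lam : ℝ) : ℂ) * Bd t‖ ≤ ‖Bd t‖ := by
      rw [norm_mul, Complex.norm_real, Real.norm_of_nonneg (Real.sqrt_nonneg _)]
      exact mul_le_of_le_one_left (norm_nonneg _) (Real.sqrt_le_one.mpr hlam)
    rw [add_sub_cancel_left] at h3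
    have h5 := sq_sum_le_card_mul_sum_sq (s := A) (f := fun p => |a p t|)
    simp only [sq_abs] at h5
    have h6 : (#A : ℝ) ≤ S * r := by
      have := card_le_univ A
      rw [Fintype.card_prod, Fintype.card_fin, ZMod.card] at this
      exact_mod_cast this
    have h7 : (#A : ℝ) * ∑ p ∈ A, a p t ^ 2 ≤ S * r * ∑ p ∈ A, a p t ^ 2 := by gcongr
    rw [h2]
    have h8 := abs_sub_le ‖∑ p ∈ A, F p t + (Real.sqrt lam : ℝ) * Bd t‖ ‖∑ p ∈ A, F p t‖
      (ind E t)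
    have h9 : |‖∑ p ∈ A, F p t + (Real.sqrt lam : ℝ) * Bd t‖ - ind E t| ≤
        ‖Bd t‖ + 2 * ∑ p ∈ A, |a p t| + γ := by
      simp only [ha]; linarith
    rw [← sq_abs]
    refine (pow_le_pow_left₀ (abs_nonneg _) h9 2).trans ?_
    generalize ‖Bd t‖ = y1 at *
    generalize ∑ p ∈ A, |a p t| = y2 at *
    nlinarith [sq_nonneg (y1 - 2 * y2), sq_nonneg (y1 - γ), sq_nonneg (2 * y2 - γ)]
  have hb1 : Bdd fun t => ‖Bd t‖ ^ 2 := hBdb.norm.pow 2
  have hb2 : Bdd fun t => 4 * (S * r) * ∑ p ∈ A, a p t ^ 2 :=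
    (Bdd.const _).mul (Bdd.sum _ fun p _ => (hab p).pow 2)
  refine (integral_mono_of_nonneg (ae_of_all _ fun t => sq_nonneg _)
    (((Bdd.const (3 : ℝ)).mul ((hb1.add hb2).add (Bdd.const _))).integrable _)
    (ae_of_all _ hpt)).trans ?_
  rw [integral_const_mul, integral_add ((hb1.add hb2).integrable _) ((Bdd.const _).integrable _),
    integral_add (hb1.integrable _) (hb2.integrable _), integral_const_mul,
    integral_finsetSum _ fun p _ => ((hab p).pow 2).integrable _]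
  simp only [haI, sum_const, nsmul_eq_mul, integral_const, probReal_univ, one_smul]
  have h6 : (#A : ℝ) ≤ S * r := by
    have := card_le_univ A
    rw [Fintype.card_prod, Fintype.card_fin, ZMod.card] at this
    exact_mod_cast this
  have h7 : 4 * (S * r) * (#A * I) ≤ 4 * (S * r) * (S * r * I) := by gcongr
  nlinarith

end Vale.Agent.P130
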