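import Vale.Agent.P130.Real1
import Vale.Agent.P130.Pack

open MeasureTheory Complex Finset Filter Topology Function
open scoped Real ComplexConjugate

namespace Vale.Agent.P130

lemma arc_inter {G : ℕ} (hG : 0 < G) (j j' : ℤ) (s s' : ℕ) {t : Tc}
    (h : t ∈ arc (j / G) (s / G)) (h' : t ∈ arc (j' / G) (s' / G)) :
    ∃ m : ℤ, 2 * |j - j' - G * m| < s + s' := by
  simp only [arc, Set.mem_preimage, mem_ball_zero_iff] at h h'
  have h1 : ‖((((j - j' : ℤ) : ℝ) / G : ℝ) : Tc)‖ < ((s + s' : ℝ) / 2) / G := by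
    have e : ((((j - j' : ℤ) : ℝ) / G : ℝ) : Tc) =
        (t + ((j / G : ℝ) : Tc)) - (t + ((j' / G : ℝ) : Tc)) := by
      rw [add_sub_add_left_eq_sub, ← AddCircle.coe_sub]; congr 1; push_cast; ring
    rw [e]
    refine (norm_sub_le _ _).trans_lt ?_
    have : ((s + s' : ℝ) / 2) / G = s / G / 2 + s' / G / 2 := by ring
    linarith
  obtain ⟨m, hm⟩ := near_int hG _ h1
  refine ⟨m, ?_⟩
  have : (2 * ((|j - j' - G * m| : ℤ) : ℝ)) < s + s' := by linarith
  exact_mod_cast this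

lemma neg_mem_arc {x l : ℝ} {t : Tc} (h : -t ∈ arc x l) : t ∈ arc (-x) l := by
  simp only [arc, Set.mem_preimage, mem_ball_zero_iff] at h ⊢
  rw [← norm_neg, neg_add, AddCircle.coe_neg, neg_neg]; exact h

variable {δ ι : Type} [Fintype δ] [DecidableEq δ] [Fintype ι] [DecidableEq ι]

theorem realize (hD : 2 ≤ Fintype.card δ) (ν v : ι → δ → ℤ) (α : δ → ℤ) (t : ι → ℕ)
    (hv0 : ∀ i, ν i ⬝ᵥ v i = 0) (hv : ∀ i j, j ≠ i → ν j ⬝ᵥ v i ≠ 0)
    (ht : ∀ i, ν i ⬝ᵥ α = t i) (ht0 : ∀ i, 0 < t i)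
    (lam : ι → ℝ) (hl0 : ∀ i, 0 < lam i) (hl : 2 * ∑ i, lam i ≤ 1)
    {ε : ℝ} (hε : 0 < ε) (p0 : ℕ) :
    ∃ p, p0 ≤ p ∧ 0 < p ∧ ∃ (y : ℕ → δ → ℝ) (E : ι → Set Tc), (∀ i, MeasurableSet (E i)) ∧
      (∀ i j, i ≠ j → Disjoint (E i) (E j)) ∧ (∀ i j s, s ∈ E i → -s ∉ E j) ∧
      ∀ i, ∫ s, (Real.sqrt (lam i) * ‖Ub p y (ν i) s‖ - ind (E i) s) ^ 2 ∂hm ≤ ε := by
  classical
  set K : ℕ := (∏ i, t i) * (2 * ∏ i, ∏ j with j ≠ i, (ν j ⬝ᵥ v i).natAbs) with hK
  have hK0 : K ≠ 0 := by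
    refine mul_ne_zero (prod_ne_zero_iff.mpr fun i _ => (ht0 i).ne') (mul_ne_zero two_ne_zero ?_)
    exact prod_ne_zero_iff.mpr fun i _ => prod_ne_zero_iff.mpr fun j hj =>
      Int.natAbs_ne_zero.mpr (hv i j (mem_filter.mp hj).2)
  set γ := min 1 (ε / 9) with hγ
  have hγ0 : 0 < γ := lt_min one_pos (by positivity)
  have hγ1 : γ ≤ 1 := min_le_left _ _
  have hγ2 : γ ≤ ε / 9 := min_le_right _ _
  obtain ⟨q, S, Q, bt, G, hS, hq, hqt, hQ0, hQc, hQK, hρ, hG, sep1, sep2⟩ :=
    packing hD ν v α t hv0 hv ht ht0 lam hl0 hl hK0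
      (fun i => (dvd_prod_of_mem _ (mem_univ i)).mul_right _) hγ0
  obtain ⟨V, hV⟩ := exists_quad ν v hv0 Q hQc
    (fun i => by
      have : Nat.Coprime (Q i) 2 :=
        Nat.Coprime.coprime_dvd_right ((Dvd.intro _ rfl).mul_left _) (hQK i)
      exact_mod_cast Nat.isCoprime_iff_coprime.mpr this.symm)
    (fun i j hij => by
      have : Nat.Coprime (Q i) (ν j ⬝ᵥ v i).natAbs := by
        refine Nat.Coprime.coprime_dvd_right (Dvd.dvd.mul_left (Dvd.dvd.mul_left ?_ _) _) (hQK i)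
        refine Dvd.dvd.trans ?_ (dvd_prod_of_mem _ (mem_univ i))
        exact dvd_prod_of_mem (fun j => (ν j ⬝ᵥ v i).natAbs) (mem_filter.mpr ⟨mem_univ _, hij⟩)
      rw [Int.isCoprime_iff_gcd_eq_one, Int.gcd_eq_natAbs, Int.natAbs_natCast]
      exact this.symm)
  choose u hu1 hu2 using hV
  set r : ι → ℕ := fun n => ∏ i ∈ univ.erase n, Q i with hr
  set R : ℕ := ∏ i, Q i with hR
  have hrR : ∀ n, Q n * r n = R := fun n => mul_prod_erase _ _ (mem_univ n)
  have hr0 : ∀ n, 0 < r n := fun n => prod_pos fun i _ => hQ0 i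
  have hR0 : 0 < R := prod_pos fun i _ => hQ0 i
  have hne : ∀ n, NeZero (r n) := fun n => ⟨(hr0 n).ne'⟩
  have hqr : (0 : ℝ) < q := by exact_mod_cast hq
  have hRr : (0 : ℝ) < R := by exact_mod_cast hR0
  have hSr : (0 : ℝ) < S := by exact_mod_cast hS
  have hqR : 0 < q * R := Nat.mul_pos hq hR0
  set l : ι → ℝ := fun n => t n / (q * R : ℕ) with hldef
  have hl1 : ∀ n, 0 < l n := fun n => div_pos (by exact_mod_cast ht0 n) (by exact_mod_cast hqR)
  have hl2 : ∀ n, l n ≤ 1 / 2 := by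
    intro n
    simp only [hldef]
    rw [div_le_div_iff₀ (by exact_mod_cast hqR) two_pos]
    have : t n * 2 ≤ 1 * (q * R) := by have := hqt n; nlinarith
    exact_mod_cast this
  have hev : ∀ᶠ N : ℕ in atTop, (∀ n, 4 * ((S : ℝ) * r n) ^ 2 *
      ∫ s, (Real.sqrt (l n) * ‖chirp (l n) N s‖ - ind (Metric.ball (0 : Tc) (l n / 2)) s) ^ 2 ∂hm
        ≤ ε / 9) ∧ p0 + 1 ≤ N := by
    refine (eventually_all.mpr fun n => ?_).and (eventually_ge_atTop _)
    have := (chirp_flat (hl1 n) (hl2 n)).const_mul (4 * ((S : ℝ) * r n) ^ 2)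
    rw [mul_zero] at this
    exact this.eventually_le_const (by positivity)
  obtain ⟨N, hN1, hN2⟩ := hev.exists
  have hN : 0 < N := by omega
  set bt' : ℕ → δ → ℤ := fun β => if h : β < S then bt ⟨β, h⟩ else 0 with hbt'
  set x : ι → Fin S → ℝ := fun n β => (ν n ⬝ᵥ bt β : ℤ) / (q * R : ℕ) with hx
  have hpos : ∀ n (p : Fin S × ZMod (r n)), x n p.1 + p.2.val / r n =
      ((ν n ⬝ᵥ bt p.1 + q * Q n * p.2.val : ℤ) : ℝ) / (q * R : ℕ) := by
    intro n p
    have h1 : (0 : ℝ) < r n := by exact_mod_cast hr0 n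
    have h2 : (0 : ℝ) < Q n := by exact_mod_cast hQ0 n
    simp only [hx, ← hrR n]; push_cast; field_simp
  refine ⟨S * N, by nlinarith, Nat.mul_pos hS hN,
    fun k d => α d * ((((k % N : ℕ) : ℝ) ^ 2 - N * (k % N : ℕ)) / (2 * N * (q * R : ℕ))) +
      bt' (k / N) d * ((k % N : ℕ) / (q * R : ℕ)) + V d * (((k % N : ℕ) : ℝ) ^ 2 / R),
    fun n => ⋃ p ∈ G n ×ˢ (univ : Finset (ZMod (r n))), arc (x n p.1 + p.2.val / r n) (l n),
    fun n => Finset.measurableSet_biUnion _ fun p _ => measurableSet_arc _ _, ?_, ?_, ?_⟩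
  · intro i j hij
    rw [Set.disjoint_left]
    intro s h1 h2
    simp only [Set.mem_iUnion] at h1 h2
    obtain ⟨p, hp, h1⟩ := h1
    obtain ⟨p', hp', h2⟩ := h2
    rw [hpos] at h1 h2
    obtain ⟨m, hm⟩ := arc_inter hqR _ _ _ _ h1 h2
    refine hij (sep2 i j p.1 p'.1 (mem_product.mp hp).1 (mem_product.mp hp').1
      (R * m - Q i * p.2.val + Q j * p'.2.val) ?_).1
    convert hm using 3
    push_cast; ring
  · intro i j s h1 h2
    simp only [Set.mem_iUnion] at h1 h2
    obtain ⟨p, hp, h1⟩ := h1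
    obtain ⟨p', hp', h2⟩ := h2
    rw [hpos] at h1 h2
    have h3 := neg_mem_arc h2
    rw [← neg_div, ← Int.cast_neg] at h3
    obtain ⟨m, hm⟩ := arc_inter hqR _ _ _ _ h1 h3
    refine sep1 i j p.1 p'.1 (mem_product.mp hp).1 (mem_product.mp hp').1
      (R * m - Q i * p.2.val - Q j * p'.2.val) ?_
    convert hm using 3
    push_cast; ring
  · intro n
    have hlam1 : lam n ≤ 1 := by
      have := single_le_sum (fun i _ => (hl0 i).le) (mem_univ n)
      linarith [hl0 n]
    have h1 : (0 : ℝ) < r n := by exact_mod_cast hr0 n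
    have h2 : (0 : ℝ) < Q n := by exact_mod_cast hQ0 n
    have h3 : (0 : ℝ) < t n := by exact_mod_cast ht0 n
    have hb := branch_est (r := r n) hS hN (hl1 n) (x n) (u n) (hu2 n) (G n) (hl0 n) hlam1 hγ0.le hγ1
      (by
        have e : lam n / (S * r n * l n) - 1 = (lam n * q * Q n - S * t n) / (S * t n) := by
          simp only [hldef, ← hrR n]; push_cast; field_simp
        rw [e, abs_div, abs_of_pos (by positivity : (0 : ℝ) < S * t n), div_le_iff₀ (by positivity)]
        exact hρ n) (hG n)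
      (by
        rintro ⟨β, a⟩ hp ⟨β', a'⟩ hp' hne'
        rw [Set.disjoint_left]
        intro s h1 h2
        rw [hpos] at h1 h2
        obtain ⟨m, hm⟩ := arc_inter hqR _ _ _ _ h1 h2
        simp only at hm
        have h4 := (sep2 n n β β' (mem_product.mp hp).1 (mem_product.mp hp').1
          (R * m - Q n * a.val + Q n * a'.val) (by
            convert hm using 3
            push_cast; ring)).2 ⟨r n * m - a.val + a'.val, by rw [← hrR n]; push_cast; ring⟩
        subst h4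
        apply hne'
        have h5 : (q : ℤ) * (Q n * (a.val - a'.val - r n * m)) = 0 := by
          refine Int.eq_zero_of_abs_lt_dvd (m := q) (Dvd.intro _ rfl) ?_
          have e : ν n ⬝ᵥ bt β + q * Q n * a.val - (ν n ⬝ᵥ bt β + q * Q n * a'.val) -
            ((q * R : ℕ) : ℤ) * m = (q : ℤ) * (Q n * (a.val - a'.val - r n * m)) := by
            rw [← hrR n]; push_cast; ring
          rw [e] at hm
          have := hqt n
          omega
        have h6 : (a.val : ℤ) - a'.val - r n * m = 0 := by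
          rcases mul_eq_zero.mp h5 with h | h
          · exact absurd h (by exact_mod_cast hq.ne')
          · exact (mul_eq_zero.mp h).resolve_left (by exact_mod_cast (hQ0 n).ne')
        have h7 : (a.val : ℤ) - a'.val = 0 := by
          refine Int.eq_zero_of_abs_lt_dvd (m := r n) ⟨m, by linarith⟩ ?_
          have := ZMod.val_lt a
          have := ZMod.val_lt a'
          rw [abs_lt]; constructor <;> omega
        have h8 : a = a' := ZMod.val_injective _ (by omega)
        rw [h8])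
    refine le_of_eq_of_le ?_ (hb.trans ?_)
    · refine integral_congr_ae (ae_of_all _ fun s => ?_)
      simp only [Ub]
      rw [sum_range_mul']
      congr 5
      refine sum_congr rfl fun β _ => sum_congr rfl fun j hj => ?_
      have hj' := mem_range.mp hj
      have e1 : (β * N + j) % N = j := Nat.mul_add_mod_of_lt hj'
      have e2 : (β * N + j) / N = β := by
        rw [add_comm, Nat.add_mul_div_right _ _ hN, Nat.div_eq_of_lt hj', zero_add]
      have e3 : bt' β = bt β := by simp [hbt']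
      simp only [e1, e2, e3, mul_add, sum_add_distrib, ← mul_assoc, ← sum_mul]
      have f1 : ∑ d, (ν n d : ℝ) * α d = t n := by exact_mod_cast ht n
      have f2 : ∑ d, (ν n d : ℝ) * V d = Q n * u n := by exact_mod_cast hu1 n
      have f3 : ∑ d, (ν n d : ℝ) * bt β d = (ν n ⬝ᵥ bt β : ℤ) := by simp [dotProduct]
      rw [f1, f2, f3]
      congr 2
      simp only [hldef, hx, ← hrR n]; push_cast; field_simp
    · have := hN1 n
      nlinarith

end Vale.Agent.P130
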