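import Vale.Agent.P130.Stage0

open MeasureTheory Complex Finset Filter Topology Function UnitAddTorus
open scoped Real ComplexConjugate

namespace Vale.Agent.P130

/-- The polynomial of one stage of the construction. -/
noncomputable def Pk (p H : ℕ) (c : ℕ → ℕ) (θ : Tc) : ℂ :=
  ((Real.sqrt p : ℝ) : ℂ)⁻¹ * ∑ k ∈ range p, fourier ((k * H + c k : ℕ) : ℤ) θ

lemma bdd_Pk (p H : ℕ) (c : ℕ → ℕ) : Bdd (Pk p H c) :=
  (Bdd.const _).mul (Bdd.sum _ fun _ _ => bdd_fourier _)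

lemma norm_one_sub_fourier_le (θ : Tc) : ‖1 - fourier 1 θ‖ ≤ 2 := by
  refine (norm_sub_le _ _).trans ?_
  rw [norm_fourier, norm_one]; norm_num

lemma geom_bound (M : ℕ) (θ : Tc) :
    ‖1 - fourier 1 θ‖ * ‖∑ c ∈ range M, fourier (c : ℤ) θ‖ ≤ 2 := by
  simp only [fourier_nat]
  rw [← norm_mul, mul_neg_geom_sum]
  refine (norm_sub_le _ _).trans ?_
  rw [norm_pow, norm_fourier, norm_one]; norm_num

lemma measurable_zsmul_Tc (n : ℤ) : Measurable fun θ : Tc => n • θ :=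
  (continuous_zsmul n).measurable

theorem stage {δ0 : ℝ} (hδ : 0 < δ0) :
    ∃ M : ℕ, 0 < M ∧ ∀ p0 : ℕ, ∃ p, p0 ≤ p ∧ 0 < p ∧ ∀ (W : Tc → ℝ) (H : ℕ) (C : ℝ),
      Bdd W → (∀ θ, 0 ≤ W θ) →
      (∀ Ψ : Tc → ℝ, Bdd Ψ → ∫ θ, W θ * Ψ ((H : ℤ) • θ) ∂hm = C * ∫ t, Ψ t ∂hm) →
      ∃ c : ℕ → ℕ, (∀ k, c k < M) ∧
        ∫ θ, W θ * (‖1 - fourier 1 θ‖ ^ 2 * (‖Pk p H c θ‖ - 1) ^ 2) ∂hm ≤ C * δ0 := by
  classical
  set η := δ0 / 100 with hη
  have hη0 : 0 < η := by positivity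
  obtain ⟨r0, hr0⟩ := exists_nat_gt (1 / η)
  obtain ⟨r, hr, P, α, hα, h1, hP0, hP⟩ := exists_freq hη0 (r0 + 1)
  obtain ⟨lab, hlab, hbent, c1, hc1⟩ := exists_bent (r := r) (by omega)
  have hM1 : (1 : ℝ) ≤ 2 ^ r := one_le_pow₀ one_le_two
  have hMη : 1 ≤ 2 ^ r * η := by
    rw [div_lt_iff₀ hη0] at hr0
    have h2 : (r0 : ℝ) ≤ 2 ^ r := by
      have : r0 ≤ 2 ^ r := (by omega : r0 ≤ r).trans (Nat.lt_two_pow_self).le
      exact_mod_cast this
    nlinarith
  refine ⟨2 ^ r, by positivity, fun p0 => ?_⟩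
  set G := Fs (Fin (2 * r)) (2 ^ r) with hG
  have hGb : Bdd G := bdd_Fs _
  have hs := mparseval hGb
  rw [integral_Fs] at hs
  obtain ⟨p, hp0, hp, y, A, Ψ, hΨb, hΨ0, hA0, hA, hΨ, hmain⟩ := realize_sym
    (by rw [Fintype.card_fin]; omega) P α hα h1 (fun n => ‖mco G n‖ ^ 2)
    (fun n hn => by rw [norm_mco_Fs]; exact hP0 n hn)
    (fun n => by simp only [hG, norm_mco_Fs, mu, Pi.neg_apply, norm_ac_neg])
    (fun A => sum_le_hasSum A (fun _ _ => by positivity) hs) hη0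
    (by simpa only [hG, norm_mco_Fs] using hP) p0
  refine ⟨p, hp0, hp, fun W H C hW hW0 hdec => ?_⟩
  set F : Tc → (Fin (2 * r) → Tc) → ℂ := fun θ => Fw fun x => fourier (lab x : ℤ) θ with hF
  set m : Tc → ℂ := fun θ => (∑ c ∈ range (2 ^ r), fourier (c : ℤ) θ) / 2 ^ r with hm'
  have hM0 : (2 : ℂ) ^ r ≠ 0 := pow_ne_zero _ two_ne_zero
  have hm1 : ∀ θ, ‖m θ‖ ≤ 1 := by
    intro θ
    simp only [hm', norm_div, norm_pow, Complex.norm_ofNat]
    rw [div_le_one (by positivity)]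
    refine (norm_sum_le _ _).trans ?_
    simp only [norm_fourier, sum_const, card_range, nsmul_eq_mul, mul_one]
    push_cast; rfl
  have hm2 : ∀ θ, ‖1 - fourier 1 θ‖ * ‖m θ‖ ≤ 2 / 2 ^ r := by
    intro θ
    simp only [hm', norm_div, norm_pow, Complex.norm_ofNat]
    rw [← mul_div_assoc]
    gcongr
    exact geom_bound _ _
  have hcoef : ∀ n, n ≠ 0 → ∃ c0 : ℕ, ∀ θ, mco (F θ) n = mco G n * (fourier (c0 : ℤ) θ - m θ) := by
    intro n hn
    obtain ⟨c0, hc0⟩ := hbent n hn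
    refine ⟨c0, fun θ => ?_⟩
    simp only [hF, hG, hm']
    rw [mco_Fw, mco_Fs, hc0 fun c => fourier (c : ℤ) θ]
    push_cast
    field_simp
  have hcmp : ∀ θ n, ‖1 - fourier 1 θ‖ * ‖mco (F θ) n‖ ≤ 4 * ‖mco G n‖ := by
    intro θ n
    have hz := norm_one_sub_fourier_le θ
    by_cases hn : n = 0
    · subst hn
      simp only [hF, hG]
      rw [mco_Fw, mco_Fs]
      simp only [Pi.zero_apply, sg, ne_eq, not_true_eq_false, false_and, if_false, prod_const_one,
        mul_one]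
      rw [hc1 fun c => fourier (c : ℤ) θ, norm_mul, norm_mul]
      have h2 := geom_bound (2 ^ r) θ
      have h3 : ‖((2 : ℂ) ^ r - 1) * ∑ c ∈ range (2 ^ r), fourier (c : ℤ) θ +
          2 ^ r * fourier (c1 : ℤ) θ‖ ≤
          2 ^ r * ‖∑ c ∈ range (2 ^ r), fourier (c : ℤ) θ‖ + 2 ^ r := by
        refine (norm_add_le _ _).trans ?_
        rw [norm_mul, norm_mul, norm_fourier, norm_pow, Complex.norm_ofNat, mul_one]
        gcongr
        rw [show ((2 : ℂ) ^ r - 1) = ((2 ^ r - 1 : ℝ) : ℂ) by push_cast; rfl, Complex.norm_real,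
          Real.norm_of_nonneg (by linarith)]
        linarith
      rw [Complex.norm_real, Real.norm_of_nonneg (by positivity), mul_left_comm,
        mul_left_comm (4 : ℝ)]
      refine mul_le_mul_of_nonneg_left ?_ (norm_nonneg _)
      calc _ ≤ ‖1 - fourier 1 θ‖ *
            (2 ^ r * ‖∑ c ∈ range (2 ^ r), fourier (c : ℤ) θ‖ + 2 ^ r) := by gcongr
        _ ≤ _ := by nlinarith
    · obtain ⟨c0, hc0⟩ := hcoef n hn
      rw [hc0, norm_mul, mul_left_comm, mul_comm (4 : ℝ)]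
      gcongr
      have h2 : ‖fourier (c0 : ℤ) θ - m θ‖ ≤ 2 := by
        refine (norm_sub_le _ _).trans ?_
        rw [norm_fourier]; linarith [hm1 θ]
      nlinarith [norm_nonneg (1 - fourier 1 θ), norm_nonneg (fourier (c0 : ℤ) θ - m θ)]
  have hFb : ∀ θ, Bdd (F θ) := fun θ => bdd_Fw _
  set Ψs : Tc → ℝ := fun t => ∫ ω, ‖samp (tail G A) p y t ω‖ ^ 2 ∂pm _ with hΨs
  have hsb := (bdd_samp (bdd_tail hGb A) p y).norm.pow 2
  have hΨsb : Bdd Ψs := by
    refine ⟨hsb.meas.integral_prod_right', ?_⟩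
    obtain ⟨B, hB⟩ := hsb.bd
    refine ⟨B, fun t => ?_⟩
    have := norm_integral_le_of_norm_le_const (μ := pm (Fin (2 * r)))
      (ae_of_all _ fun ω => hB (t, ω))
    simpa using this
  have hΨsI : ∫ t, Ψs t ∂hm ≤ η := by
    simp only [hΨs]
    rw [integral_samp (bdd_tail hGb A) hp, integral_tail hGb, integral_Fs]
    linarith
  set Φ : Tc → ℝ := fun t => 3 * (16 * Ψs t + 4 * Ψ t ^ 2 + 4 * η) with hΦ
  have b1 : Bdd fun t => 16 * Ψs t := (Bdd.const _).mul hΨsb
  have b2 : Bdd fun t => 4 * Ψ t ^ 2 := (Bdd.const _).mul (hΨb.pow 2)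
  have hΦb : Bdd Φ := (Bdd.const _).mul ((b1.add b2).add (Bdd.const _))
  have hΦI : ∫ t, Φ t ∂hm ≤ δ0 := by
    simp only [hΦ]
    rw [integral_const_mul, integral_add ((b1.add b2).integrable _) ((Bdd.const _).integrable _),
      integral_add (b1.integrable _) (b2.integrable _), integral_const_mul, integral_const_mul]
    simp only [integral_const, probReal_univ, smul_eq_mul, one_mul]
    linarith
  set g : Tc × (Fin (2 * r) → Tc) → ℝ := fun z => ‖1 - fourier 1 z.1‖ ^ 2 *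
    (‖samp (F z.1) p y ((H : ℤ) • z.1) z.2‖ - 1) ^ 2 with hg
  have hgb : Bdd g := by
    refine (((Bdd.const _).sub ((bdd_fourier 1).comp measurable_fst)).norm.pow 2).mul
      (((Bdd.norm ?_).sub (Bdd.const _)).pow 2)
    simp only [samp, hF, Fw_eq]
    refine Bdd.sum _ fun k _ => ((Bdd.const _).mul ((bdd_fourier _).comp
      ((measurable_zsmul_Tc _).comp measurable_fst))).mul (Bdd.sum _ fun x _ =>
        ((bdd_fourier _).comp measurable_fst).mul ?_)
    exact (bdd_prod_bi x).comp (measurable_snd.add_const _)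
  have hpt : ∀ θ, ∫ ω, g (θ, ω) ∂pm _ ≤ Φ ((H : ℤ) • θ) := by
    intro θ
    set t := (H : ℤ) • θ with ht
    have b3 : Bdd fun ω => ‖samp (tail (F θ) A) p y t ω‖ ^ 2 :=
      (((bdd_samp (bdd_tail (hFb θ) A) p y).comp
        (g := fun ω => (t, ω)) measurable_prodMk_left).norm.pow 2)
    have b4 : Bdd fun ω => ‖1 - fourier 1 θ‖ ^ 2 * ‖samp (tail (F θ) A) p y t ω‖ ^ 2 :=
      (Bdd.const _).mul b3
    have h2 : ∀ ω, g (θ, ω) ≤ 3 * (‖1 - fourier 1 θ‖ ^ 2 * ‖samp (tail (F θ) A) p y t ω‖ ^ 2 +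
        (4 * Ψ t ^ 2 + 4 * η)) := by
      intro ω
      have h3 := hmain (fun n => mco (F θ) n * mFourier n ω)
        (fun n => if h : n ≠ 0 then ‖fourier ((hcoef n h).choose : ℤ) θ - m θ‖ else 1) ‖m θ‖
        (norm_nonneg _) (hm1 θ)
        (fun n hn => by
          have hn0 : n ≠ 0 := fun h => hA0 (h ▸ hn)
          rw [dif_pos hn0, norm_mul, norm_mFourier, mul_one, (hcoef n hn0).choose_spec, norm_mul,
            Real.sqrt_sq (norm_nonneg _), mul_comm])
        (fun n hn => by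
          have hn0 : n ≠ 0 := fun h => hA0 (h ▸ hn)
          rw [dif_pos hn0]
          have := abs_norm_sub_norm_le (fourier ((hcoef n hn0).choose : ℤ) θ - m θ)
            (fourier ((hcoef n hn0).choose : ℤ) θ)
          rwa [norm_fourier, sub_sub_cancel_left, norm_neg] at this) t
      simp only [hg, ← ht]
      rw [samp_split (F θ) A]
      have h4 := abs_norm_sub_norm_le (∑ n ∈ A, mco (F θ) n * mFourier n ω * Ub p y n t +
        samp (tail (F θ) A) p y t ω) (∑ n ∈ A, mco (F θ) n * mFourier n ω * Ub p y n t)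
      rw [add_sub_cancel_left] at h4
      have h5 := abs_sub_le ‖∑ n ∈ A, mco (F θ) n * mFourier n ω * Ub p y n t +
        samp (tail (F θ) A) p y t ω‖ ‖∑ n ∈ A, mco (F θ) n * mFourier n ω * Ub p y n t‖ 1
      have h6 := h5.trans (add_le_add h4 h3)
      have h7 := hm2 θ
      have h8 := norm_one_sub_fourier_le θ
      have h9 := hΨ0 t
      have h10 : (2 / 2 ^ r : ℝ) ^ 2 ≤ 4 * η := by
        rw [div_pow, div_le_iff₀ (by positivity)]; nlinarith
      rw [← sq_abs (_ - 1), ← mul_pow, ← mul_pow]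
      have hz0 := norm_nonneg (1 - fourier 1 θ)
      have h11 := mul_le_mul_of_nonneg_left h6 hz0
      refine (pow_le_pow_left₀ (by positivity) h11 2).trans ?_
      have h12 : ‖1 - fourier 1 θ‖ * Ψ t ≤ 2 * Ψ t := by gcongr
      have h13 : (‖1 - fourier 1 θ‖ * Ψ t) ^ 2 ≤ (2 * Ψ t) ^ 2 := by gcongr
      have h14 : (‖1 - fourier 1 θ‖ * ‖m θ‖) ^ 2 ≤ (2 / 2 ^ r : ℝ) ^ 2 := by gcongr
      rw [mul_add, mul_add]
      generalize ‖1 - fourier 1 θ‖ * ‖samp (tail (F θ) A) p y t ω‖ = y1 at *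
      generalize ‖1 - fourier 1 θ‖ * Ψ t = y2 at *
      generalize ‖1 - fourier 1 θ‖ * ‖m θ‖ = y3 at *
      nlinarith [sq_nonneg (y1 - y2), sq_nonneg (y1 - y3), sq_nonneg (y2 - y3)]
    refine (integral_mono ((hgb.comp (g := fun ω => (θ, ω)) measurable_prodMk_left).integrable _)
      (((Bdd.const (3 : ℝ)).mul (b4.add (Bdd.const _))).integrable _) h2).trans ?_
    rw [integral_const_mul, integral_add (b4.integrable _) ((Bdd.const _).integrable _),
      integral_const_mul]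
    have h3 := samp_compare (hFb θ) hGb (norm_nonneg _) (hcmp θ) A p y t
    simp only [integral_const, probReal_univ, smul_eq_mul, one_mul, hΦ, hΨs]
    linarith
  have hWg : Bdd fun z : Tc × (Fin (2 * r) → Tc) => W z.1 * g z :=
    (hW.comp measurable_fst).mul hgb
  have hint := hWg.integrable (hm.prod (pm _))
  obtain ⟨ω, hω⟩ := exists_le_integral hint.integral_prod_right
  have hC : 0 ≤ C := by
    have := hdec (fun _ => 1) (Bdd.const _)
    simp only [mul_one, integral_const, probReal_univ, smul_eq_mul] at this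
    rw [← this]; exact integral_nonneg hW0
  refine ⟨fun k => lab fun i => bit ((ω + fun i => (y k i : Tc)) i), fun k => hlab _, ?_⟩
  refine le_of_eq_of_le ?_ (hω.trans ?_)
  · refine integral_congr_ae (ae_of_all _ fun θ => ?_)
    simp only [hg, Pk, samp, hF, Fw, mul_sum, fourier_smul_pt]
    congr 5
    refine sum_congr rfl fun k _ => ?_
    push_cast
    rw [fourier_add, mul_assoc]
  · rw [← integral_integral_swap hint]
    simp only [integral_const_mul]
    calc _ ≤ ∫ θ, W θ * Φ ((H : ℤ) • θ) ∂hm := by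
          refine integral_mono ?_ ((hW.mul (hΦb.comp (measurable_zsmul_Tc _))).integrable _)
            fun θ => mul_le_mul_of_nonneg_left (hpt θ) (hW0 θ)
          simpa only [integral_const_mul] using hint.integral_prod_left
      _ = C * ∫ t, Φ t ∂hm := hdec Φ hΦb
      _ ≤ _ := by gcongr

end Vale.Agent.P130
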