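import Vale.Agent.P130.Bits
import Vale.Agent.P130.Real2

open MeasureTheory Complex Finset Filter Topology Function UnitAddTorus
open scoped Real ComplexConjugate

namespace Vale.Agent.P130

variable {d : Type} [Fintype d]

lemma Ub_neg (p : ℕ) (y : ℕ → d → ℝ) (n : d → ℤ) (t : Tc) :
    ‖Ub p y (-n) t‖ = ‖Ub p y n (-t)‖ := by
  rw [← Complex.norm_conj (Ub p y n (-t))]
  congr 1
  simp only [Ub, map_mul, map_sum, map_inv₀, conj_ofReal, fourier_neg_pt, conj_conj, ← ex_neg,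
    Pi.neg_apply, Int.cast_neg, neg_mul, sum_neg_distrib]

lemma integral_Ub {p : ℕ} (hp : 0 < p) (y : ℕ → d → ℝ) (n : d → ℤ) :
    ∫ t, ‖Ub p y n t‖ ^ 2 ∂hm = 1 := by
  have hpr : (0 : ℝ) < p := by exact_mod_cast hp
  have := integral_norm_sq_trig (range p)
    (fun k => ((Real.sqrt p : ℝ) : ℂ)⁻¹ * ex (∑ i, n i * y k i)) (fun k => (k : ℤ))
    (fun a _ b _ h => Nat.cast_injective h)
  simp only [norm_mul, norm_inv, Complex.norm_real, Real.norm_eq_abs, inv_pow, sq_abs,
    Real.sq_sqrt hpr.le, norm_ex, mul_one, sum_const, card_range, nsmul_eq_mul,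
    mul_inv_cancel₀ hpr.ne'] at this
  simpa only [Ub, mul_sum, mul_assoc] using this

/-- Symmetrised form of the realisation lemma, with the total error function. -/
theorem realize_sym [DecidableEq d] (hD : 2 ≤ Fintype.card d) (P : Finset (d → ℤ)) (α : d → ℤ)
    (hα : ∀ n ∈ P, 0 < n ⬝ᵥ α) (h1 : ∀ n ∈ P, ∃ i, |n i| = 1) (lam : (d → ℤ) → ℝ)
    (hl0 : ∀ n ∈ P, 0 < lam n) (hln : ∀ n, lam (-n) = lam n)
    (hl : ∀ A : Finset (d → ℤ), ∑ n ∈ A, lam n ≤ 1) {η : ℝ} (hη : 0 < η)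
    (hP : 1 - η ≤ 2 * ∑ n ∈ P, lam n) (p0 : ℕ) :
    ∃ p, p0 ≤ p ∧ 0 < p ∧ ∃ (y : ℕ → d → ℝ) (A : Finset (d → ℤ)) (Ψ : Tc → ℝ), Bdd Ψ ∧
      (∀ t, 0 ≤ Ψ t) ∧ 0 ∉ A ∧ 1 - η ≤ ∑ n ∈ A, lam n ∧ ∫ t, Ψ t ^ 2 ∂hm ≤ 3 * η ∧
      ∀ (c : (d → ℤ) → ℂ) (ρ : (d → ℤ) → ℝ) (κ : ℝ), 0 ≤ κ → κ ≤ 1 →
        (∀ n ∈ A, ‖c n‖ = ρ n * Real.sqrt (lam n)) → (∀ n ∈ A, |ρ n - 1| ≤ κ) →
        ∀ t, |‖∑ n ∈ A, c n * Ub p y n t‖ - 1| ≤ Ψ t + κ := by
  classical
  obtain ⟨v, hv0, hv⟩ := exists_perp P α hα h1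
  set ν : P ⊕ P → d → ℤ := Sum.elim (fun i => i.1) (fun i => -i.1) with hν
  have hνi : Injective ν := by
    rintro (i | i) (j | j) h
    · exact congrArg _ (Subtype.ext h)
    · have h2 : i.1 = -j.1 := h
      have := hα _ i.2
      have := hα _ j.2
      rw [h2, neg_dotProduct] at *
      omega
    · have h2 : -i.1 = j.1 := h
      have := hα _ i.2
      have h3 := hα _ j.2
      rw [← h2, neg_dotProduct] at h3
      omega
    · exact congrArg _ (Subtype.ext (neg_injective h))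
  set A := univ.image ν with hA
  have hsA : ∀ {M : Type} [AddCommMonoid M] (f : (d → ℤ) → M), ∑ n ∈ A, f n = ∑ j, f (ν j) :=
    fun f => sum_image fun a _ b _ h => hνi h
  have hAl : ∑ n ∈ A, lam n = 2 * ∑ n ∈ P, lam n := by
    rw [hsA, Fintype.sum_sum_type]
    simp only [hν, Sum.elim_inl, Sum.elim_inr, hln]
    rw [sum_coe_sort P lam, two_mul]
  set J : ℝ := (Fintype.card (P ⊕ P) : ℝ) with hJ
  have hJ0 : 0 ≤ J := Nat.cast_nonneg _
  set σ := min 1 (η / (8 * J ^ 2 + 6 * J + 1)) with hσ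
  have hσ0 : 0 < σ := lt_min one_pos (by positivity)
  have hσ1 : σ ≤ 1 := min_le_left _ _
  have hσ2 : σ * (8 * J ^ 2 + 6 * J + 1) ≤ η :=
    (le_div_iff₀ (by positivity)).mp (min_le_right _ _)
  obtain ⟨p, hp0, hp, y, E, hEm, hE1, hE2, hE3⟩ := realize hD (fun i : P => i.1) v α
    (fun i => (i.1 ⬝ᵥ α).toNat) hv0 hv (fun i => (Int.toNat_of_nonneg (hα _ i.2).le).symm)
    (fun i => by have := hα _ i.2; omega) (fun i => lam i) (fun i => hl0 _ i.2)
    (by rw [sum_coe_sort P lam, ← hAl]; exact hl A) (ε := σ ^ 2) (by positivity) p0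
  set E' : P ⊕ P → Set Tc := Sum.elim E (fun i => Neg.neg ⁻¹' E i) with hE'
  have hE'm : ∀ j, MeasurableSet (E' j) := by
    rintro (i | i)
    · exact hEm i
    · exact measurable_neg (hEm i)
  have hE'd : ∀ i ∈ (univ : Finset (P ⊕ P)), ∀ j ∈ (univ : Finset (P ⊕ P)), i ≠ j →
      Disjoint (E' i) (E' j) := by
    rintro (i | i) _ (j | j) _ hij
    · exact hE1 i j fun h => hij (by rw [h])
    · exact Set.disjoint_left.mpr fun s h1 h2 => hE2 i j s h1 h2
    · exact Set.disjoint_left.mpr fun s h1 h2 => hE2 j i s h2 h1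
    · exact (hE1 i j fun h => hij (by rw [h])).preimage _
  set a : P ⊕ P → Tc → ℝ := fun j t =>
    Real.sqrt (lam (ν j)) * ‖Ub p y (ν j) t‖ - ind (E' j) t with ha
  have hab : ∀ j, Bdd (a j) := fun j =>
    ((Bdd.const _).mul (bdd_Ub p y _).norm).sub (bdd_ind (hE'm j))
  have haI : ∀ j, ∫ t, a j t ^ 2 ∂hm ≤ σ ^ 2 := by
    rintro (i | i)
    · exact hE3 i
    · refine le_of_eq_of_le ?_ (hE3 i)
      rw [← integral_neg_eq_self]
      simp only [ha, hν, hE', Sum.elim_inr, hln, Ub_neg, neg_neg]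
      refine integral_congr_ae (ae_of_all _ fun t => ?_)
      simp only [ind, Set.indicator, Set.mem_preimage, neg_neg]
  have hlj : ∀ j, 0 < lam (ν j) := by
    rintro (i | i)
    · exact hl0 _ i.2
    · simp only [hν, Sum.elim_inr, hln]; exact hl0 _ i.2
  set U := ⋃ j ∈ (univ : Finset (P ⊕ P)), E' j with hU
  have hUm : MeasurableSet U := Finset.measurableSet_biUnion _ fun j _ => hE'm j
  have hb1 : Bdd fun t => 2 * ∑ j, |a j t| := (Bdd.const _).mul (Bdd.sum _ fun j _ => (hab j).abs)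
  have hb2 : Bdd fun t => 1 - ind U t := (Bdd.const _).sub (bdd_ind hUm)
  refine ⟨p, hp0, hp, y, A, fun t => 2 * ∑ j, |a j t| + (1 - ind U t), hb1.add hb2, fun t => ?_,
    ?_, hAl ▸ hP, ?_, ?_⟩
  · have := ind_le_one U t
    have : 0 ≤ ∑ j, |a j t| := sum_nonneg fun _ _ => abs_nonneg _
    linarith
  · intro h
    obtain ⟨j, _, hj⟩ := mem_image.mp h
    rcases j with i | i
    · have h2 : i.1 = 0 := hj
      have := hα _ i.2
      rw [h2] at this; simp at this
    · have h2 : i.1 = 0 := neg_eq_zero.mp hj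
      have := hα _ i.2
      rw [h2] at this; simp at this
  · have h2 : ∀ j, lam (ν j) ≤ ∫ t, ind (E' j) t ∂hm + 3 * σ := by
      intro j
      have e1 : lam (ν j) = ∫ t, lam (ν j) * ‖Ub p y (ν j) t‖ ^ 2 ∂hm := by
        rw [integral_const_mul, integral_Ub hp, mul_one]
      have e2 : ∫ t, |a j t| ∂hm ≤ σ := by
        refine (integral_le_sqrt hm (hab j).abs).trans ?_
        simp only [sq_abs]
        exact Real.sqrt_le_iff.mpr ⟨hσ0.le, haI j⟩
      have b1 := bdd_ind (hE'm j)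
      have b2 : Bdd fun t => 2 * |a j t| := (Bdd.const _).mul (hab j).abs
      have b3 := (hab j).pow 2
      have e3 : ∫ t, lam (ν j) * ‖Ub p y (ν j) t‖ ^ 2 ∂hm ≤
          ∫ t, (ind (E' j) t + 2 * |a j t| + a j t ^ 2) ∂hm := by
        refine integral_mono (((Bdd.const _).mul ((bdd_Ub p y _).norm.pow 2)).integrable _)
          (((b1.add b2).add b3).integrable _) fun t => ?_
        have f1 : lam (ν j) * ‖Ub p y (ν j) t‖ ^ 2 = (ind (E' j) t + a j t) ^ 2 := by
          simp only [ha]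
          rw [add_sub_cancel, mul_pow, Real.sq_sqrt (hlj j).le]
        have f2 := ind_sq (E' j) t
        have f3 := ind_nonneg (E' j) t
        have f4 := ind_le_one (E' j) t
        have f5 := le_abs_self (a j t)
        have f6 := abs_nonneg (a j t)
        simp only
        rw [f1]
        nlinarith
      rw [← e1, integral_add ((b1.add b2).integrable _) (b3.integrable _),
        integral_add (b1.integrable _) (b2.integrable _), integral_const_mul] at e3
      have := haI j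
      nlinarith
    have h3 : ∫ t, (1 - ind U t) ∂hm ≤ η + 3 * J * σ := by
      rw [integral_sub ((Bdd.const _).integrable _) ((bdd_ind hUm).integrable _)]
      simp only [hU, ← sum_ind_le_one _ _ hE'd]
      rw [integral_finsetSum _ fun j _ => (bdd_ind (hE'm j)).integrable _]
      have := sum_le_sum (s := univ) fun j _ => h2 j
      rw [← hsA, hAl, sum_add_distrib, sum_const, card_univ, nsmul_eq_mul, ← hJ] at this
      simp only [integral_const, probReal_univ, smul_eq_mul, mul_one]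
      linarith
    have b3 : Bdd fun t => 8 * J * ∑ j, a j t ^ 2 :=
      (Bdd.const _).mul (Bdd.sum _ fun j _ => (hab j).pow 2)
    have b4 : Bdd fun t => 2 * (1 - ind U t) := (Bdd.const _).mul hb2
    have h4 : ∫ t, (2 * ∑ j, |a j t| + (1 - ind U t)) ^ 2 ∂hm ≤
        ∫ t, (8 * J * ∑ j, a j t ^ 2 + 2 * (1 - ind U t)) ∂hm := by
      refine integral_mono (((hb1.add hb2).pow 2).integrable _) ((b3.add b4).integrable _)
        fun t => ?_
      have f1 := sq_sum_le_card_mul_sum_sq (s := univ) (f := fun j => |a j t|)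
      simp only [sq_abs, card_univ, ← hJ] at f1
      have f2 := ind_sq U t
      simp only
      nlinarith [sq_nonneg (2 * ∑ j, |a j t| - (1 - ind U t))]
    rw [integral_add (b3.integrable _) (b4.integrable _), integral_const_mul, integral_const_mul,
      integral_finsetSum _ fun j _ => ((hab j).pow 2).integrable _] at h4
    have h5 := sum_le_sum (s := univ) fun j _ => haI j
    rw [sum_const, card_univ, nsmul_eq_mul, ← hJ] at h5
    have h6 : 8 * J * ∑ j, ∫ t, a j t ^ 2 ∂hm ≤ 8 * J * (J * σ ^ 2) := by gcongr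
    have h7 : 8 * J ^ 2 * σ ^ 2 ≤ 8 * J ^ 2 * σ := by gcongr; nlinarith
    nlinarith
  · intro c ρ κ hκ0 hκ1 hc hρ t
    have hm : ∀ j, ν j ∈ A := fun j => mem_image_of_mem _ (mem_univ j)
    have h2 := abs_norm_sum_sub_ind_le' univ (fun j => c (ν j) * Ub p y (ν j) t) E' hE'd t
      (fun j => ρ (ν j)) (fun j => Real.sqrt (lam (ν j)) * ‖Ub p y (ν j) t‖) (C := 2) hκ0
      (fun j _ => by rw [norm_mul, hc _ (hm j), mul_assoc]) (fun j _ => hρ _ (hm j))
      (fun j _ => by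
        have := abs_le.mp (hρ _ (hm j))
        rw [abs_le]; constructor <;> linarith [this.1, this.2])
    rw [hsA]
    have h3 := abs_sub_le ‖∑ j, c (ν j) * Ub p y (ν j) t‖ (ind U t) 1
    rw [abs_sub_comm (ind U t), abs_of_nonneg (sub_nonneg.mpr (ind_le_one U t))] at h3
    simp only [ha]
    linarith

end Vale.Agent.P130
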