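import Vale.Agent.P130.Lim

open MeasureTheory Complex Finset Filter Topology Function
open scoped Real ComplexConjugate InnerProductSpace ENNReal

namespace Vale.Agent.P130

/-- The symbolic space. -/
abbrev Xs := ℤ × ℕ → Bool

/-- Shifts of the symbolic space. -/
def sh (m : ℤ) (x : Xs) : Xs := fun z => x (z.1 + m, z.2)

lemma sh_sh (m n : ℤ) (x : Xs) : sh m (sh n x) = sh (m + n) x := by
  funext z; simp [sh, add_assoc]

@[simp] lemma sh_zero (x : Xs) : sh 0 x = x := by funext z; simp [sh]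

lemma continuous_sh (m : ℤ) : Continuous (sh m) := continuous_pi fun _ => continuous_apply _

lemma measurable_sh (m : ℤ) : Measurable (sh m) := (continuous_sh m).measurable

/-- The shift as a measurable equivalence. -/
def shE : Xs ≃ᵐ Xs where
  toFun := sh 1
  invFun := sh (-1)
  left_inv x := by simp [sh_sh]
  right_inv x := by simp [sh_sh]
  measurable_toFun := measurable_sh 1
  measurable_invFun := measurable_sh (-1)

lemma shE_zpow (m : ℤ) (x : Xs) : (shE.toEquiv ^ m) x = sh m x := by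
  induction m using Int.induction_on generalizing x with
  | zero => simp
  | succ m ih => rw [zpow_add_one, Equiv.Perm.mul_apply, ih]; exact sh_sh _ _ _
  | pred m ih => rw [zpow_sub_one, Equiv.Perm.mul_apply, ih]; exact sh_sh _ _ _

/-- Indicator of the base of the `j`-th tower. -/
def bb (j : ℕ) (x : Xs) : ℝ := if x (0, j) then 1 else 0

lemma continuous_bb (j : ℕ) : Continuous (bb j) :=
  (continuous_of_discreteTopology (f := fun b : Bool => if b then (1 : ℝ) else 0)).comp
    (continuous_apply _)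

lemma continuous_bb_sh (j : ℕ) (m : ℤ) : Continuous fun x => bb j (sh m x) :=
  (continuous_bb j).comp (continuous_sh m)

lemma bdd_bb_sh (j : ℕ) (m : ℤ) : Bdd fun x => bb j (sh m x) :=
  Bdd.of_continuous (continuous_bb_sh j m)

lemma bb_nonneg (j : ℕ) (x : Xs) : 0 ≤ bb j x := by unfold bb; split_ifs <;> norm_num

namespace Par

variable (P : Par)

/-- The finite words approximating the system. -/
def word (J : ℕ) : Xs := fun z => decide (z.2 ≤ J ∧ z.1 ∈ P.B z.2 (J - z.2))

lemma bb_word (j e : ℕ) (s : ℤ) :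
    bb j (sh s (P.word (j + e))) = if s ∈ P.B j e then 1 else 0 := by
  simp [bb, sh, word]

/-- Averages along the finite words. -/
noncomputable def avg (J : ℕ) (g : Xs → ℝ) : ℝ :=
  (P.h J : ℝ)⁻¹ * ∑ s ∈ range (P.h J), g (sh s (P.word J))

/-- The limit property of the invariant measure. -/
def IsLim (μ : Measure Xs) : Prop :=
  ∀ g : Xs → ℝ, Continuous g → Tendsto (fun J => P.avg J g) (hyperfilter ℕ) (𝓝 (∫ x, g x ∂μ))

theorem exists_measure : ∃ μ : Measure Xs, IsProbabilityMeasure μ ∧ P.IsLim μ := by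
  let ν : ℕ → ProbabilityMeasure Xs := fun J =>
    ⟨(P.h J : ℝ≥0∞)⁻¹ • ∑ s ∈ range (P.h J), Measure.dirac (sh s (P.word J)), ⟨by
      simp only [Measure.smul_apply, Measure.coe_finsetSum, Finset.sum_apply, measure_univ,
        sum_const, card_range, nsmul_eq_mul, mul_one, smul_eq_mul]
      exact ENNReal.inv_mul_cancel (by exact_mod_cast (P.h_pos J).ne') (by simp)⟩⟩
  obtain ⟨μ, -, hμ⟩ := isCompact_univ.ultrafilter_le_nhds ((hyperfilter ℕ).map ν) (by simp)
  refine ⟨μ, inferInstance, fun g hg => ?_⟩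
  have h1 := ProbabilityMeasure.tendsto_iff_forall_integral_tendsto.mp
    (show Tendsto ν (hyperfilter ℕ) (𝓝 μ) from hμ)
    (BoundedContinuousFunction.mkOfCompact ⟨g, hg⟩)
  refine h1.congr fun J => ?_
  change ∫ x, g x ∂((P.h J : ℝ≥0∞)⁻¹ • ∑ s ∈ range (P.h J), Measure.dirac (sh s (P.word J))) = _
  rw [integral_smul_measure, integral_finsetSum_measure
    fun s _ => (Bdd.of_continuous hg).integrable _]
  simp [avg]

lemma tendsto_inv_h : Tendsto (fun J => (P.h J : ℝ)⁻¹) atTop (𝓝 0) := by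
  refine tendsto_inv_atTop_zero.comp (tendsto_atTop_mono (fun J => ?_)
    (tendsto_pow_atTop_atTop_of_one_lt (one_lt_two (α := ℝ))))
  exact_mod_cast P.pow_le_h J

variable {P} {μ : Measure Xs} [IsProbabilityMeasure μ]

lemma IsLim.mp_one (hμ : P.IsLim μ) : MeasurePreserving (sh 1) μ μ := by
  refine ⟨measurable_sh 1, ext_of_forall_integral_eq_of_IsFiniteMeasure fun g => ?_⟩
  rw [integral_map (measurable_sh 1).aemeasurable g.continuous.aestronglyMeasurable]
  have h1 := (hμ _ (g.continuous.comp (continuous_sh 1))).sub (hμ _ g.continuous)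
  have h2 : Tendsto (fun J => P.avg J (g ∘ sh 1) - P.avg J g) atTop (𝓝 0) := by
    have h3 := (P.tendsto_inv_h.mul_const (2 * ‖g‖))
    rw [zero_mul] at h3
    refine squeeze_zero_norm (fun J => ?_) h3
    simp only [avg, Function.comp_apply, sh_sh]
    rw [← mul_sub, ← sum_sub_distrib]
    have h4 := sum_range_sub (fun s : ℕ => g (sh s (P.word J))) (P.h J)
    simp only [Nat.cast_add, Nat.cast_one, add_comm _ (1 : ℤ)] at h4
    rw [h4, norm_mul, norm_inv, Real.norm_natCast]
    gcongr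
    refine (norm_sub_le _ _).trans ?_
    linarith [g.norm_coe_le_norm (sh (P.h J) (P.word J)),
      g.norm_coe_le_norm (sh (0 : ℕ) (P.word J))]
  exact sub_eq_zero.mp (tendsto_nhds_unique h1 (h2.mono_left Nat.hyperfilter_le_atTop))

lemma IsLim.mp (hμ : P.IsLim μ) (m : ℤ) : MeasurePreserving (sh m) μ μ := by
  have h1 : MeasurePreserving shE μ μ := hμ.mp_one
  have h2 : MeasurePreserving (sh (-1)) μ μ := h1.symm
  induction m using Int.induction_on with
  | zero => rw [funext sh_zero]; exact MeasurePreserving.id μ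
  | succ m ih => rw [← funext (sh_sh m 1)]; exact ih.comp hμ.mp_one
  | pred m ih => rw [sub_eq_add_neg, ← funext (sh_sh _ (-1))]; exact ih.comp h2

lemma IsLim.integral_sh (hμ : P.IsLim μ) (m : ℤ) {g : Xs → ℝ} (hg : Continuous g) :
    ∫ x, g (sh m x) ∂μ = ∫ x, g x ∂μ := by
  rw [← integral_map (measurable_sh m).aemeasurable hg.aestronglyMeasurable, (hμ.mp m).map_eq]

lemma IsLim.ae_nonpos (hμ : P.IsLim μ) {g : Xs → ℝ} (hg : Continuous g) (j : ℕ)
    (h : ∀ e s, g (sh s (P.word (j + e))) ≤ 0) : ∀ᵐ x ∂μ, g x ≤ 0 := by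
  have hc : Continuous fun x => max (g x) 0 := hg.max continuous_const
  have h1 := hμ _ hc
  have h2 : Tendsto (fun J => P.avg J fun x => max (g x) 0) atTop (𝓝 0) := by
    refine tendsto_const_nhds.congr' ?_
    filter_upwards [eventually_ge_atTop j] with J hJ
    obtain ⟨e, rfl⟩ := Nat.exists_eq_add_of_le hJ
    simp [avg, h]
  have h3 := tendsto_nhds_unique h1 (h2.mono_left Nat.hyperfilter_le_atTop)
  rw [integral_eq_zero_iff_of_nonneg (f := fun x => max (g x) 0) (fun x => le_max_right _ _)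
    ((Bdd.of_continuous hc).integrable _)] at h3
  filter_upwards [h3] with x hx
  exact max_eq_right_iff.mp hx

omit [IsProbabilityMeasure μ] in
lemma IsLim.corr (hμ : P.IsLim μ) (j : ℕ) (k : ℤ) :
    Tendsto (fun J => (P.h J : ℂ)⁻¹ * ∫ θ, fourier k θ *
      ((‖∑ u ∈ P.B j (J - j), fourier u θ‖ ^ 2 : ℝ) : ℂ) ∂hm) (hyperfilter ℕ)
      (𝓝 ((∫ x, bb j x * bb j (sh k x) ∂μ : ℝ) : ℂ)) := by
  have h1 := (Complex.continuous_ofReal.tendsto _).comp
    (hμ _ ((continuous_bb j).mul (continuous_bb_sh j k)))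
  refine h1.congr' (Eventually.filter_mono Nat.hyperfilter_le_atTop ?_)
  filter_upwards [eventually_ge_atTop j] with J hJ
  obtain ⟨e, rfl⟩ := Nat.exists_eq_add_of_le hJ
  simp only [Function.comp_apply, avg, Pi.mul_apply, sh_sh, bb_word, Nat.add_sub_cancel_left,
    norm_sq_sum_fourier, mul_sum, ← fourier_add]
  rw [integral_finsetSum _ fun u _ => (Bdd.sum _ fun v _ => bdd_fourier _).integrable _,
    ← mul_sum]
  push_cast
  congr 1
  have h2 : ∀ u ∈ P.B j e, ∫ θ, ∑ v ∈ P.B j e, fourier (k + (u - v)) θ ∂hm =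
      if k + u ∈ P.B j e then 1 else 0 := by
    intro u _
    rw [integral_finsetSum _ fun v _ => (bdd_fourier _).integrable _]
    simp only [integral_fourier]
    rw [← sum_ite_eq (P.B j e) (k + u) (fun _ => (1 : ℂ))]
    exact sum_congr rfl fun v _ => if_congr (by omega) rfl rfl
  rw [sum_congr rfl h2]
  simp only [ite_mul, one_mul, zero_mul, apply_ite Complex.ofReal, ofReal_one, ofReal_zero]
  rw [← sum_filter]
  refine sum_nbij (fun s : ℕ => (s : ℤ)) (fun s hs => (mem_filter.mp hs).2)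
    (fun a _ b _ h => Nat.cast_injective h) (fun u hu => ?_) (fun _ _ => rfl)
  have h3 := P.B_bound hu
  have h4 := P.h_pos j
  refine ⟨u.toNat, ?_, Int.toNat_of_nonneg h3.1⟩
  simp only [coe_filter, mem_range, Set.mem_ofPred_eq, Int.toNat_of_nonneg h3.1]
  exact ⟨by omega, hu⟩

omit [IsProbabilityMeasure μ] in
lemma IsLim.base (hμ : P.IsLim μ) (j : ℕ) :
    Tendsto (fun J => (P.h J : ℝ)⁻¹ * #(P.B j (J - j))) (hyperfilter ℕ) (𝓝 (∫ x, bb j x ∂μ)) := by
  refine (hμ _ (continuous_bb j)).congr' (Eventually.filter_mono Nat.hyperfilter_le_atTop ?_)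
  filter_upwards [eventually_ge_atTop j] with J hJ
  obtain ⟨e, rfl⟩ := Nat.exists_eq_add_of_le hJ
  simp only [avg, bb_word, Nat.add_sub_cancel_left, sum_boole]
  congr 2
  refine card_nbij (fun s : ℕ => (s : ℤ)) (fun s hs => (mem_filter.mp hs).2)
    (fun a _ b _ h => Nat.cast_injective h) (fun u hu => ?_)
  have h3 := P.B_bound hu
  have h4 := P.h_pos j
  refine ⟨u.toNat, ?_, Int.toNat_of_nonneg h3.1⟩
  simp only [coe_filter, mem_range, Set.mem_ofPred_eq, Int.toNat_of_nonneg h3.1]
  exact ⟨by omega, hu⟩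

lemma card_B_ge (P : Par) (j e : ℕ) :
    (1 - 2 * (1 / 2) ^ j + 2 * (1 / 2) ^ (j + e)) * (P.h (j + e) : ℝ) ≤ P.h j * #(P.B j e) := by
  induction e with
  | zero => simp [B]
  | succ e ih =>
    have h1 : (#(P.B j (e + 1)) : ℝ) = #(P.B j e) * P.p (j + e) := by
      rw [card_B, card_B, prod_range_succ]; push_cast; rfl
    have h2 : (P.h (j + (e + 1)) : ℝ) = P.p (j + e) * (P.h (j + e) + P.M (j + e)) := by
      rw [← add_assoc, P.h_succ]; push_cast; rfl
    have h3 : (P.M (j + e) : ℝ) ≤ (1 / 2) ^ (j + e) * P.h (j + e) := by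
      have : (2 : ℝ) ^ (j + e) * P.M (j + e) ≤ P.h (j + e) := by exact_mod_cast P.M_le (j + e)
      rw [one_div, inv_pow, ← div_eq_inv_mul, le_div_iff₀ (by positivity)]; linarith
    have h4 : (1 / 2 : ℝ) ^ (j + e) ≤ (1 / 2) ^ j :=
      pow_le_pow_of_le_one (by norm_num) (by norm_num) (by omega)
    have h5 : (0 : ℝ) < (1 / 2) ^ (j + e) := by positivity
    rw [h1, h2, ← add_assoc j, pow_succ, ← mul_assoc (P.h j : ℝ), mul_comm (P.p (j + e) : ℝ),
      ← mul_assoc]
    refine mul_le_mul_of_nonneg_right (le_trans ?_ ih) (Nat.cast_nonneg _)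
    have h6 : (0 : ℝ) ≤ P.M (j + e) := Nat.cast_nonneg _
    nlinarith

omit [IsProbabilityMeasure μ] in
lemma IsLim.base_ge (hμ : P.IsLim μ) (j : ℕ) :
    1 - 2 * (1 / 2) ^ j ≤ P.h j * ∫ x, bb j x ∂μ := by
  refine ge_of_tendsto ((hμ.base j).const_mul (P.h j : ℝ))
    (Eventually.filter_mono Nat.hyperfilter_le_atTop ?_)
  filter_upwards [eventually_ge_atTop j] with J hJ
  obtain ⟨e, rfl⟩ := Nat.exists_eq_add_of_le hJ
  have h1 := P.card_B_ge j e
  have h2 : (0 : ℝ) < P.h (j + e) := by exact_mod_cast P.h_pos _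
  rw [Nat.add_sub_cancel_left, mul_left_comm, ← div_eq_inv_mul, le_div_iff₀ h2]
  have : (0 : ℝ) < (1 / 2) ^ (j + e) := by positivity
  nlinarith

lemma IsLim.rel (hμ : P.IsLim μ) (i j : ℕ) (n : ℤ) :
    ∀ᵐ x ∂μ, bb i (sh n x) = ∑ u ∈ P.B i j, bb (i + j) (sh (n - u) x) := by
  have h := hμ.ae_nonpos (g := fun x => |bb i (sh n x) - ∑ u ∈ P.B i j, bb (i + j) (sh (n - u) x)|)
    (((continuous_bb_sh _ _).sub (continuous_finsetSum _ fun _ _ => continuous_bb_sh _ _)).abs)
    (i + j) (fun e s => by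
      simp only [sh_sh, bb_word]
      rw [add_assoc, bb_word, abs_nonpos_iff, sub_eq_zero]
      split_ifs with h
      · obtain ⟨a, ha, b, hb, hab⟩ := P.mem_B_add.mp h
        rw [sum_eq_single a, if_pos (by rwa [show n - a + s = b by omega])]
        · intro u hu hua
          rw [if_neg]
          intro hb'
          have h1 := P.B_bound ha
          have h2 := P.B_bound hu
          have h3 := P.h_pos i
          have := P.B_eq hb hb' (by omega) (by omega)
          omega
        · intro h; exact absurd ha h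
      · symm
        refine sum_eq_zero fun u hu => if_neg fun hb => h ?_
        exact P.mem_B_add.mpr ⟨u, hu, _, hb, by ring⟩)
  filter_upwards [h] with x hx
  exact sub_eq_zero.mp (abs_nonpos_iff.mp hx)

end Par

end Vale.Agent.P130
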