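import Vale.Agent.P130.Real0
import Vale.Agent.P130.Bent

open MeasureTheory Complex Finset Filter Topology Function UnitAddTorus
open scoped Real ComplexConjugate

namespace Vale.Agent.P130

variable {d : Type} [Fintype d]

/-- Haar measure on the torus. -/
noncomputable abbrev pm (d : Type) [Fintype d] : Measure (d → Tc) := Measure.pi fun _ => hm

/-- Fourier coefficients on the torus. -/
noncomputable def mco (f : (d → Tc) → ℂ) (n : d → ℤ) : ℂ := ∫ ω, mFourier (-n) ω * f ω ∂pm d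

lemma bdd_mFourier (n : d → ℤ) : Bdd (fun ω : d → Tc => mFourier n ω) :=
  Bdd.of_continuous (mFourier n).continuous

lemma mparseval {f : (d → Tc) → ℂ} (hf : Bdd f) :
    HasSum (fun n => ‖mco f n‖ ^ 2) (∫ ω, ‖f ω‖ ^ 2 ∂pm d) := by
  have h := hasSum_sq_mFourierCoeff ((hf.memLp (pm d) 2).toLp f)
  have hae := (hf.memLp (pm d) 2).coeFn_toLp
  convert h using 1
  · funext n
    congr 2
    refine integral_congr_ae ?_
    filter_upwards [hae] with t ht
    rw [ht, smul_eq_mul]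
  · refine integral_congr_ae ?_
    filter_upwards [hae] with t ht
    rw [ht]

lemma mFourier_add_pt (n : d → ℤ) (x y : d → Tc) :
    mFourier n (x + y) = mFourier n x * mFourier n y := by
  simp only [mFourier, ContinuousMap.coe_mk, Pi.add_apply, fourier_add_pt, prod_mul_distrib]

lemma norm_mFourier (n : d → ℤ) (x : d → Tc) : ‖mFourier n x‖ = 1 := by
  simp only [mFourier, ContinuousMap.coe_mk, norm_prod, norm_fourier, prod_const_one]

lemma mFourier_coe (n : d → ℤ) (y : d → ℝ) :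
    mFourier n (fun i => (y i : Tc)) = ex (∑ i, n i * y i) := by
  simp only [mFourier, ContinuousMap.coe_mk, fourier_coe, ex_sum]

lemma mco_translate (f : (d → Tc) → ℂ) (y : d → Tc) (n : d → ℤ) :
    mco (fun ω => f (ω + y)) n = mFourier n y * mco f n := by
  unfold mco
  rw [← integral_add_right_eq_self (fun ω => mFourier (-n) ω * f ω) y, ← integral_const_mul]
  refine integral_congr_ae (ae_of_all _ fun ω => ?_)
  simp only [mFourier_add_pt]
  have : mFourier n y * mFourier (-n) y = 1 := by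
    rw [← mFourier_add, add_neg_cancel, mFourier_zero]; rfl
  linear_combination (-(mFourier (-n) ω * f (ω + y))) * this

lemma mco_mFourier [DecidableEq d] (m n : d → ℤ) :
    mco (fun ω => mFourier m ω) n = if n = m then 1 else 0 := by
  unfold mco
  simp only [← mFourier_add]
  simp only [mFourier, ContinuousMap.coe_mk]
  rw [integral_fintype_prod_eq_prod (fun i (x : Tc) => fourier ((-n + m) i) x)]
  simp only [integral_fourier]
  split_ifs with h
  · subst h; simp
  · obtain ⟨i, hi⟩ := Function.ne_iff.mp h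
    refine prod_eq_zero (mem_univ i) (if_neg ?_)
    simp only [Pi.add_apply, Pi.neg_apply]; omega

lemma mco_sum {ι : Type*} (s : Finset ι) (c : ι → ℂ) (f : ι → (d → Tc) → ℂ)
    (hf : ∀ i ∈ s, Bdd (f i)) (n : d → ℤ) :
    mco (fun ω => ∑ i ∈ s, c i * f i ω) n = ∑ i ∈ s, c i * mco (f i) n := by
  unfold mco
  simp only [mul_sum]
  rw [integral_finsetSum _ fun i hi =>
    ((bdd_mFourier _).mul ((Bdd.const _).mul (hf i hi))).integrable _]
  refine sum_congr rfl fun i _ => ?_
  rw [← integral_const_mul]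
  exact integral_congr_ae (ae_of_all _ fun ω => by ring)

/-- The part of a function outside a finite set of frequencies. -/
noncomputable def tail (f : (d → Tc) → ℂ) (A : Finset (d → ℤ)) (ω : d → Tc) : ℂ :=
  f ω - ∑ n ∈ A, mco f n * mFourier n ω

lemma bdd_tail {f : (d → Tc) → ℂ} (hf : Bdd f) (A : Finset (d → ℤ)) : Bdd (tail f A) :=
  hf.sub (Bdd.sum _ fun _ _ => (Bdd.const _).mul (bdd_mFourier _))

lemma mco_tail [DecidableEq d] {f : (d → Tc) → ℂ} (hf : Bdd f) (A : Finset (d → ℤ)) (n : d → ℤ) :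
    mco (tail f A) n = if n ∈ A then 0 else mco f n := by
  have h1 : mco (tail f A) n = mco f n - mco (fun ω => ∑ n ∈ A, mco f n * mFourier n ω) n := by
    unfold mco tail
    rw [← integral_sub (((bdd_mFourier _).mul hf).integrable _) (((bdd_mFourier _).mul
      (Bdd.sum _ fun _ _ => (Bdd.const _).mul (bdd_mFourier _))).integrable _)]
    exact integral_congr_ae (ae_of_all _ fun ω => by simp only [mco]; ring)
  rw [h1, mco_sum _ _ _ fun _ _ => bdd_mFourier _]
  simp only [mco_mFourier, mul_ite, mul_one, mul_zero, sum_ite_eq]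
  split_ifs <;> simp

/-- The polynomial obtained by sampling a function along a translated sequence. -/
noncomputable def samp (f : (d → Tc) → ℂ) (p : ℕ) (y : ℕ → d → ℝ) (t : Tc) (ω : d → Tc) : ℂ :=
  ∑ k ∈ range p, (((Real.sqrt p : ℝ) : ℂ)⁻¹ * fourier k t) * f (ω + fun i => (y k i : Tc))

omit [Fintype d] in
lemma bdd_samp {f : (d → Tc) → ℂ} (hf : Bdd f) (p : ℕ) (y : ℕ → d → ℝ) :
    Bdd (fun z : Tc × (d → Tc) => samp f p y z.1 z.2) :=
  Bdd.sum _ fun _ _ => ((Bdd.const _).mul ((bdd_fourier _).comp measurable_fst)).mul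
    (hf.comp (measurable_snd.add_const _))

lemma mco_samp {f : (d → Tc) → ℂ} (hf : Bdd f) (p : ℕ) (y : ℕ → d → ℝ) (t : Tc) (n : d → ℤ) :
    mco (samp f p y t) n = mco f n * Ub p y n t := by
  unfold samp
  rw [mco_sum _ _ _ fun _ _ => hf.comp (measurable_add_const _)]
  simp only [mco_translate, mFourier_coe, Ub, mul_sum]
  exact sum_congr rfl fun k _ => by ring

lemma samp_split (f : (d → Tc) → ℂ) (A : Finset (d → ℤ)) (p : ℕ) (y : ℕ → d → ℝ) (t : Tc)
    (ω : d → Tc) : samp f p y t ω =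
      ∑ n ∈ A, mco f n * mFourier n ω * Ub p y n t + samp (tail f A) p y t ω := by
  simp only [samp, tail, mul_sub, sum_sub_distrib, Ub, mul_sum, mFourier_add_pt, mFourier_coe]
  rw [sum_comm (s := A)]
  have : ∀ a b c : ℂ, b = c → a = b + (a - c) := fun a b c h => by rw [h]; ring
  refine this _ _ _ (sum_congr rfl fun k _ => sum_congr rfl fun n _ => by ring)

lemma samp_compare [DecidableEq d] {f g : (d → Tc) → ℂ} (hf : Bdd f) (hg : Bdd g) {c C : ℝ}
    (hc : 0 ≤ c) (h : ∀ n, c * ‖mco f n‖ ≤ C * ‖mco g n‖) (A : Finset (d → ℤ)) (p : ℕ)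
    (y : ℕ → d → ℝ) (t : Tc) :
    c ^ 2 * ∫ ω, ‖samp (tail f A) p y t ω‖ ^ 2 ∂pm d ≤
      C ^ 2 * ∫ ω, ‖samp (tail g A) p y t ω‖ ^ 2 ∂pm d := by
  have h1 := (mparseval ((bdd_samp (bdd_tail hf A) p y).comp
    (g := fun ω => (t, ω)) measurable_prodMk_left)).mul_left (c ^ 2)
  have h2 := (mparseval ((bdd_samp (bdd_tail hg A) p y).comp
    (g := fun ω => (t, ω)) measurable_prodMk_left)).mul_left (C ^ 2)
  refine hasSum_le (fun n => ?_) h1 h2
  change c ^ 2 * ‖mco (samp (tail f A) p y t) n‖ ^ 2 ≤ C ^ 2 * ‖mco (samp (tail g A) p y t) n‖ ^ 2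
  rw [mco_samp (bdd_tail hf A), mco_samp (bdd_tail hg A), mco_tail hf, mco_tail hg]
  split_ifs
  · simp
  · rw [norm_mul, norm_mul, ← mul_pow, ← mul_pow, ← mul_assoc, ← mul_assoc]
    exact pow_le_pow_left₀ (by positivity) (mul_le_mul_of_nonneg_right (h n) (norm_nonneg _)) 2

lemma integral_samp {f : (d → Tc) → ℂ} (hf : Bdd f) {p : ℕ} (hp : 0 < p) (y : ℕ → d → ℝ) :
    ∫ t, ∫ ω, ‖samp f p y t ω‖ ^ 2 ∂pm d ∂hm = ∫ ω, ‖f ω‖ ^ 2 ∂pm d := by
  have hpr : (0 : ℝ) < p := by exact_mod_cast hp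
  rw [integral_integral_swap (((bdd_samp hf p y).norm.pow 2).integrable _)]
  have h1 : ∀ ω, ∫ t, ‖samp f p y t ω‖ ^ 2 ∂hm =
      ∑ k ∈ range p, (p : ℝ)⁻¹ * ‖f (ω + fun i => (y k i : Tc))‖ ^ 2 := by
    intro ω
    have := integral_norm_sq_trig (range p)
      (fun k => ((Real.sqrt p : ℝ) : ℂ)⁻¹ * f (ω + fun i => (y k i : Tc))) (fun k => (k : ℤ))
      (fun a _ b _ h => Nat.cast_injective h)
    simp only [norm_mul, norm_inv, Complex.norm_real, Real.norm_eq_abs, mul_pow, inv_pow, sq_abs,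
      Real.sq_sqrt hpr.le] at this
    rw [← this]
    simp only [samp, mul_right_comm]
  simp only [h1]
  rw [integral_finsetSum _ fun k _ =>
    ((Bdd.const _).mul ((hf.comp (measurable_add_const _)).norm.pow 2)).integrable _]
  simp only [integral_const_mul]
  have h2 : ∀ k, ∫ ω, ‖f (ω + fun i => (y k i : Tc))‖ ^ 2 ∂pm d = ∫ ω, ‖f ω‖ ^ 2 ∂pm d :=
    fun k => integral_add_right_eq_self (fun ω => ‖f ω‖ ^ 2) _
  simp only [h2, sum_const, card_range, nsmul_eq_mul]
  field_simp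

lemma integral_tail [DecidableEq d] {f : (d → Tc) → ℂ} (hf : Bdd f) (A : Finset (d → ℤ)) :
    ∫ ω, ‖tail f A ω‖ ^ 2 ∂pm d = ∫ ω, ‖f ω‖ ^ 2 ∂pm d - ∑ n ∈ A, ‖mco f n‖ ^ 2 := by
  have h1 := mparseval (bdd_tail hf A)
  have h2 : HasSum (fun n => if n ∈ A then ‖mco f n‖ ^ 2 else 0) (∑ n ∈ A, ‖mco f n‖ ^ 2) := by
    have := hasSum_sum_of_ne_finset_zero (L := .unconditional _) (s := A)
      (f := fun n => if n ∈ A then ‖mco f n‖ ^ 2 else 0) (fun n hn => if_neg hn)
    rwa [sum_congr rfl fun n hn => if_pos hn] at this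
  refine h1.unique (((mparseval hf).sub h2).congr_fun fun n => ?_)
  rw [mco_tail hf]
  split_ifs <;> simp

end Vale.Agent.P130
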