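import Vale.Agent.P130.Sys

open MeasureTheory Complex Finset Filter Topology Function
open scoped Real ComplexConjugate InnerProductSpace ENNReal

namespace Vale.Agent.P130

namespace Par

variable {P : Par} {μ : Measure Xs} [IsProbabilityMeasure μ]

lemma level_unique {J e : ℕ} {s : ℤ} {i i' : ℕ} (hi : i < P.h J) (hi' : i' < P.h J)
    (h : -(i : ℤ) + s ∈ P.B J e) (h' : -(i' : ℤ) + s ∈ P.B J e) : i = i' := by
  have := P.B_eq h h' (by omega) (by omega)
  omega

lemma IsLim.tower (hμ : P.IsLim μ) (J : ℕ) {I : Finset ℕ} (hI : ∀ i ∈ I, i < P.h J) :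
    ∀ᵐ x ∂μ, 0 ≤ 1 - ∑ i ∈ I, bb J (sh (-i) x) := by
  have h := hμ.ae_nonpos (g := fun x => ∑ i ∈ I, bb J (sh (-i) x) - 1)
    ((continuous_finsetSum _ fun _ _ => continuous_bb_sh _ _).sub continuous_const) J
    (fun e s => by
      simp only [sh_sh, bb_word, sum_boole, sub_nonpos, Nat.cast_le_one]
      refine card_le_one.mpr fun a ha b hb => ?_
      rw [mem_filter] at ha hb
      exact level_unique (hI a ha.1) (hI b hb.1) ha.2 hb.2)
  filter_upwards [h] with x hx
  linarith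

lemma IsLim.base_le (hμ : P.IsLim μ) (J : ℕ) : ∫ x, bb J x ∂μ ≤ (P.h J : ℝ)⁻¹ := by
  have h1 := integral_nonneg_of_ae (hμ.tower J (I := range (P.h J)) fun i hi => mem_range.mp hi)
  rw [integral_sub ((Bdd.const _).integrable _)
    ((Bdd.sum _ fun _ _ => bdd_bb_sh _ _).integrable _),
    integral_finsetSum _ fun _ _ => (bdd_bb_sh _ _).integrable _] at h1
  simp only [hμ.integral_sh _ (continuous_bb J), sum_const, card_range, nsmul_eq_mul,
    integral_const, probReal_univ, smul_eq_mul, mul_one] at h1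
  have h2 : (0 : ℝ) < P.h J := by exact_mod_cast P.h_pos J
  rw [← one_div, le_div_iff₀ h2]
  linarith

lemma IsLim.outside (hμ : P.IsLim μ) (J r : ℕ) :
    ∫ x, (1 - ∑ i ∈ Ico r (P.h J - r), bb J (sh (-i) x)) ∂μ ≤
      2 * (1 / 2) ^ J + 2 * r * (P.h J : ℝ)⁻¹ := by
  rw [integral_sub ((Bdd.const _).integrable _)
    ((Bdd.sum _ fun _ _ => bdd_bb_sh _ _).integrable _),
    integral_finsetSum _ fun _ _ => (bdd_bb_sh _ _).integrable _]
  simp only [hμ.integral_sh _ (continuous_bb J), sum_const, Nat.card_Ico, nsmul_eq_mul,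
    integral_const, probReal_univ, smul_eq_mul, mul_one]
  have h1 := hμ.base_ge J
  have h2 := hμ.base_le J
  have h3 : 0 ≤ ∫ x, bb J x ∂μ := integral_nonneg (bb_nonneg J)
  have h4 : (P.h J : ℝ) - 2 * r ≤ (P.h J - r - r : ℕ) := by
    have : (P.h J : ℤ) - 2 * r ≤ (P.h J - r - r : ℕ) := by omega
    exact_mod_cast this
  have h5 := mul_le_mul_of_nonneg_right h4 h3
  have h6 : 2 * (r : ℝ) * ∫ x, bb J x ∂μ ≤ 2 * r * (P.h J : ℝ)⁻¹ := by gcongr
  linarith

lemma tendsto_outside (P : Par) (r : ℕ) :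
    Tendsto (fun J => 2 * (1 / 2 : ℝ) ^ J + 2 * r * (P.h J : ℝ)⁻¹) atTop (𝓝 0) := by
  have := ((tendsto_pow_atTop_nhds_zero_of_lt_one (r := (1 / 2 : ℝ)) (by norm_num)
    (by norm_num)).const_mul 2).add (P.tendsto_inv_h.const_mul (2 * (r : ℝ)))
  simpa using this

theorem IsLim.singleton (hμ : P.IsLim μ) (x : Xs) : μ {x} = 0 := by
  have hle : ∀ φ : Xs → ℝ, Bdd φ → (∀ᵐ y ∂μ, 0 ≤ φ y) → φ x = 1 → μ.real {x} ≤ ∫ y, φ y ∂μ := by
    intro φ hφ h0 h1
    rw [← integral_ind μ (measurableSet_singleton x)]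
    refine integral_mono_ae ((bdd_ind (measurableSet_singleton x)).integrable _)
      (hφ.integrable _) ?_
    filter_upwards [h0] with y hy
    by_cases h : y = x
    · subst h; rw [ind_of_mem (Set.mem_singleton _), h1]
    · rwa [ind_of_notMem (by simpa using h)]
  have h1 : ∀ J, μ.real {x} ≤ 2 * (1 / 2 : ℝ) ^ J + 2 * (1 : ℕ) * (P.h J : ℝ)⁻¹ := by
    intro J
    have h0 : (0 : ℝ) ≤ (P.h J : ℝ)⁻¹ := by positivity
    by_cases h : ∃ i : ℕ, bb J (sh (-i) x) = 1
    · obtain ⟨i, hi⟩ := h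
      have := hle _ (bdd_bb_sh J (-i)) (ae_of_all _ fun _ => bb_nonneg _ _) hi
      rw [hμ.integral_sh _ (continuous_bb J)] at this
      have h2 := hμ.base_le J
      have : (0 : ℝ) ≤ (1 / 2) ^ J := by positivity
      push_cast; linarith
    · refine le_trans (hle _ ((Bdd.const _).sub (Bdd.sum _ fun _ _ => bdd_bb_sh _ _))
        (hμ.tower J fun i hi => by have := mem_Ico.mp hi; omega) ?_) (hμ.outside J 1)
      rw [sum_eq_zero, sub_zero]
      intro i _
      have : bb J (sh (-i) x) ≠ 1 := fun h' => h ⟨i, h'⟩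
      unfold bb at this ⊢
      split_ifs at this ⊢ with h2
      · exact absurd rfl this
      · rfl
  have h2 := ge_of_tendsto' (P.tendsto_outside 1) h1
  exact (measureReal_eq_zero_iff (measure_ne_top _ _)).mp (le_antisymm h2 measureReal_nonneg)

open Classical in
lemma IsLim.window (hμ : P.IsLim μ) (F : Finset (ℤ × ℕ)) (S : Set (F → Bool)) {r J : ℕ}
    (hr : ∀ z ∈ F, |z.1| ≤ r ∧ z.2 ≤ J) :
    ∀ᵐ x ∂μ, |ind (cylinder F S) x - ∑ i ∈ (Ico r (P.h J - r)).filter
      (fun i : ℕ => sh i (P.word J) ∈ cylinder (α := fun _ => Bool) F S), bb J (sh (-i) x)| ≤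
      1 - ∑ i ∈ Ico r (P.h J - r), bb J (sh (-i) x) := by
  have hc : Continuous (ind (cylinder (α := fun _ => Bool) F S)) :=
    (continuous_of_discreteTopology (f := ind S)).comp (Finset.continuous_restrict F)
  have h := hμ.ae_nonpos (g := fun x => |ind (cylinder F S) x - ∑ i ∈ (Ico r (P.h J - r)).filter
      (fun i : ℕ => sh i (P.word J) ∈ cylinder (α := fun _ => Bool) F S), bb J (sh (-i) x)| -
      (1 - ∑ i ∈ Ico r (P.h J - r), bb J (sh (-i) x)))
    ((hc.sub (continuous_finsetSum _ fun _ _ => continuous_bb_sh _ _)).abs.sub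
      (continuous_const.sub (continuous_finsetSum _ fun _ _ => continuous_bb_sh _ _))) J
    (fun e s => by
      simp only [sh_sh, bb_word, sub_nonpos]
      by_cases h : ∃ i ∈ Ico r (P.h J - r), -(i : ℤ) + s ∈ P.B J e
      · obtain ⟨i, hi, hb⟩ := h
        have hi' := mem_Ico.mp hi
        have hu : ∀ i' ∈ Ico r (P.h J - r), i' ≠ i →
            (if -(i' : ℤ) + s ∈ P.B J e then (1 : ℝ) else 0) = 0 := fun i' h1 h2 =>
          if_neg fun h3 => h2 (level_unique (by have := mem_Ico.mp h1; omega) (by omega) h3 hb)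
        have hw : F.restrict (sh s (P.word (J + e))) = F.restrict (sh i (P.word J)) := by
          funext z
          obtain ⟨h1, h2⟩ := hr z.1 z.2
          rw [abs_le] at h1
          obtain ⟨d, rfl⟩ := Nat.exists_eq_add_of_le h2
          simp only [Finset.restrict, sh, word, decide_eq_decide, add_assoc,
            Nat.add_sub_cancel_left, le_add_iff_nonneg_right, zero_le, true_and, mem_B_add]
          constructor
          · rintro ⟨a, ha, b, hb', hab⟩
            have h3 := P.B_bound ha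
            have h4 := P.h_pos z.1.2
            have := P.B_eq hb hb' (by omega) (by omega)
            rwa [show z.1.1 + i = a by omega]
          · intro ha
            exact ⟨_, ha, _, hb, by ring⟩
        rw [sum_eq_single i hu (fun h => absurd hi h), if_pos hb, sub_self, abs_nonpos_iff,
          sub_eq_zero, sum_filter, sum_eq_single i (fun i' h1 h2 => by rw [hu i' h1 h2]; simp)
            (fun h => absurd hi h), if_pos hb]
        split_ifs with h1
        · exact ind_of_mem (by rwa [mem_cylinder, hw])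
        · exact ind_of_notMem (by rwa [mem_cylinder, hw])
      · push Not at h
        rw [sum_eq_zero fun i hi => if_neg (h i (mem_filter.mp hi).1),
          sum_eq_zero fun i hi => if_neg (h i hi), sub_zero, sub_zero,
          abs_of_nonneg (ind_nonneg _ _)]
        exact ind_le_one _ _)
  filter_upwards [h] with x hx
  linarith

theorem IsLim.dense (hμ : P.IsLim μ) {g : Xs → ℂ} (hg : MemLp g 2 μ) (hg0 : ∫ x, g x ∂μ = 0)
    (horth : ∀ J n, 2 ≤ J →
      ∫ x, ((bb J (sh n x) - bb J (sh (n - 1) x) : ℝ) : ℂ) * g x ∂μ = 0) : g =ᵐ[μ] 0 := by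
  classical
  have hgi : Integrable g μ := hg.integrable one_le_two
  have hint : ∀ {φ : Xs → ℝ}, Bdd φ → Integrable (fun x => (φ x : ℂ) * g x) μ := by
    intro φ hφ
    obtain ⟨C, hC⟩ := hφ.ofReal.bd
    exact hgi.bdd_mul hφ.ofReal.meas.aestronglyMeasurable (ae_of_all _ hC)
  have hγ : ∀ J, 2 ≤ J → ∀ n, ∫ x, (bb J (sh n x) : ℂ) * g x ∂μ =
      ∫ x, (bb J (sh 0 x) : ℂ) * g x ∂μ := by
    intro J hJ n
    have h1 : ∀ n, ∫ x, (bb J (sh n x) : ℂ) * g x ∂μ = ∫ x, (bb J (sh (n - 1) x) : ℂ) * g x ∂μ := by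
      intro n
      rw [← sub_eq_zero, ← integral_sub (hint (bdd_bb_sh _ _)) (hint (bdd_bb_sh _ _)),
        ← horth J n hJ]
      exact integral_congr_ae (ae_of_all _ fun x => by push_cast; ring)
    induction n using Int.induction_on with
    | zero => rfl
    | succ n ih => rw [h1, add_sub_cancel_right, ih]
    | pred n ih => rw [← h1, ih]
  have hsum : ∀ J, 2 ≤ J → ∀ I : Finset ℕ,
      ∫ x, ((∑ i ∈ I, bb J (sh (-i) x) : ℝ) : ℂ) * g x ∂μ =
        #I * ∫ x, (bb J (sh 0 x) : ℂ) * g x ∂μ := by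
    intro J hJ I
    simp only [ofReal_sum, sum_mul]
    rw [integral_finsetSum _ fun i _ => hint (bdd_bb_sh _ _)]
    simp only [hγ J hJ (-_), sum_const, nsmul_eq_mul]
  have hcyl : ∀ s ∈ measurableCylinders (fun _ : ℤ × ℕ => Bool), ∫ x in s, g x ∂μ = 0 := by
    intro s hs
    have hsm : MeasurableSet s := MeasurableSet.of_mem_measurableCylinders hs
    obtain ⟨F, S, -, rfl⟩ := (mem_measurableCylinders _).mp hs
    set r : ℕ := ∑ z ∈ F, (z.1.natAbs + z.2) with hr
    have hr' : ∀ z ∈ F, z.1.natAbs + z.2 ≤ r := fun z hz =>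
      single_le_sum (f := fun z : ℤ × ℕ => z.1.natAbs + z.2) (fun _ _ => Nat.zero_le _) hz
    have e0 : ∫ x in cylinder F S, g x ∂μ = ∫ x, (ind (cylinder F S) x : ℂ) * g x ∂μ := by
      rw [← integral_indicator hsm]
      refine integral_congr_ae (ae_of_all _ fun x => ?_)
      by_cases h : x ∈ cylinder F S
      · simp [h, ind_of_mem h]
      · simp [h, ind_of_notMem h]
    have hg2 : Integrable (fun x => ‖g x‖ ^ 2) μ := hg.integrable_norm_pow two_ne_zero
    have key : ∀ ε : ℝ, 0 < ε → ∀ J, r + 2 ≤ J → ‖∫ x in cylinder F S, g x ∂μ‖ ≤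
        2 * (ε * ∫ x, ‖g x‖ ^ 2 ∂μ + ε⁻¹ * (2 * (1 / 2) ^ J + 2 * r * (P.h J : ℝ)⁻¹)) := by
      intro ε hε J hJ
      set I := Ico r (P.h J - r) with hI
      set O : Xs → ℝ := fun x => 1 - ∑ i ∈ I, bb J (sh (-i) x) with hO
      have hOb : Bdd O := (Bdd.const _).sub (Bdd.sum _ fun _ _ => bdd_bb_sh _ _)
      have hO0 : ∀ᵐ x ∂μ, 0 ≤ O x := hμ.tower J fun i hi => by have := mem_Ico.mp hi; omega
      have hO1 : ∀ x, O x ≤ 1 := fun x => sub_le_self _ (sum_nonneg fun _ _ => bb_nonneg _ _)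
      have hbd : ∀ φ : Xs → ℝ, (∀ᵐ x ∂μ, |φ x| ≤ O x) → ‖∫ x, (φ x : ℂ) * g x ∂μ‖ ≤
          ε * ∫ x, ‖g x‖ ^ 2 ∂μ + ε⁻¹ * (2 * (1 / 2) ^ J + 2 * r * (P.h J : ℝ)⁻¹) := by
        intro φ hφ
        have i1 := hg2.const_mul ε
        have i2 := (hOb.integrable μ).const_mul ε⁻¹
        refine (norm_integral_le_of_norm_le (i1.add i2) ?_).trans ?_
        · filter_upwards [hφ, hO0] with x h1 h2
          rw [norm_mul, Complex.norm_real, Real.norm_eq_abs, Pi.add_apply]
          have h3 := hO1 x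
          have h4 : O x ^ 2 ≤ O x := by nlinarith
          have h5 : O x * ‖g x‖ ≤ ε * ‖g x‖ ^ 2 + ε⁻¹ * O x ^ 2 := by
            have : ε * ‖g x‖ ^ 2 + ε⁻¹ * O x ^ 2 - 2 * (O x * ‖g x‖) =
                ε⁻¹ * (ε * ‖g x‖ - O x) ^ 2 := by field_simp; ring
            have h6 : 0 ≤ ε⁻¹ * (ε * ‖g x‖ - O x) ^ 2 := by positivity
            have h7 : 0 ≤ O x * ‖g x‖ := by positivity
            linarith
          have h6 : ε⁻¹ * O x ^ 2 ≤ ε⁻¹ * O x := by gcongr
          have h7 : |φ x| * ‖g x‖ ≤ O x * ‖g x‖ := by gcongr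
          linarith
        · simp only [Pi.add_apply]
          rw [integral_add i1 i2, integral_const_mul, integral_const_mul]
          gcongr
          exact hμ.outside J r
      have h1 := hbd O (by filter_upwards [hO0] with x hx; rw [abs_of_nonneg hx])
      have h2 := hbd _ (hμ.window F S (r := r) (J := J) fun z hz => by
        have := hr' z hz
        rw [Int.abs_eq_natAbs]; omega)
      simp only [hO, ofReal_sub, sub_mul, ofReal_one, one_mul] at h1 h2
      rw [integral_sub hgi (hint (Bdd.sum _ fun _ _ => bdd_bb_sh _ _)), hg0, hsum J (by omega),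
        zero_sub, norm_neg, norm_mul, Complex.norm_natCast] at h1
      rw [integral_sub (hint (bdd_ind hsm)) (hint (Bdd.sum _ fun _ _ => bdd_bb_sh _ _)),
        hsum J (by omega), ← e0] at h2
      have h3 := norm_le_norm_sub_add (∫ x in cylinder F S, g x ∂μ)
        (#(I.filter fun i : ℕ => sh i (P.word J) ∈ cylinder (α := fun _ => Bool) F S) *
          ∫ x, (bb J (sh 0 x) : ℂ) * g x ∂μ)
      rw [norm_mul, Complex.norm_natCast] at h3
      have h4 : (#(I.filter fun i : ℕ => sh i (P.word J) ∈ cylinder (α := fun _ => Bool) F S) : ℝ) *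
          ‖∫ x, (bb J (sh 0 x) : ℂ) * g x ∂μ‖ ≤ #I * ‖∫ x, (bb J (sh 0 x) : ℂ) * g x ∂μ‖ := by
        gcongr
        exact filter_subset _ _
      linarith
    have key2 : ∀ ε : ℝ, 0 < ε → ‖∫ x in cylinder F S, g x ∂μ‖ ≤ 2 * (ε * ∫ x, ‖g x‖ ^ 2 ∂μ) := by
      intro ε hε
      have := ((((P.tendsto_outside r).const_mul ε⁻¹).const_add
        (ε * ∫ x, ‖g x‖ ^ 2 ∂μ)).const_mul 2)
      rw [mul_zero, add_zero] at this
      exact ge_of_tendsto this ((eventually_ge_atTop _).mono (key ε hε))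
    have h5 : Tendsto (fun ε : ℝ => 2 * (ε * ∫ x, ‖g x‖ ^ 2 ∂μ)) (𝓝[>] 0) (𝓝 0) := by
      have : Continuous fun ε : ℝ => 2 * (ε * ∫ x, ‖g x‖ ^ 2 ∂μ) := by fun_prop
      simpa using (this.tendsto 0).mono_left nhdsWithin_le_nhds
    exact norm_le_zero_iff.mp (ge_of_tendsto h5 (eventually_nhdsWithin_of_forall key2))
  refine hgi.ae_eq_zero_of_forall_setIntegral_eq_zero fun s hs _ => ?_
  induction s, hs using MeasurableSpace.induction_on_inter
    generateFrom_measurableCylinders.symm isPiSystem_measurableCylinders with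
  | empty => simp
  | basic t ht => exact hcyl t ht
  | compl t ht ih => rw [setIntegral_compl ht hgi, hg0, ih (measure_lt_top _ _), sub_zero]
  | iUnion f hd hm ih =>
    rw [integral_iUnion hm hd hgi.integrableOn]
    simp [fun i => ih i (measure_lt_top _ _)]

end Par

end Vale.Agent.P130
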